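import Vale.Agent.P154.C3D

namespace Vale.Agent.P154

lemma c3m0r1 : radOK false 127 0 1 (radTerms false c3m0K 202890819089203200 Xn3 Xp3) = true := by
  decide +kernel

lemma c3m0r2 : radOK false 127 1 2 (radTerms false c3m0K 202890819089203200 Xn3 Xp3) = true := by
  decide +kernel

lemma c3m0r3 : radOK false 127 2 4 (radTerms false c3m0K 202890819089203200 Xn3 Xp3) = true := by
  decide +kernel

lemma c3m0r4 : radOK false 127 4 (2 * qq false) (radTerms false c3m0K 202890819089203200 Xn3 Xp3) = true := by
  decide +kernel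

lemma c3m0s : mainSz false 127 (mainTerms c3m0K c3m0E) = true := by
  decide +kernel

lemma c3m0m : allLt 11 (mainOK false 127 (mainTerms c3m0K c3m0E)) = true := by
  decide +kernel

lemma c3m0p : posOK false 127 c3m0up c3m0un = true := by
  decide +kernel

theorem c3m0_ok : Dlt g3 (1 / 100) 1 := by
  refine ⟨fun a => (1 / 4057816381784064) * (hv c3m0up a - hv c3m0un a),
    (Bd.const _).mul ((bd_hv _).sub (bd_hv _)), fun a ha => ?_, fun a ha b hb => ?_⟩
  · have := pos3 (B := 127) (by norm_num) c3m0p ha
    exact mul_nonneg (by norm_num) (sub_nonneg.2 this)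
  have := cert3 (B := 127) (φ := fun c => -X2 c) (Z := 59049) (m := 202890819089203200) (by norm_num)
    (by norm_num) (by norm_num) (fun a ha => by rw [eX3 ha]; push_cast; ring) c3m0r1 c3m0r2 c3m0r3
    c3m0r4 c3m0s c3m0m ha hb
  rw [SS_neg X2] at this
  simp only [btv, c3m0E, List.map_cons, List.map_nil, List.sum_cons, List.sum_nil, sg,
    cond_true, cond_false, eX3 ha, eX3 hb, eg3 ha, eg3 hb, e13] at this
  push_cast at this
  linarith

end Vale.Agent.P154
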