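import Vale.Agent.P154.C3D

namespace Vale.Agent.P154

lemma c3m1r1 : radOK false 129 0 1 (radTerms false c3m1K 12173449145352192 gp3 gn3) = true := by
  decide +kernel

lemma c3m1r2 : radOK false 129 1 2 (radTerms false c3m1K 12173449145352192 gp3 gn3) = true := by
  decide +kernel

lemma c3m1r3 : radOK false 129 2 4 (radTerms false c3m1K 12173449145352192 gp3 gn3) = true := by
  decide +kernel

lemma c3m1r4 : radOK false 129 4 (2 * qq false) (radTerms false c3m1K 12173449145352192 gp3 gn3) = true := by
  decide +kernel

lemma c3m1s : mainSz false 129 (mainTerms c3m1K c3m1E) = true := by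
  decide +kernel

lemma c3m1m : allLt 11 (mainOK false 129 (mainTerms c3m1K c3m1E)) = true := by
  decide +kernel

lemma c3m1p : posOK false 129 c3m1up c3m1un = true := by
  decide +kernel

theorem c3m1_ok : Clos g3 := by
  refine ⟨fun a => (1 / 12173449145352192) * (hv c3m1up a - hv c3m1un a),
    (Bd.const _).mul ((bd_hv _).sub (bd_hv _)), fun a ha => ?_, fun a ha b hb => ?_⟩
  · have := pos3 (B := 129) (by norm_num) c3m1p ha
    exact mul_nonneg (by norm_num) (sub_nonneg.2 this)
  have := cert3 (B := 129) (φ := g3) (Z := 5904900) (m := 12173449145352192) (by norm_num)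
    (by norm_num) (by norm_num) (fun a ha => by rw [eg3 ha]; push_cast; ring) c3m1r1 c3m1r2 c3m1r3
    c3m1r4 c3m1s c3m1m ha hb
  simp only [btv, c3m1E, List.map_cons, List.map_nil, List.sum_cons, List.sum_nil, sg,
    cond_true, cond_false, eg3 ha, eg3 hb] at this
  push_cast at this
  linarith

end Vale.Agent.P154
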