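import Vale.Agent.P154.C3D

namespace Vale.Agent.P154

lemma c3m2r1 : radOK false 132 0 1 (radTerms false c3m2K 608672457267609600 Xn3 Xp3) = true := by
  decide +kernel

lemma c3m2r2 : radOK false 132 1 2 (radTerms false c3m2K 608672457267609600 Xn3 Xp3) = true := by
  decide +kernel

lemma c3m2r3 : radOK false 132 2 4 (radTerms false c3m2K 608672457267609600 Xn3 Xp3) = true := by
  decide +kernel

lemma c3m2r4 : radOK false 132 4 (2 * qq false) (radTerms false c3m2K 608672457267609600 Xn3 Xp3) = true := by
  decide +kernel

lemma c3m2s : mainSz false 132 (mainTerms c3m2K c3m2E) = true := by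
  decide +kernel

lemma c3m2m : allLt 11 (mainOK false 132 (mainTerms c3m2K c3m2E)) = true := by
  decide +kernel

theorem c3m2_ok : P1 := fun a ha b hb => by
  have := cert3 (B := 132) (φ := fun c => -X2 c) (Z := 59049) (m := 608672457267609600) (by norm_num)
    (by norm_num) (by norm_num) (fun a ha => by rw [eX3 ha]; push_cast; ring) c3m2r1 c3m2r2 c3m2r3
    c3m2r4 c3m2s c3m2m ha hb
  rw [SS_neg X2] at this
  simp only [btv, c3m2E, List.map_cons, List.map_nil, List.sum_cons, List.sum_nil, sg,
    cond_true, cond_false, eX3 ha, eX3 hb, e13] at this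
  push_cast at this
  linarith

end Vale.Agent.P154
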