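import Vale.Agent.P154.C3D

namespace Vale.Agent.P154

lemma c3m3r1 : radOK false 134 0 1 (radTerms false c3m3K 608672457267609600 Tn3 Tp3) = true := by
  decide +kernel

lemma c3m3r2 : radOK false 134 1 2 (radTerms false c3m3K 608672457267609600 Tn3 Tp3) = true := by
  decide +kernel

lemma c3m3r3 : radOK false 134 2 4 (radTerms false c3m3K 608672457267609600 Tn3 Tp3) = true := by
  decide +kernel

lemma c3m3r4 : radOK false 134 4 (2 * qq false) (radTerms false c3m3K 608672457267609600 Tn3 Tp3) = true := by
  decide +kernel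

lemma c3m3s : mainSz false 134 (mainTerms c3m3K c3m3E) = true := by
  decide +kernel

lemma c3m3m : allLt 11 (mainOK false 134 (mainTerms c3m3K c3m3E)) = true := by
  decide +kernel

theorem c3m3_ok : P2 := fun a ha b hb => by
  have := cert3 (B := 134) (φ := fun c => -X3 c) (Z := 59049) (m := 608672457267609600) (by norm_num)
    (by norm_num) (by norm_num) (fun a ha => by rw [eT3 ha]; push_cast; ring) c3m3r1 c3m3r2 c3m3r3
    c3m3r4 c3m3s c3m3m ha hb
  rw [SS_neg X3] at this
  simp only [btv, c3m3E, List.map_cons, List.map_nil, List.sum_cons, List.sum_nil, sg,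
    cond_true, cond_false, eT3 ha, eT3 hb, eX3 ha, eX3 hb, eQ3 ha, eQ3 hb, e13] at this
  push_cast at this
  linarith

end Vale.Agent.P154
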