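import Vale.Agent.P154.Law

namespace Vale.Agent.P154

open Filter Topology

variable {q : ℕ} [NeZero q]

theorem bd_sub_inner {B : Fn q} (hB : IsLaw B) {G : V q → ℝ} (hG : Sub G) :
    Bd (fun a => B fun b => G (a * b)) := (hB.sub_inner hG).bd

theorem Cx.star {A A' B B' : Fn q} (hA : IsLaw A) (hA' : IsLaw A') (hB : IsLaw B)
    (hB' : IsLaw B') (h : Cx A A') (h' : Cx B B') : Cx (star A B) (star A' B') := by
  intro G hG
  rw [hA.star_sub hB hG, hA'.star_sub hB' hG]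
  refine le_trans ?_ (h _ (hB'.sub_inner hG))
  exact hA.mono _ _ (bd_sub_inner hB hG) (bd_sub_inner hB' hG) fun a ha =>
    h' _ (hG.mul_left (Sx.nn ha))

theorem Cx.Mop {lam : ℝ} (hl : Adm q lam) {A A' : Fn q} (h : Cx A A') :
    Cx (Mop lam A) (Mop lam A') := fun _ hG => h _ (hG.Mv hl)

theorem Cx.pw {A A' : Fn q} (hA : IsLaw A) (hA' : IsLaw A') (h : Cx A A') (k : ℕ) :
    Cx (pw A k) (pw A' k) := by
  induction k with
  | zero => exact fun _ _ => le_rfl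
  | succ k ih => exact Cx.star hA hA' (hA.pw k) (hA'.pw k) h ih

theorem Cx.mix {p : ℕ → ℝ} (hp : Prob p) {F F' : ℕ → Fn q} (hF : ∀ k, IsLaw (F k))
    (hF' : ∀ k, IsLaw (F' k)) (h : ∀ k, Cx (F k) (F' k)) : Cx (mix p F) (mix p F') :=
  fun G hG => (summable_mix hp hF hG.bd).tsum_le_tsum
    (fun k => mul_le_mul_of_nonneg_left (h k G hG) (hp.1 k)) (summable_mix hp hF' hG.bd)

theorem cx_top {A : Fn q} (hA : IsLaw A) : Cx A top := by
  intro G hG
  have hb : ∀ i : Fin q, Bd (fun a : V q => G (Pi.single i 1) * a i) :=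
    fun i => (Bd.const _).mul (bd_coord i)
  have h1 : A G ≤ A (fun a => ∑ i, G (Pi.single i 1) * a i) :=
    hA.mono _ _ hG.bd (Bd.sum _ fun i _ => hb i) fun a ha => by
      simpa only [mul_comm] using hG.le_coord (Sx.nn ha)
  rw [hA.sum _ fun i _ => hb i] at h1
  refine h1.trans (le_of_eq ?_)
  unfold top
  rw [Finset.sum_div]
  refine Finset.sum_congr rfl fun i _ => ?_
  rw [hA.smul _ _ (bd_coord i), hA.coord, mul_one]
  have e : (Pi.single i (q : ℝ) : V q) = (q : ℝ) • (Pi.single i 1 : V q) := by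
    funext j
    simp [Pi.single_apply]
  rw [e, hG.2 _ _ qpos.le (single_nn i), mul_div_cancel_left₀ _ qne]

theorem cx_pw_succ {A : Fn q} (hA : IsLaw A) (k : ℕ) : Cx (pw A k) (pw A (k + 1)) := by
  induction k with
  | zero => exact fun G hG => (hA.pw 1).jen G hG
  | succ k ih => exact Cx.star hA hA (hA.pw k) (hA.pw (k + 1)) (fun _ _ => le_rfl) ih

theorem cx_seq {lam : ℝ} (hl : Adm q lam) {p : ℕ → ℝ} (hp : Prob p) (n : ℕ) :
    Cx (seq lam p (n + 1) : Fn q) (seq lam p n) := by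
  induction n with
  | zero => exact cx_top (IsLaw.seq hl hp 1)
  | succ n ih =>
    have a1 := (IsLaw.seq hl hp (n + 1)).Mop hl
    have a2 := (IsLaw.seq hl hp n).Mop hl
    exact Cx.mix hp (fun k => a1.pw k) (fun k => a2.pw k) fun k => Cx.pw a1 a2 (Cx.Mop hl ih) k

theorem convex_Sx : Convex ℝ (Sx q) := by
  intro x hx y hy a b ha hb hab
  refine ⟨fun i => add_nonneg (mul_nonneg ha (hx.1 i)) (mul_nonneg hb (hy.1 i)), ?_⟩
  simp only [Pi.add_apply, Pi.smul_apply, smul_eq_mul, Finset.sum_add_distrib, ← Finset.mul_sum,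
    hx.2, hy.2]
  rw [← add_mul, hab, one_mul]

theorem hat_zero (φ : V q → ℝ) : hat φ 0 = 0 := by
  unfold hat av; simp

theorem sub_hat {φ : V q → ℝ} (h : ConvexOn ℝ (Sx q) φ) : Sub (hat φ) := by
  refine ⟨fun x y hx hy => ?_, fun t x ht _ => hat_smul φ ht x⟩
  by_cases h1 : av x = 0
  · rw [eq_zero_of_av hx h1, zero_add, hat_zero, zero_add]
  by_cases h2 : av y = 0
  · rw [eq_zero_of_av hy h2, add_zero, hat_zero, add_zero]
  have p1 : 0 < av x := lt_of_le_of_ne (av_nonneg hx) (Ne.symm h1)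
  have p2 : 0 < av y := lt_of_le_of_ne (av_nonneg hy) (Ne.symm h2)
  have p3 : 0 < av x + av y := add_pos p1 p2
  have key := h.2 (norm_mem hx h1) (norm_mem hy h2) (div_pos p1 p3).le (div_pos p2 p3).le
    (by rw [← add_div, div_self p3.ne'])
  have e : (av x / (av x + av y)) • (av x)⁻¹ • x + (av y / (av x + av y)) • (av y)⁻¹ • y
      = (av x + av y)⁻¹ • (x + y) := by
    funext i
    simp only [Pi.add_apply, Pi.smul_apply, smul_eq_mul]
    field_simp
  rw [e] at key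
  unfold hat
  rw [av_add]
  refine (mul_le_mul_of_nonneg_left key p3.le).trans (le_of_eq ?_)
  simp only [smul_eq_mul]
  field_simp

theorem bd_of_convexOn {φ : V q → ℝ} (h : ConvexOn ℝ (Sx q) φ) : Bd φ := by
  obtain ⟨C, hC⟩ := (sub_hat h).bd
  exact ⟨C, fun a ha => hat_of_mem φ ha ▸ hC a ha⟩

theorem IsLaw.hat_eq {A : Fn q} (hA : IsLaw A) {φ : V q → ℝ} (h : ConvexOn ℝ (Sx q) φ) :
    A (hat φ) = A φ := hA.congr (sub_hat h).bd fun _ ha => hat_of_mem φ ha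

theorem Cx.le_of_convexOn {A B : Fn q} (hA : IsLaw A) (hB : IsLaw B) (h : Cx A B)
    {φ : V q → ℝ} (hφ : ConvexOn ℝ (Sx q) φ) : A φ ≤ B φ := by
  rw [← hA.hat_eq hφ, ← hB.hat_eq hφ]
  exact h _ (sub_hat hφ)

theorem convexOn_avg {f : ℝ → ℝ} (hf : ConvexOn ℝ (Set.Ici 0) f) :
    ConvexOn ℝ (Sx q) (fun a => (∑ i, f (a i)) / q) := by
  refine ⟨convex_Sx, fun x hx y hy a b ha hb hab => ?_⟩
  simp only [smul_eq_mul, ← mul_div_assoc, ← add_div, Finset.mul_sum, ← Finset.sum_add_distrib]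
  refine div_le_div_of_nonneg_right (Finset.sum_le_sum fun i _ => ?_) qpos.le
  exact hf.2 (hx.1 i) (hy.1 i) ha hb hab

theorem convexOn_X2 : ConvexOn ℝ (Sx q) X2 := by
  refine convexOn_avg (f := fun t => (t - 1) ^ 2) ⟨convex_Ici 0, fun x _ y _ a b ha hb hab => ?_⟩
  simp only [smul_eq_mul]
  have : b = 1 - a := by linarith
  subst this
  nlinarith [mul_nonneg (mul_nonneg ha hb) (sq_nonneg (x - y))]

theorem X2_nonneg (a : V q) : 0 ≤ X2 a :=
  div_nonneg (Finset.sum_nonneg fun _ _ => sq_nonneg _) qpos.le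

theorem convexOn_X2sq : ConvexOn ℝ (Sx q) (fun a => X2 a ^ 2) :=
  (convexOn_X2 (q := q)).pow (fun a _ => X2_nonneg a) 2

theorem convexOn_X3 : ConvexOn ℝ (Sx q) (fun a => X3 a + 3 * X2 a) := by
  have h : ConvexOn ℝ (Set.Ici (0 : ℝ)) (fun t => (t - 1) ^ 3 + 3 * (t - 1) ^ 2) := by
    refine ⟨convex_Ici 0, fun x hx y hy a b ha hb hab => ?_⟩
    have h3 := (convexOn_pow (𝕜 := ℝ) 3).2 hx hy ha hb hab
    simp only [smul_eq_mul] at h3 ⊢
    have : b = 1 - a := by linarith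
    subst this
    nlinarith
  have h2 := convexOn_avg (q := q) h
  have e : (fun a : V q => X3 a + 3 * X2 a)
      = fun a : V q => (∑ i, ((a i - 1) ^ 3 + 3 * (a i - 1) ^ 2)) / (q : ℝ) := by
    funext a
    unfold X3 X2
    rw [Finset.sum_add_distrib, ← Finset.mul_sum]
    ring
  rw [e]
  exact h2

theorem convexOn_tv : ConvexOn ℝ (Sx q) tv := by
  have h : ConvexOn ℝ (Set.Ici (0 : ℝ)) (fun t => |t - 1|) := by
    refine ⟨convex_Ici 0, fun x _ y _ a b ha hb hab => ?_⟩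
    simp only [smul_eq_mul]
    have e : a * x + b * y - 1 = a * (x - 1) + b * (y - 1) := by linear_combination hab
    rw [e]
    refine (abs_add_le _ _).trans (le_of_eq ?_)
    rw [abs_mul, abs_mul, abs_of_nonneg ha, abs_of_nonneg hb]
  exact (convexOn_avg (q := q) h).smul (c := (1 / 2 : ℝ)) (by norm_num)

theorem antitone_seq {lam : ℝ} (hl : Adm q lam) {p : ℕ → ℝ} (hp : Prob p) {φ : V q → ℝ}
    (hφ : ConvexOn ℝ (Sx q) φ) : Antitone fun n => seq lam p n φ :=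
  antitone_nat_of_succ_le fun n =>
    Cx.le_of_convexOn (IsLaw.seq hl hp (n + 1)) (IsLaw.seq hl hp n) (cx_seq hl hp n) hφ

theorem exists_lim {lam : ℝ} (hl : Adm q lam) {p : ℕ → ℝ} (hp : Prob p) {φ : V q → ℝ}
    (hφ : ConvexOn ℝ (Sx q) φ) :
    ∃ L : ℝ, Tendsto (fun n => seq lam p n φ) atTop (𝓝 L) ∧ ∀ n, L ≤ seq lam p n φ := by
  obtain ⟨C, hC⟩ := bd_of_convexOn hφ
  have hb : BddBelow (Set.range fun n => seq lam p n φ) := by
    refine ⟨-C, ?_⟩
    rintro _ ⟨n, rfl⟩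
    exact (abs_le.1 ((IsLaw.seq hl hp n).abs_le hC)).1
  exact ⟨_, tendsto_atTop_ciInf (antitone_seq hl hp hφ) hb, fun n => ciInf_le hb n⟩

theorem X2_le {a : V q} (ha : a ∈ Sx q) : X2 a ≤ (q : ℝ) - 1 := by
  unfold X2
  rw [div_le_iff₀ qpos]
  calc ∑ i, (a i - 1) ^ 2 ≤ ∑ i, (((q : ℝ) - 2) * a i + 1) := Finset.sum_le_sum fun i _ => by
        nlinarith [mul_nonneg (ha.1 i) (sub_nonneg.2 (Sx.le ha i))]
    _ = ((q : ℝ) - 1) * q := by
        rw [Finset.sum_add_distrib, ← Finset.mul_sum, ha.2]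
        simp
        ring

theorem X2_one : X2 (1 : V q) = 0 := by simp [X2]

theorem X3_one : X3 (1 : V q) = 0 := by simp [X3]

theorem X4_one : X4 (1 : V q) = 0 := by simp [X4]

theorem Mv_sub_one (lam : ℝ) {a : V q} (ha : a ∈ Sx q) (i : Fin q) :
    Mv lam a i - 1 = lam * (a i - 1) := by
  simp only [Mv, Sx.av ha]
  ring

theorem X2_Mv (lam : ℝ) {a : V q} (ha : a ∈ Sx q) : X2 (Mv lam a) = lam ^ 2 * X2 a := by
  simp only [X2, Mv_sub_one lam ha, mul_pow, ← Finset.mul_sum, mul_div_assoc]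

theorem X3_Mv (lam : ℝ) {a : V q} (ha : a ∈ Sx q) : X3 (Mv lam a) = lam ^ 3 * X3 a := by
  simp only [X3, Mv_sub_one lam ha, mul_pow, ← Finset.mul_sum, mul_div_assoc]

theorem X4_Mv (lam : ℝ) {a : V q} (ha : a ∈ Sx q) : X4 (Mv lam a) = lam ^ 4 * X4 a := by
  simp only [X4, Mv_sub_one lam ha, mul_pow, ← Finset.mul_sum, mul_div_assoc]

theorem Mop_X2 {lam : ℝ} (hl : Adm q lam) {A : Fn q} (hA : IsLaw A) :
    Mop lam A X2 = lam ^ 2 * A X2 := by
  rw [← hA.smul _ _ bd_X2]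
  exact hA.congr (bd_X2.Mv hl) fun a ha => X2_Mv lam ha

theorem Mop_X3 {lam : ℝ} (hl : Adm q lam) {A : Fn q} (hA : IsLaw A) :
    Mop lam A X3 = lam ^ 3 * A X3 := by
  rw [← hA.smul _ _ bd_X3]
  exact hA.congr (bd_X3.Mv hl) fun a ha => X3_Mv lam ha

theorem bd_X2sq : Bd (fun a : V q => X2 a ^ 2) := bd_of_convexOn convexOn_X2sq

theorem Mop_X2sq {lam : ℝ} (hl : Adm q lam) {A : Fn q} (hA : IsLaw A) :
    Mop lam A (fun a => X2 a ^ 2) = lam ^ 4 * A (fun a => X2 a ^ 2) := by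
  rw [← hA.smul _ _ bd_X2sq]
  exact hA.congr (bd_X2sq.Mv hl) fun a ha => by
    show X2 (Mv lam a) ^ 2 = _
    rw [X2_Mv lam ha]; ring

theorem tv_nonneg (a : V q) : 0 ≤ tv a :=
  mul_nonneg (by norm_num) (div_nonneg (Finset.sum_nonneg fun _ _ => abs_nonneg _) qpos.le)

theorem tv_le {e : ℝ} (he : 0 < e) (a : V q) : tv a ≤ e / 2 + 1 / (8 * e) * X2 a := by
  have h1 : ∑ i, |a i - 1| ≤ ∑ i, (e + 1 / (4 * e) * (a i - 1) ^ 2) := by
    refine Finset.sum_le_sum fun i _ => ?_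
    rw [← sq_abs (a i - 1)]
    have h2 : 0 ≤ 1 / (4 * e) * (|a i - 1| - 2 * e) ^ 2 := by positivity
    have h3 : 1 / (4 * e) * (|a i - 1| - 2 * e) ^ 2
        = 1 / (4 * e) * |a i - 1| ^ 2 - |a i - 1| + e := by
      field_simp
      ring
    linarith
  rw [Finset.sum_add_distrib, ← Finset.mul_sum] at h1
  simp only [Finset.sum_const, Finset.card_univ, Fintype.card_fin, nsmul_eq_mul] at h1
  unfold tv X2
  refine (mul_le_mul_of_nonneg_left (div_le_div_of_nonneg_right h1 qpos.le)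
    (by norm_num)).trans (le_of_eq ?_)
  field_simp [qne (q := q)]
  ring

/-- total variation tends to zero when the second moment does -/
theorem tv_tendsto_zero {L : ℕ → Fn q} (hL : ∀ n, IsLaw (L n))
    (h : Tendsto (fun n => L n X2) atTop (𝓝 0)) : Tendsto (fun n => L n tv) atTop (𝓝 0) := by
  rw [Metric.tendsto_atTop] at h ⊢
  intro e he
  obtain ⟨N, hN⟩ := h (e * e) (mul_pos he he)
  refine ⟨N, fun n hn => ?_⟩
  have h1 := hN n hn
  rw [Real.dist_eq, sub_zero] at h1 ⊢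
  have h2 := (hL n).mono _ _ bd_tv ((Bd.const (e / 2)).add ((Bd.const (1 / (8 * e))).mul bd_X2))
    fun a _ => tv_le he a
  rw [(hL n).add _ _ (Bd.const _) ((Bd.const _).mul bd_X2), (hL n).const,
    (hL n).smul _ _ bd_X2] at h2
  rw [abs_of_nonneg ((hL n).nonneg bd_tv fun a _ => tv_nonneg a)]
  have h3 : 1 / (8 * e) * L n X2 ≤ 1 / (8 * e) * (e * e) :=
    mul_le_mul_of_nonneg_left (le_abs_self _ |>.trans h1.le) (by positivity)
  have h4 : 1 / (8 * e) * (e * e) = e / 8 := by field_simp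
  linarith

theorem X2_le_tv {L : Fn q} (hL : IsLaw L) : L X2 ≤ 2 * q * L tv := by
  rw [← hL.smul _ _ bd_tv]
  refine hL.mono _ _ bd_X2 ((Bd.const _).mul bd_tv) fun a ha => ?_
  have h1 : ∑ i, (a i - 1) ^ 2 ≤ ∑ i, q * |a i - 1| := by
    refine Finset.sum_le_sum fun i _ => ?_
    rw [← sq_abs, sq]
    refine mul_le_mul_of_nonneg_right ?_ (abs_nonneg _)
    have h2 : (1 : ℝ) ≤ q := Nat.one_le_cast.2 (Nat.pos_of_ne_zero (NeZero.ne q))
    rw [abs_le]
    constructor <;> linarith [ha.1 i, Sx.le ha i]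
  rw [← Finset.mul_sum] at h1
  unfold tv X2
  refine (div_le_div_of_nonneg_right h1 qpos.le).trans (le_of_eq ?_)
  ring

end Vale.Agent.P154
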