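import Vale.Agent.P154.C4M03
import Vale.Agent.P154.Cvx

namespace Vale.Agent.P154

lemma c4m0r : ∀ i < 4, radT (pc i) 161 (radTerms true c4m0K 84442493013196800 Xn4 Xp4) = true := by
  intro i hi
  interval_cases i
  exacts [c4m0g2.2.2.1, c4m0g2.2.2.2.2.1, c4m0g3.2.2.1, c4m0g3.2.2.2.2.1]

lemma c4m0p : ∀ i < 4, posT (pc i) 161 c4m0up c4m0un = true := by
  intro i hi
  interval_cases i
  exacts [c4m0g2.2.2.2.1, c4m0g2.2.2.2.2.2, c4m0g3.2.2.2.1, c4m0g3.2.2.2.2.2]

lemma c4m0m : ∀ i < 4, ∀ j < 4, i ≤ j →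
    mainT (pc i) (pc j) 161 (mainTerms c4m0K c4m0E) = true := by
  intro i hi j hj h
  interval_cases j <;> interval_cases i
  exacts [c4m0g0.1,
    c4m0g0.2.1, c4m0g1.2.1,
    c4m0g0.2.2, c4m0g1.2.2, c4m0g2.2.1,
    c4m0g1.1, c4m0g2.1, c4m0g3.1, c4m0g3.2.1]

lemma c4m0s (a b : V 4) : btv c4m0E a b = btv c4m0E b a := by
  simp only [btv, c4m0E, List.map_cons, List.map_nil, List.sum_cons, List.sum_nil, sg,
    cond_true, cond_false]
  ring

theorem c4m0_ok : Dlt g4 (1 / 400) 2 := by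
  refine ⟨fun a => (1 / 1688849860263936) * (hv c4m0up a - hv c4m0un a),
    (Bd.const _).mul ((bd_hv _).sub (bd_hv _)), fun a ha => ?_, fun a ha b hb => ?_⟩
  · have := posT_sound (B := 161) (by norm_num) c4m0p ha
    exact mul_nonneg (by norm_num) (sub_nonneg.2 this)
  have := certT_sound (B := 161) (φ := fun c => -X2 c) (Z := 2097152) (m := 84442493013196800) (by norm_num)
    (fun a ha => by rw [eX4 ha]; push_cast; ring) c4m0r c4m0s c4m0m ha hb
  rw [SS_neg X2] at this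
  simp only [btv, c4m0E, List.map_cons, List.map_nil, List.sum_cons, List.sum_nil, sg,
    cond_true, cond_false, eX4 ha, eX4 hb, eg4 ha, eg4 hb, eQ4 ha, eQ4 hb, e14] at this
  push_cast at this
  have := mul_nonneg (X2_nonneg a) (sq_nonneg (X2 b))
  linarith

end Vale.Agent.P154
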