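import Vale.Agent.P154.C4M01

namespace Vale.Agent.P154

lemma c4m0g2 :
    mainT (pc 1) (pc 3) 161 (mainTerms c4m0K c4m0E) = true ∧
    mainT (pc 2) (pc 2) 161 (mainTerms c4m0K c4m0E) = true ∧
    radT (pc 0) 161 (radTerms true c4m0K 84442493013196800 Xn4 Xp4) = true ∧
    posT (pc 0) 161 c4m0up c4m0un = true ∧
    radT (pc 1) 161 (radTerms true c4m0K 84442493013196800 Xn4 Xp4) = true ∧
    posT (pc 1) 161 c4m0up c4m0un = true :=
  ⟨mainT_of (by decide +kernel) (by decide +kernel) (by decide +kernel),
   mainT_of (by decide +kernel) (by decide +kernel) (by decide +kernel),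
   by decide +kernel,
   by decide +kernel,
   by decide +kernel,
   by decide +kernel⟩

end Vale.Agent.P154
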