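import Vale.Agent.P154.C4M13
import Vale.Agent.P154.Cvx

namespace Vale.Agent.P154

lemma c4m1r : ∀ i < 4, radT (pc i) 168 (radTerms true c4m1K 108086391056891904 gp4 gn4) = true := by
  intro i hi
  interval_cases i
  exacts [c4m1g2.2.2.1, c4m1g2.2.2.2.2.1, c4m1g3.2.2.1, c4m1g3.2.2.2.2.1]

lemma c4m1p : ∀ i < 4, posT (pc i) 168 c4m1up c4m1un = true := by
  intro i hi
  interval_cases i
  exacts [c4m1g2.2.2.2.1, c4m1g2.2.2.2.2.2, c4m1g3.2.2.2.1, c4m1g3.2.2.2.2.2]

lemma c4m1m : ∀ i < 4, ∀ j < 4, i ≤ j →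
    mainT (pc i) (pc j) 168 (mainTerms c4m1K c4m1E) = true := by
  intro i hi j hj h
  interval_cases j <;> interval_cases i
  exacts [c4m1g0.1,
    c4m1g0.2.1, c4m1g1.2.1,
    c4m1g0.2.2, c4m1g1.2.2, c4m1g2.2.1,
    c4m1g1.1, c4m1g2.1, c4m1g3.1, c4m1g3.2.1]

lemma c4m1s (a b : V 4) : btv c4m1E a b = btv c4m1E b a := by
  simp only [btv, c4m1E, List.map_cons, List.map_nil, List.sum_cons, List.sum_nil, sg,
    cond_true, cond_false]
  ring

theorem c4m1_ok : Clos g4 := by
  refine ⟨fun a => (1 / 108086391056891904) * (hv c4m1up a - hv c4m1un a),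
    (Bd.const _).mul ((bd_hv _).sub (bd_hv _)), fun a ha => ?_, fun a ha b hb => ?_⟩
  · have := posT_sound (B := 168) (by norm_num) c4m1p ha
    exact mul_nonneg (by norm_num) (sub_nonneg.2 this)
  have := certT_sound (B := 168) (φ := g4) (Z := 209715200) (m := 108086391056891904) (by norm_num)
    (fun a ha => by rw [eg4 ha]; push_cast; ring) c4m1r c4m1s c4m1m ha hb
  simp only [btv, c4m1E, List.map_cons, List.map_nil, List.sum_cons, List.sum_nil, sg,
    cond_true, cond_false, eg4 ha, eg4 hb] at this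
  push_cast at this
  linarith

end Vale.Agent.P154
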