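import Vale.Agent.P154.C4D

namespace Vale.Agent.P154

lemma c4m1g0 :
    mainT (pc 0) (pc 0) 168 (mainTerms c4m1K c4m1E) = true ∧
    mainT (pc 0) (pc 1) 168 (mainTerms c4m1K c4m1E) = true ∧
    mainT (pc 0) (pc 2) 168 (mainTerms c4m1K c4m1E) = true :=
  ⟨mainT_of (by decide +kernel) (by decide +kernel) (by decide +kernel),
   mainT_of (by decide +kernel) (by decide +kernel) (by decide +kernel),
   mainT_of (by decide +kernel) (by decide +kernel) (by decide +kernel)⟩

end Vale.Agent.P154
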