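import Vale.Agent.P154.Law

namespace Vale.Agent.P154

variable {q : ℕ} [NeZero q]

namespace Conc

theorem qpos : (0 : ℝ) < q := by exact_mod_cast Nat.pos_of_ne_zero (NeZero.ne q)

theorem exists_norm {x : V q} (hx : 0 ≤ x) : ∃ t : ℝ, 0 ≤ t ∧ ∃ a ∈ Sx q, x = t • a := by
  have hq := qpos (q := q)
  have h0 : 0 ≤ ∑ i, x i := Finset.sum_nonneg fun i _ => hx i
  rcases h0.eq_or_lt with h | h
  · refine ⟨0, le_rfl, 1, one_mem_Sx, ?_⟩
    rw [zero_smul]
    exact funext fun i =>
      (Finset.sum_eq_zero_iff_of_nonneg fun i _ => hx i).1 h.symm i (Finset.mem_univ i)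
  · refine ⟨(∑ i, x i) / q, by positivity, (q / ∑ i, x i) • x,
      ⟨fun i => mul_nonneg (by positivity) (hx i), ?_⟩, ?_⟩
    · simp only [Pi.smul_apply, smul_eq_mul]
      rw [← Finset.mul_sum]; field_simp
    · rw [smul_smul, show (∑ i, x i) / q * (q / ∑ i, x i) = 1 by field_simp, one_smul]

/-- A summable family of vectors representing a law. -/
structure Fam {O : Type} (w : O → V q) (L : Fn q) : Prop where
  pos : ∀ o, 0 ≤ w o
  one : ∀ i, HasSum (fun o => w o i) 1
  eq : ∀ φ, Bd φ → HasSum (fun o => hat φ (w o)) (L φ)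

theorem hasSum_av {O : Type} {w : O → V q} (h1 : ∀ i, HasSum (fun o => w o i) 1) :
    HasSum (fun o => av (w o)) 1 := by
  have hq := qpos (q := q)
  have := (hasSum_sum fun i (_ : i ∈ Finset.univ) => h1 i).div_const (q : ℝ)
  simpa [av, hq.ne'] using this

theorem summ {O : Type} {w : O → V q} (h0 : ∀ o, 0 ≤ w o) (h1 : ∀ i, HasSum (fun o => w o i) 1)
    {φ : V q → ℝ} (hφ : Bd φ) : Summable fun o => hat φ (w o) := by
  obtain ⟨C, hC⟩ := hφ
  exact Summable.of_norm_bounded ((hasSum_av h1).summable.mul_left C)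
    fun o => abs_hat_le hC (h0 o)

omit [NeZero q] in
theorem Fam.equiv {O O' : Type} (e : O ≃ O') {w : O' → V q} {L : Fn q}
    (h : Fam (fun o => w (e o)) L) : Fam w L where
  pos o := by simpa using h.pos (e.symm o)
  one i := e.hasSum_iff.1 (h.one i)
  eq φ hφ := e.hasSum_iff.1 (h.eq φ hφ)

theorem fam_top : Fam (fun (s : Fin q) (i : Fin q) => if s = i then (1 : ℝ) else 0) top where
  pos s i := by dsimp only; split_ifs <;> simp
  one i := by simpa using hasSum_fintype fun s : Fin q => if s = i then (1 : ℝ) else 0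
  eq φ _ := by
    have hq := qpos (q := q)
    have h : ∀ s : Fin q, hat φ (fun i => if s = i then (1 : ℝ) else 0) =
        φ (Pi.single s (q : ℝ)) / q := fun s => by
      have : (fun i => if s = i then (1 : ℝ) else 0) =
          (q : ℝ)⁻¹ • (Pi.single s (q : ℝ) : V q) := by
        ext i
        by_cases h : s = i
        · subst h; simp [hq.ne']
        · simp [h, Ne.symm h]
      rw [this, hat_smul _ (by positivity), hat_of_mem _ (Sx.single s), div_eq_inv_mul]
    simp only [h, top, Finset.sum_div]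
    exact hasSum_fintype _

omit [NeZero q] in
theorem Mv_smul (lam t : ℝ) (a : V q) : Mv lam (t • a) = t • Mv lam a := by
  ext i
  simp only [Mv, av, Pi.smul_apply, smul_eq_mul, ← Finset.mul_sum]
  ring

theorem Fam.Mv {O : Type} {w : O → V q} {L : Fn q} (h : Fam w L) {lam : ℝ} (hl : Adm q lam) :
    Fam (fun o => Mv lam (w o)) (Mop lam L) where
  pos o := Mv_nonneg hl (h.pos o)
  one i := by
    simpa [P154.Mv] using ((h.one i).mul_left lam).add ((hasSum_av h.one).mul_left (1 - lam))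
  eq φ hφ := by
    refine (h.eq _ (hφ.Mv hl)).congr_fun fun o => ?_
    obtain ⟨t, ht, a, ha, e⟩ := exists_norm (h.pos o)
    rw [e, Mv_smul, hat_smul _ ht, hat_smul _ ht, hat_of_mem _ ha, hat_of_mem _ (Sx.Mv hl ha)]

theorem Fam.mul {O O' : Type} {w : O → V q} {v : O' → V q} {A B : Fn q} (h : Fam w A)
    (h' : Fam v B) (hB : IsLaw B) : Fam (fun x : O × O' => w x.1 * v x.2) (star A B) := by
  have p0 : ∀ x : O × O', 0 ≤ w x.1 * v x.2 := fun x => mul_nonneg (h.pos _) (h'.pos _)
  have p1 : ∀ i, HasSum (fun x : O × O' => (w x.1 * v x.2) i) 1 := fun i => by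
    simpa using (h.one i).mul (h'.one i) ((h.one i).summable.mul_of_nonneg (h'.one i).summable
      (fun o => h.pos o i) fun o => h'.pos o i)
  refine ⟨p0, p1, fun φ hφ => ?_⟩
  have hs := (summ p0 p1 hφ).hasSum
  obtain ⟨C, hC⟩ := hφ.hat_mul
  have h1 := h.eq _ (hB.bd_inner (F := fun a b => hat φ (a * b)) ⟨C, hC⟩)
  have h2 := hs.prod_fiberwise (g := fun o => hat (fun a => B fun b => hat φ (a * b)) (w o))
    fun o => by
      obtain ⟨t, ht, a, ha, e⟩ := exists_norm (h.pos o)
      rw [e, hat_smul _ ht, hat_of_mem _ ha]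
      refine ((h'.eq _ ⟨C, hC a ha⟩).mul_left t).congr_fun fun o' => ?_
      obtain ⟨t', ht', b, hb, e'⟩ := exists_norm (h'.pos o')
      dsimp only
      rw [e, e', smul_mul_assoc, mul_smul_comm, hat_smul _ ht, hat_smul _ ht', hat_smul _ ht',
        hat_of_mem _ hb]
  rw [show star A B φ = _ from h1.unique h2]
  exact hs

/-- Lists of length `k + 1`. -/
noncomputable def consE (O : Type) (k : ℕ) :
    O × {l : List O // l.length = k} ≃ {l : List O // l.length = k + 1} :=
  Equiv.ofBijective (fun x => ⟨x.1 :: x.2.1, by simp [x.2.2]⟩) ⟨by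
    rintro ⟨a, l, hl⟩ ⟨b, l', hl'⟩ h
    simpa using h, by
    rintro ⟨_ | ⟨a, l⟩, hl⟩
    · simp at hl
    · exact ⟨(a, ⟨l, by simpa using hl⟩), rfl⟩⟩

theorem Fam.pw {O : Type} {w : O → V q} {A : Fn q} (h : Fam w A) (hA : IsLaw A) (k : ℕ) :
    Fam (fun l : {l : List O // l.length = k} => (l.1.map w).prod) (pw A k) := by
  induction k with
  | zero =>
    have e : ∀ l : {l : List O // l.length = 0}, (l.1.map w).prod = 1 := fun l => by
      rw [List.length_eq_zero_iff.1 l.2]; rfl
    have : Unique {l : List O // l.length = 0} :=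
      ⟨⟨⟨[], rfl⟩⟩, fun l => Subtype.ext (List.length_eq_zero_iff.1 l.2)⟩
    simp only [e]
    exact ⟨fun _ => zero_le_one, fun i => hasSum_unique fun _ => (1 : ℝ), fun φ _ => by
      rw [hat_of_mem _ one_mem_Sx]; exact hasSum_unique fun _ => φ 1⟩
  | succ k ih => exact Fam.equiv (consE O k) (h.mul ih (hA.pw k))

theorem fam_mix {O : ℕ → Type} {w : ∀ k, O k → V q} {F : ℕ → Fn q} (h : ∀ k, Fam (w k) (F k))
    {p : ℕ → ℝ} (hp : Prob p) : Fam (fun x : Σ k, O k => p x.1 • w x.1 x.2) (mix p F) := by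
  have p0 : ∀ x : Σ k, O k, 0 ≤ p x.1 • w x.1 x.2 := fun x => smul_nonneg (hp.1 _) ((h _).pos _)
  have p1 : ∀ i, HasSum (fun x : Σ k, O k => (p x.1 • w x.1 x.2) i) 1 := fun i => by
    have f : ∀ k, HasSum (fun o : O k => (p k • w k o) i) (p k) := fun k => by
      simpa using ((h k).one i).mul_left (p k)
    have hs : Summable fun x : Σ k, O k => (p x.1 • w x.1 x.2) i :=
      (summable_sigma_of_nonneg fun x => p0 x i).2 ⟨fun k => (f k).summable, by
        simpa only [(f _).tsum_eq] using hp.2.summable⟩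
    rw [hp.2.unique (hs.hasSum.sigma f)]
    exact hs.hasSum
  refine ⟨p0, p1, fun φ hφ => ?_⟩
  have hs := (summ p0 p1 hφ).hasSum
  have h2 := hs.sigma (g := fun k => p k * F k φ) fun k =>
    (((h k).eq φ hφ).mul_left (p k)).congr_fun fun o => hat_smul _ (hp.1 k) _
  rw [show mix p F φ = _ from h2.tsum_eq]
  exact hs

theorem sum_chan (lam : ℝ) (w : V q) (i : Fin q) : ∑ j, chan q lam i j * w j = Mv lam w i := by
  simp only [chan, add_mul, Finset.sum_add_distrib, ite_mul, zero_mul, Finset.sum_ite_eq,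
    Finset.mem_univ, if_true, Mv, av, ← Finset.mul_sum]
  ring

theorem fam_lik {lam : ℝ} (hl : Adm q lam) {p : ℕ → ℝ} (hp : Prob p) (n : ℕ) :
    Fam (lik q lam p n) (seq lam p n) := by
  induction n with
  | zero => exact fam_top
  | succ n ih =>
    have h := fam_mix (fun k => (ih.Mv hl).pw ((IsLaw.seq hl hp n).Mop hl) k) hp
    refine Fam.equiv (O' := List (Obs q n)) (Equiv.sigmaFiberEquiv List.length) ?_
    have e : (fun x : Σ k, {l : List (Obs q n) // l.length = k} =>
        lik q lam p (n + 1) (Equiv.sigmaFiberEquiv List.length x)) =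
        fun x => p x.1 • (x.2.1.map fun o => Mv lam (lik q lam p n o)).prod := by
      funext ⟨k, l, hl⟩ i
      subst hl
      simp only [lik, Equiv.sigmaFiberEquiv, Equiv.coe_fn_mk, sum_chan, Pi.smul_apply, smul_eq_mul,
        Pi.list_prod_apply, List.map_map, Function.comp_def]
    exact e ▸ h

end Conc

theorem tsum_hat_lik {lam : ℝ} (hl : Adm q lam) {p : ℕ → ℝ} (hp : Prob p) (n : ℕ)
    {φ : V q → ℝ} (hφ : Bd φ) :
    ∑' o : Obs q n, hat φ (lik q lam p n o) = seq lam p n φ :=
  ((Conc.fam_lik hl hp n).eq φ hφ).tsum_eq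

theorem adv_eq {lam : ℝ} (hl : Adm q lam) {p : ℕ → ℝ} (hp : Prob p) (n : ℕ) :
    adv q lam p n = seq lam p n (tv : V q → ℝ) := by
  rw [← tsum_hat_lik hl hp n bd_tv]
  refine tsum_congr fun o => ?_
  have hq := Conc.qpos (q := q)
  simp only [hat, tv, av, Pi.smul_apply, smul_eq_mul]
  congr 2
  rw [Finset.sum_div]
  refine Finset.sum_congr rfl fun i _ => ?_
  rw [← abs_of_pos hq, ← abs_div, abs_of_pos hq]
  congr 1
  rw [inv_div]
  field_simp

end Vale.Agent.P154
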