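import Vale.Agent.P154.Cvx

namespace Vale.Agent.P154

open Filter Topology

variable {q : ℕ} [NeZero q]

theorem star_eq_SS {A B : Fn q} (hA : IsLaw A) (hB : IsLaw B) {φ : V q → ℝ} (hφ : Bd φ) :
    star A B φ = A fun a => B fun b => SS φ a b := by
  obtain ⟨C, hC⟩ := hφ.hat_mul
  refine hA.congr (hB.bd_inner (F := fun a b => hat φ (a * b)) ⟨C, hC⟩) fun a ha => ?_
  have hb : Bd fun b => hat φ (a * b) := ⟨C, hC a ha⟩
  have hf : (0 : ℝ) < q.factorial := by exact_mod_cast q.factorial_pos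
  simp only [SS, div_eq_inv_mul]
  rw [hB.smul _ _ (Bd.sum _ fun σ _ => hb.perm σ), hB.sum _ fun σ _ => hb.perm σ,
    Finset.sum_congr rfl fun σ _ => hB.perm σ _ hb]
  simp only [Finset.sum_const, Finset.card_univ, Fintype.card_perm, Fintype.card_fin, nsmul_eq_mul]
  field_simp

theorem Cone.bil {A B : Fn q} (hA : IsLaw A) (hB : IsLaw B)
    {ι : Type} (s : Finset ι) {u v : ι → V q → ℝ} (hu : ∀ i ∈ s, Bd (u i))
    (hv : ∀ i ∈ s, Bd (v i)) :
    (∀ a, Bd fun b => ∑ i ∈ s, u i a * v i b) ∧ (Bd fun a => B fun b => ∑ i ∈ s, u i a * v i b) ∧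
      (A fun a => B fun b => ∑ i ∈ s, u i a * v i b) = ∑ i ∈ s, A (u i) * B (v i) := by
  have h1 : ∀ a, (B fun b => ∑ i ∈ s, u i a * v i b) = ∑ i ∈ s, B (v i) * u i a := fun a => by
    rw [hB.sum _ fun i hi => (Bd.const _).mul (hv i hi)]
    exact Finset.sum_congr rfl fun i hi => by rw [hB.smul _ _ (hv i hi), mul_comm]
  simp only [h1]
  refine ⟨fun a => Bd.sum _ fun i hi => (Bd.const _).mul (hv i hi),
    Bd.sum _ fun i hi => (Bd.const _).mul (hu i hi), ?_⟩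
  rw [hA.sum _ fun i hi => (Bd.const _).mul (hu i hi)]
  exact Finset.sum_congr rfl fun i hi => by rw [hA.smul _ _ (hu i hi), mul_comm]

/-- integrate a bilinear upper bound -/
theorem star_le {A B : Fn q} (hA : IsLaw A) (hB : IsLaw B) {φ : V q → ℝ} (hφ : Bd φ)
    {ι : Type} (s : Finset ι) {u v : ι → V q → ℝ} (hu : ∀ i ∈ s, Bd (u i))
    (hv : ∀ i ∈ s, Bd (v i))
    (h : ∀ a ∈ Sx q, ∀ b ∈ Sx q, SS φ a b ≤ ∑ i ∈ s, u i a * v i b) :
    star A B φ ≤ ∑ i ∈ s, A (u i) * B (v i) := by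
  obtain ⟨h1, h2, h3⟩ := Cone.bil hA hB s hu hv
  obtain ⟨C, hC⟩ := hφ.SS
  rw [star_eq_SS hA hB hφ, ← h3]
  exact hA.mono _ _ (hB.bd_inner ⟨C, hC⟩) h2 fun a ha => hB.mono _ _ ⟨C, hC a ha⟩ (h1 a) (h a ha)

/-- integrate a bilinear lower bound -/
theorem le_star {A B : Fn q} (hA : IsLaw A) (hB : IsLaw B) {φ : V q → ℝ} (hφ : Bd φ)
    {ι : Type} (s : Finset ι) {u v : ι → V q → ℝ} (hu : ∀ i ∈ s, Bd (u i))
    (hv : ∀ i ∈ s, Bd (v i))
    (h : ∀ a ∈ Sx q, ∀ b ∈ Sx q, ∑ i ∈ s, u i a * v i b ≤ SS φ a b) :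
    ∑ i ∈ s, A (u i) * B (v i) ≤ star A B φ := by
  obtain ⟨h1, h2, h3⟩ := Cone.bil hA hB s hu hv
  obtain ⟨C, hC⟩ := hφ.SS
  rw [star_eq_SS hA hB hφ, ← h3]
  exact hA.mono _ _ h2 (hB.bd_inner ⟨C, hC⟩) fun a ha => hB.mono _ _ (h1 a) ⟨C, hC a ha⟩ (h a ha)

namespace Cone

theorem bd_pow {φ : V q → ℝ} (h : Bd φ) (r : ℕ) : Bd fun a => φ a ^ r := by
  induction r with
  | zero => simpa using Bd.const 1
  | succ r ih => simpa only [pow_succ] using ih.mul h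

theorem pw_nonneg {A : Fn q} (hA : IsLaw A) {g : V q → ℝ} (hg : Bd g) (hg1 : g 1 = 0)
    (hc : Clos g) (h0 : 0 ≤ A g) (k : ℕ) : 0 ≤ pw A k g := by
  obtain ⟨u, hu, hu0, h⟩ := hc
  induction k with
  | zero => exact hg1.ge
  | succ k ih =>
    have := le_star hA (hA.pw k) hg (Finset.univ : Finset Bool) (u := fun i => if i then u else g)
      (v := fun i => if i then g else u) (fun i _ => by cases i <;> assumption)
      (fun i _ => by cases i <;> assumption) (fun a ha b hb => by simpa using h a ha b hb)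
    refine le_trans ?_ this
    simp only [Fintype.sum_bool, if_true, Bool.false_eq_true, if_false]
    exact add_nonneg (mul_nonneg (hA.nonneg hu hu0) ih) (mul_nonneg h0 ((hA.pw k).nonneg hu hu0))

theorem pw_succ_le {A B : Fn q} (hA : IsLaw A) (hB : IsLaw B) {g : V q → ℝ} (hg : Bd g) {μ : ℝ}
    {r : ℕ} (hd : Dlt g μ r) (h0 : 0 ≤ A g) (h1 : 0 ≤ B g) :
    star A B X2 ≤ A X2 + B X2 - μ * (A fun a => X2 a ^ r) * B X2 := by
  obtain ⟨v, hv, hv0, h⟩ := hd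
  have b1 : Bd fun a => -1 * v a := (Bd.const _).mul hv
  have b2 : Bd fun a => -1 * g a := (Bd.const _).mul hg
  have b3 : Bd fun a : V q => -μ * X2 a ^ r := (Bd.const _).mul (bd_pow bd_X2 r)
  have b4 : Bd fun _ : V q => (1 : ℝ) := Bd.const 1
  have b5 : Bd (X2 : V q → ℝ) := bd_X2
  have := star_le hA hB bd_X2 (Finset.univ : Finset (Fin 5))
    (u := ![X2, fun _ => 1, fun a => -1 * v a, fun a => -1 * g a, fun a => -μ * X2 a ^ r])
    (v := ![fun _ => 1, X2, g, v, X2]) (fun i _ => by fin_cases i <;> assumption)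
    (fun i _ => by fin_cases i <;> assumption) (fun a ha b hb => by
      have := h a ha b hb
      simp only [Fin.sum_univ_five, Matrix.cons_val]
      linarith)
  simp only [Fin.sum_univ_five, Matrix.cons_val] at this
  rw [hA.const, hB.const, hA.smul _ _ hv, hA.smul _ _ hg, hA.smul _ _ (bd_pow bd_X2 r)] at this
  linarith [mul_nonneg (hA.nonneg hv hv0) h1, mul_nonneg h0 (hB.nonneg hv hv0)]

theorem pow_le {A : Fn q} (hA : IsLaw A) {r : ℕ} (hr : r = 1 ∨ r = 2) :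
    A X2 ^ r ≤ A fun a => X2 a ^ r := by
  rcases hr with rfl | rfl
  · simp
  · have h := hA.mono (fun a => 2 * A X2 * X2 a - A X2 ^ 2) (fun a => X2 a ^ 2)
      (((Bd.const _).mul bd_X2).sub (Bd.const _)) (bd_pow bd_X2 2)
      fun a _ => by nlinarith [sq_nonneg (X2 a - A X2)]
    rw [hA.sub ((Bd.const _).mul bd_X2) (Bd.const _), hA.smul _ _ bd_X2, hA.const] at h
    linarith

end Cone

open Cone in
theorem cone_step {A : Fn q} (hA : IsLaw A) {p : ℕ → ℝ} {d ρ : ℝ} (hp : Off p d ρ)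
    {g : V q → ℝ} (hg : Bd g) (hg1 : g 1 = 0) (hc : Clos g) {μ : ℝ} {r : ℕ} (hμ : 0 ≤ μ)
    (hr : r = 1 ∨ r = 2) (hd : Dlt g μ r) (h0 : 0 ≤ A g) :
    0 ≤ mix p (pw A) g ∧
      mix p (pw A) X2 ≤ d * A X2 - (1 - p 0 - p 1) * μ * A X2 ^ (r + 1) := by
  have hn := pw_nonneg hA hg hg1 hc h0
  refine ⟨tsum_nonneg fun k => mul_nonneg (hp.prob.1 k) (hn k), ?_⟩
  have hs : ∀ k, pw A (k + 1) X2 ≤ A X2 + pw A k X2 - μ * (A fun a => X2 a ^ r) * pw A k X2 :=
    fun k => pw_succ_le hA (hA.pw k) hg hd h0 (hn k)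
  have s0 : ∀ k, 0 ≤ pw A k X2 := fun k => (hA.pw k).nonneg bd_X2 fun a _ => X2_nonneg a
  have y0 : 0 ≤ A X2 := hA.nonneg bd_X2 fun a _ => X2_nonneg a
  have s1 : pw A 1 X2 = A X2 := hA.star_unit bd_X2
  have hr' := pow_le hA hr
  have s2 : ∀ k, 2 ≤ k → pw A k X2 ≤ k * A X2 - μ * A X2 ^ (r + 1) := by
    intro k hk
    induction k, hk using Nat.le_induction with
    | base =>
      have := hs 1
      rw [s1] at this
      have h2 := mul_le_mul_of_nonneg_right (mul_le_mul_of_nonneg_left hr' hμ) y0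
      rw [pow_succ]
      push_cast
      linarith
    | succ k _ ih =>
      have h2 := mul_nonneg (mul_nonneg hμ ((pow_nonneg y0 r).trans hr')) (s0 k)
      push_cast
      linarith [hs k]
  have h1 := (hp.mean.mul_right (A X2)).sub
    (((hp.prob.2.sub (hasSum_ite_eq 0 (p 0))).sub (hasSum_ite_eq 1 (p 1))).mul_right
      (μ * A X2 ^ (r + 1)))
  rw [mul_assoc]
  refine hasSum_le (fun k => ?_) (summable_mix hp.prob hA.pw bd_X2).hasSum h1
  rcases k with _ | _ | k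
  · simp [pw, unit, X2_one]
  · simp [s1]
  · have := mul_le_mul_of_nonneg_left (s2 (k + 1 + 1) (by omega)) (hp.prob.1 (k + 1 + 1))
    rw [if_neg (by omega), if_neg (by omega)]
    linarith

theorem X2_tendsto_of_cone {lam : ℝ} (hl : Adm q lam) {p : ℕ → ℝ} {d ρ : ℝ} (hp : Off p d ρ)
    (hθ : d * lam ^ 2 ≤ 1) {g : V q → ℝ} (hg : Bd g) (hg1 : g 1 = 0) (hc : Clos g) {μ : ℝ}
    {r : ℕ} (hμ : 0 < μ) (hr : r = 1 ∨ r = 2) (hd : Dlt g μ r)
    (h0 : ∀ᶠ n in atTop, 0 ≤ Mop lam (seq lam p n) g) :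
    Tendsto (fun n => seq lam p n (X2 : V q → ℝ)) atTop (𝓝 0) := by
  obtain ⟨L, hL, -⟩ := exists_lim hl hp.prob (convexOn_X2 (q := q))
  have hs := IsLaw.seq hl hp.prob
  have L0 : 0 ≤ L := ge_of_tendsto' hL fun n => (hs n).nonneg bd_X2 fun a _ => X2_nonneg a
  have h1 : L ≤ d * (lam ^ 2 * L) - (1 - p 0 - p 1) * μ * (lam ^ 2 * L) ^ (r + 1) := by
    refine le_of_tendsto_of_tendsto (hL.comp (tendsto_add_atTop_nat 1))
      (((hL.const_mul _).const_mul d).sub (((hL.const_mul _).pow (r + 1)).const_mul _)) ?_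
    filter_upwards [h0] with n hn
    have := (cone_step ((hs n).Mop hl) hp hg hg1 hc hμ.le hr hd hn).2
    rwa [Mop_X2 hl (hs n)] at this
  have hc0 : 0 < (1 - p 0 - p 1) * μ := mul_pos (by linarith [hp.two]) hμ
  have h2 : (lam ^ 2 * L) ^ (r + 1) ≤ 0 := by
    by_contra h
    nlinarith [mul_pos hc0 (not_le.1 h), mul_le_mul_of_nonneg_right hθ L0]
  have h3 : lam ^ 2 * L = 0 :=
    pow_eq_zero_iff (Nat.succ_ne_zero r) |>.1 (le_antisymm h2 (by positivity))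
  rw [h3] at h1
  have : L = 0 := le_antisymm (by simpa using h1) L0
  rwa [this] at hL

theorem Cone.inv {lam : ℝ} (hl : Adm q lam) (h0 : 0 ≤ lam) {p : ℕ → ℝ} {d ρ : ℝ} (hp : Off p d ρ)
    {g : V q → ℝ} (hg : Bd g) (hg1 : g 1 = 0) (hc : Clos g) (ht : 0 ≤ top g)
    (h : ∀ a ∈ Sx q, lam ^ 3 * g a ≤ g (Mv lam a)) (n : ℕ) : 0 ≤ Mop lam (seq lam p n) g := by
  have hs := IsLaw.seq hl hp.prob
  have key : ∀ n, 0 ≤ seq lam p n g → 0 ≤ Mop lam (seq lam p n) g := fun n hn => by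
    have := (hs n).mono _ _ ((Bd.const _).mul hg) (hg.Mv hl) h
    rw [(hs n).smul _ _ hg] at this
    exact (mul_nonneg (pow_nonneg h0 3) hn).trans this
  refine key n ?_
  induction n with
  | zero => exact ht
  | succ n ih =>
    exact tsum_nonneg fun k => mul_nonneg (hp.prob.1 k)
      (Cone.pw_nonneg ((hs n).Mop hl) hg hg1 hc (key n ih) k)

theorem Cone.bd_g3 : Bd g3 :=
  (((Bd.const _).mul bd_X2).add bd_X3).sub ((Bd.const _).mul (Cone.bd_pow bd_X2 2))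

theorem Cone.bd_g4 : Bd g4 :=
  ((((Bd.const _).mul bd_X3).sub ((Bd.const _).mul (Cone.bd_pow bd_X2 2))).sub
    ((Bd.const _).mul bd_X4)).add ((Bd.const _).mul (bd_X2.mul bd_X3))

theorem Cone.X3_le {a : V 3} (ha : a ∈ Sx 3) : X3 a ≤ X2 a := by
  obtain ⟨h0, h1⟩ := ha
  simp only [Fin.sum_univ_three, X2, X3] at h1 ⊢
  have h2 : a 2 = 3 - a 0 - a 1 := by push_cast at h1; linarith
  have h3 := mul_nonneg (h0 0) (sq_nonneg (a 1 - a 2))
  have h4 := mul_nonneg (h0 1) (sq_nonneg (a 0 - a 2))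
  have h5 := mul_nonneg (h0 2) (sq_nonneg (a 0 - a 1))
  rw [h2] at h3 h4 h5 ⊢
  push_cast
  linarith

theorem ferro3 (hc : Clos g3) {μ : ℝ} (hμ : 0 < μ) (hd : Dlt g3 μ 1) {lam : ℝ}
    (h0 : -(19 / 100) ≤ lam) (h1 : lam ≤ 1) {p : ℕ → ℝ} {d ρ : ℝ} (hp : Off p d ρ)
    (hθ : d * lam ^ 2 ≤ 1) :
    Tendsto (fun n => seq lam p n (X2 : V 3 → ℝ)) atTop (𝓝 0) := by
  have hl : Adm 3 lam := ⟨by push_cast; linarith, h1⟩
  have hg1 : g3 1 = 0 := by simp [g3, X2_one, X3_one]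
  refine X2_tendsto_of_cone hl hp hθ Cone.bd_g3 hg1 hc hμ (Or.inl rfl) hd
    (Eventually.of_forall fun n => ?_)
  rcases le_total 0 lam with h | h
  · refine Cone.inv hl h hp Cone.bd_g3 hg1 hc ?_ (fun a ha => ?_) n
    · simp [top, g3, X2, X3, Fin.sum_univ_three, Pi.single_apply]
      norm_num
    · simp only [g3, X2_Mv lam ha, X3_Mv lam ha]
      have h2 := mul_nonneg (mul_nonneg (sq_nonneg lam) (sub_nonneg.2 h1)) (X2_nonneg a)
      have h3 := mul_nonneg (mul_nonneg (pow_nonneg h 3) (sub_nonneg.2 h1)) (sq_nonneg (X2 a))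
      linarith
  · refine (IsLaw.seq hl hp.prob n).nonneg (Cone.bd_g3.Mv hl) fun a ha => ?_
    simp only [g3, X2_Mv lam ha, X3_Mv lam ha]
    have h2 := Cone.X3_le ha
    have h3 := X2_le ha
    have h4 := X2_nonneg a
    push_cast at h3
    have h5 : lam ^ 2 * X2 a ≤ 19 / 100 * (19 / 100) * 2 :=
      mul_le_mul (by nlinarith) (by linarith) h4 (by norm_num)
    have h6 : 0 ≤ 23 / 100 * X2 a + lam * X3 a - 55 / 100 * (lam ^ 2 * X2 a) * X2 a := by
      nlinarith [mul_le_mul_of_nonneg_right h5 h4, mul_nonneg (neg_nonneg.2 h) (sub_nonneg.2 h2),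
        mul_le_mul_of_nonneg_right h0 h4]
    linarith [mul_nonneg (sq_nonneg lam) h6]

theorem ferro4 (hc : Clos g4) {μ : ℝ} (hμ : 0 < μ) (hd : Dlt g4 μ 2) {lam : ℝ}
    (h0 : 0 ≤ lam) (h1 : lam ≤ 1) {p : ℕ → ℝ} {d ρ : ℝ} (hp : Off p d ρ)
    (hθ : d * lam ^ 2 ≤ 1) :
    Tendsto (fun n => seq lam p n (X2 : V 4 → ℝ)) atTop (𝓝 0) := by
  have hl : Adm 4 lam := ⟨by push_cast; linarith, h1⟩
  have hg1 : g4 1 = 0 := by simp [g4, X2_one, X3_one, X4_one]
  refine X2_tendsto_of_cone hl hp hθ Cone.bd_g4 hg1 hc hμ (Or.inr rfl) hd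
    (Eventually.of_forall fun n => ?_)
  refine Cone.inv hl h0 hp Cone.bd_g4 hg1 hc ?_ (fun a ha => ?_) n
  · simp [top, g4, X2, X3, X4, Fin.sum_univ_four, Pi.single_apply]
    norm_num
  · simp only [g4, X2_Mv lam ha, X3_Mv lam ha, X4_Mv lam ha]
    have h2 : X3 a ≤ 3 * X2 a := by
      simp only [X2, X3, ← mul_div_assoc, Finset.mul_sum]
      refine div_le_div_of_nonneg_right (Finset.sum_le_sum fun i _ => ?_) (by positivity)
      have := Sx.le ha i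
      push_cast at this
      nlinarith [mul_nonneg (sq_nonneg (a i - 1)) (sub_nonneg.2 this)]
    have h3 : 0 ≤ X4 a := by unfold X4; positivity
    have h4 := X2_nonneg a
    have h5 : 0 ≤ 140 / 100 * X2 a ^ 2 + 5 / 100 * X4 a - 22 / 100 * (1 + lam) * (X2 a * X3 a) := by
      have h6 := mul_le_mul_of_nonneg_left (mul_le_mul_of_nonneg_left h2 h4)
        (show 0 ≤ 1 + lam by linarith)
      nlinarith [mul_nonneg (sub_nonneg.2 h1) (sq_nonneg (X2 a))]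
    linarith [mul_nonneg (mul_nonneg (pow_nonneg h0 3) (sub_nonneg.2 h1)) h5]

end Vale.Agent.P154
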