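import Vale.Agent.P154.Glue
import Vale.Agent.P154.DA0
import Vale.Agent.P154.DA1
import Vale.Agent.P154.DA2
import Vale.Agent.P154.DA3
import Vale.Agent.P154.DA4
import Vale.Agent.P154.DA5
import Vale.Agent.P154.DA6
import Vale.Agent.P154.DA7
import Vale.Agent.P154.DA8

namespace Vale.Agent.P154

open Filter Topology

lemma r2_ok {l : ℝ} (hl : 0 < l) (hl2 : l ≤ 1 / 2) (hθ : ((2 : ℕ) : ℝ) * l ^ 2 ≤ 1) :
    Tendsto (fun n => seq (-l) (regular 2) n (X2 : V 3 → ℝ)) atTop (𝓝 0) :=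
  have h := de8.2.2.2.2.2
  fin_reg (by norm_num) (by norm_num) (by norm_num) (by norm_num [EndOK]) h.2
    (fun _ _ hl hp hd => reach_init hl hp hd h.1)
    (by norm_num) hl hl2 hθ

lemma r3_ok {l : ℝ} (hl : 0 < l) (hl2 : l ≤ 1 / 2) (hθ : ((3 : ℕ) : ℝ) * l ^ 2 ≤ 1) :
    Tendsto (fun n => seq (-l) (regular 3) n (X2 : V 3 → ℝ)) atTop (𝓝 0) :=
  have h := de3.2.2.2.2.2
  fin_reg (by norm_num) (by norm_num) (by norm_num) (by norm_num [EndOK]) h.2
    (fun _ _ hl hp hd => reach_init hl hp hd h.1)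
    (by norm_num) hl hl2 hθ

lemma r4_ok {l : ℝ} (hl : 0 < l) (hl2 : l ≤ 1 / 2) (hθ : ((4 : ℕ) : ℝ) * l ^ 2 ≤ 1) :
    Tendsto (fun n => seq (-l) (regular 4) n (X2 : V 3 → ℝ)) atTop (𝓝 0) :=
  have h := de2.1
  fin_reg (by norm_num) (by norm_num) (by norm_num) (by norm_num [EndOK]) h.2.2.2.2.2.2.2
    (fun _ _ hl hp hd => reach_blk hl hp hd h.2.2.2.2.2.2.1
      (reach_blk hl hp hd h.2.2.2.2.2.1
      (reach_blk hl hp hd h.2.2.2.2.1
      (reach_blk hl hp hd h.2.2.2.1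
      (reach_blk hl hp hd h.2.2.1
      (reach_blk hl hp hd h.2.1
      (reach_init hl hp hd h.1)))))))
    (by norm_num) hl hl2 hθ

lemma r5_ok {l : ℝ} (hl : 0 < l) (hl2 : l ≤ 1 / 2) (hθ : ((5 : ℕ) : ℝ) * l ^ 2 ≤ 1) :
    Tendsto (fun n => seq (-l) (regular 5) n (X2 : V 3 → ℝ)) atTop (𝓝 0) :=
  have h := de7.2.2.1
  fin_reg (by norm_num) (by norm_num) (by norm_num) (by norm_num [EndOK]) h.2.2.2.2
    (fun _ _ hl hp hd => reach_blk hl hp hd h.2.2.2.1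
      (reach_blk hl hp hd h.2.2.1
      (reach_blk hl hp hd h.2.1
      (reach_init hl hp hd h.1))))
    (by norm_num) hl hl2 hθ

lemma r6_ok {l : ℝ} (hl : 0 < l) (hl2 : l ≤ 1 / 2) (hθ : ((6 : ℕ) : ℝ) * l ^ 2 ≤ 1) :
    Tendsto (fun n => seq (-l) (regular 6) n (X2 : V 3 → ℝ)) atTop (𝓝 0) :=
  have h := de8.2.2.1
  fin_reg (by norm_num) (by norm_num) (by norm_num) (by norm_num [EndOK]) h.2.2.2
    (fun _ _ hl hp hd => reach_blk hl hp hd h.2.2.1
      (reach_blk hl hp hd h.2.1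
      (reach_init hl hp hd h.1)))
    (by norm_num) hl hl2 hθ

lemma r7_ok {l : ℝ} (hl : 0 < l) (hl2 : l ≤ 1 / 2) (hθ : ((7 : ℕ) : ℝ) * l ^ 2 ≤ 1) :
    Tendsto (fun n => seq (-l) (regular 7) n (X2 : V 3 → ℝ)) atTop (𝓝 0) :=
  have h := de6.2.2.1
  fin_reg (by norm_num) (by norm_num) (by norm_num) (by norm_num [EndOK]) h.2.2.2
    (fun _ _ hl hp hd => reach_blk hl hp hd h.2.2.1
      (reach_blk hl hp hd h.2.1
      (reach_init hl hp hd h.1)))
    (by norm_num) hl hl2 hθ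

lemma r8_ok {l : ℝ} (hl : 0 < l) (hl2 : l ≤ 1 / 2) (hθ : ((8 : ℕ) : ℝ) * l ^ 2 ≤ 1) :
    Tendsto (fun n => seq (-l) (regular 8) n (X2 : V 3 → ℝ)) atTop (𝓝 0) :=
  have h := de2.2.2.1
  fin_reg (by norm_num) (by norm_num) (by norm_num) (by norm_num [EndOK]) h.2.2
    (fun _ _ hl hp hd => reach_blk hl hp hd h.2.1
      (reach_init hl hp hd h.1))
    (by norm_num) hl hl2 hθ

lemma r9_ok {l : ℝ} (hl : 0 < l) (hl2 : l ≤ 1 / 2) (hθ : ((9 : ℕ) : ℝ) * l ^ 2 ≤ 1) :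
    Tendsto (fun n => seq (-l) (regular 9) n (X2 : V 3 → ℝ)) atTop (𝓝 0) :=
  have h := de8.2.2.2.1
  fin_reg (by norm_num) (by norm_num) (by norm_num) (by norm_num [EndOK]) h.2.2
    (fun _ _ hl hp hd => reach_blk hl hp hd h.2.1
      (reach_init hl hp hd h.1))
    (by norm_num) hl hl2 hθ

lemma r10_ok {l : ℝ} (hl : 0 < l) (hl2 : l ≤ 1 / 2) (hθ : ((10 : ℕ) : ℝ) * l ^ 2 ≤ 1) :
    Tendsto (fun n => seq (-l) (regular 10) n (X2 : V 3 → ℝ)) atTop (𝓝 0) :=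
  have h := de1.2.2.2.2
  fin_reg (by norm_num) (by norm_num) (by norm_num) (by norm_num [EndOK]) h.2.2
    (fun _ _ hl hp hd => reach_blk hl hp hd h.2.1
      (reach_init hl hp hd h.1))
    (by norm_num) hl hl2 hθ

lemma r11_ok {l : ℝ} (hl : 0 < l) (hl2 : l ≤ 1 / 2) (hθ : ((11 : ℕ) : ℝ) * l ^ 2 ≤ 1) :
    Tendsto (fun n => seq (-l) (regular 11) n (X2 : V 3 → ℝ)) atTop (𝓝 0) :=
  have h := de4.2.2.2
  fin_reg (by norm_num) (by norm_num) (by norm_num) (by norm_num [EndOK]) h.2.2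
    (fun _ _ hl hp hd => reach_blk hl hp hd h.2.1
      (reach_init hl hp hd h.1))
    (by norm_num) hl hl2 hθ

lemma r12_ok {l : ℝ} (hl : 0 < l) (hl2 : l ≤ 1 / 2) (hθ : ((12 : ℕ) : ℝ) * l ^ 2 ≤ 1) :
    Tendsto (fun n => seq (-l) (regular 12) n (X2 : V 3 → ℝ)) atTop (𝓝 0) :=
  have h := de6.2.2.2.2.2
  fin_reg (by norm_num) (by norm_num) (by norm_num) (by norm_num [EndOK]) h.2.2
    (fun _ _ hl hp hd => reach_blk hl hp hd h.2.1
      (reach_init hl hp hd h.1))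
    (by norm_num) hl hl2 hθ

lemma r13_ok {l : ℝ} (hl : 0 < l) (hl2 : l ≤ 1 / 2) (hθ : ((13 : ℕ) : ℝ) * l ^ 2 ≤ 1) :
    Tendsto (fun n => seq (-l) (regular 13) n (X2 : V 3 → ℝ)) atTop (𝓝 0) :=
  have h := de5.2.2.2
  fin_reg (by norm_num) (by norm_num) (by norm_num) (by norm_num [EndOK]) h.2.2
    (fun _ _ hl hp hd => reach_blk hl hp hd h.2.1
      (reach_init hl hp hd h.1))
    (by norm_num) hl hl2 hθ

lemma r14_ok {l : ℝ} (hl : 0 < l) (hl2 : l ≤ 1 / 2) (hθ : ((14 : ℕ) : ℝ) * l ^ 2 ≤ 1) :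
    Tendsto (fun n => seq (-l) (regular 14) n (X2 : V 3 → ℝ)) atTop (𝓝 0) :=
  have h := de0.2.2.1
  fin_reg (by norm_num) (by norm_num) (by norm_num) (by norm_num [EndOK]) h.2.2
    (fun _ _ hl hp hd => reach_blk hl hp hd h.2.1
      (reach_init hl hp hd h.1))
    (by norm_num) hl hl2 hθ

lemma r15_ok {l : ℝ} (hl : 0 < l) (hl2 : l ≤ 1 / 2) (hθ : ((15 : ℕ) : ℝ) * l ^ 2 ≤ 1) :
    Tendsto (fun n => seq (-l) (regular 15) n (X2 : V 3 → ℝ)) atTop (𝓝 0) :=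
  have h := de1.2.2.1
  fin_reg (by norm_num) (by norm_num) (by norm_num) (by norm_num [EndOK]) h.2.2
    (fun _ _ hl hp hd => reach_blk hl hp hd h.2.1
      (reach_init hl hp hd h.1))
    (by norm_num) hl hl2 hθ

lemma r16_ok {l : ℝ} (hl : 0 < l) (hl2 : l ≤ 1 / 2) (hθ : ((16 : ℕ) : ℝ) * l ^ 2 ≤ 1) :
    Tendsto (fun n => seq (-l) (regular 16) n (X2 : V 3 → ℝ)) atTop (𝓝 0) :=
  have h := de0.2.2.2.1
  fin_reg (by norm_num) (by norm_num) (by norm_num) (by norm_num [EndOK]) h.2.2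
    (fun _ _ hl hp hd => reach_blk hl hp hd h.2.1
      (reach_init hl hp hd h.1))
    (by norm_num) hl hl2 hθ

lemma r17_ok {l : ℝ} (hl : 0 < l) (hl2 : l ≤ 1 / 2) (hθ : ((17 : ℕ) : ℝ) * l ^ 2 ≤ 1) :
    Tendsto (fun n => seq (-l) (regular 17) n (X2 : V 3 → ℝ)) atTop (𝓝 0) :=
  have h := de3.2.2.2.1
  fin_reg (by norm_num) (by norm_num) (by norm_num) (by norm_num [EndOK]) h.2.2
    (fun _ _ hl hp hd => reach_blk hl hp hd h.2.1
      (reach_init hl hp hd h.1))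
    (by norm_num) hl hl2 hθ

lemma r18_ok {l : ℝ} (hl : 0 < l) (hl2 : l ≤ 1 / 2) (hθ : ((18 : ℕ) : ℝ) * l ^ 2 ≤ 1) :
    Tendsto (fun n => seq (-l) (regular 18) n (X2 : V 3 → ℝ)) atTop (𝓝 0) :=
  have h := de3.2.2.2.2.1
  fin_reg (by norm_num) (by norm_num) (by norm_num) (by norm_num [EndOK]) h.2.2
    (fun _ _ hl hp hd => reach_blk hl hp hd h.2.1
      (reach_init hl hp hd h.1))
    (by norm_num) hl hl2 hθ

lemma r19_ok {l : ℝ} (hl : 0 < l) (hl2 : l ≤ 1 / 2) (hθ : ((19 : ℕ) : ℝ) * l ^ 2 ≤ 1) :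
    Tendsto (fun n => seq (-l) (regular 19) n (X2 : V 3 → ℝ)) atTop (𝓝 0) :=
  have h := de2.2.2.2.1
  fin_reg (by norm_num) (by norm_num) (by norm_num) (by norm_num [EndOK]) h.2.2
    (fun _ _ hl hp hd => reach_blk hl hp hd h.2.1
      (reach_init hl hp hd h.1))
    (by norm_num) hl hl2 hθ

lemma r20_ok {l : ℝ} (hl : 0 < l) (hl2 : l ≤ 1 / 2) (hθ : ((20 : ℕ) : ℝ) * l ^ 2 ≤ 1) :
    Tendsto (fun n => seq (-l) (regular 20) n (X2 : V 3 → ℝ)) atTop (𝓝 0) :=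
  have h := de8.2.2.2.2.1
  fin_reg (by norm_num) (by norm_num) (by norm_num) (by norm_num [EndOK]) h.2.2
    (fun _ _ hl hp hd => reach_blk hl hp hd h.2.1
      (reach_init hl hp hd h.1))
    (by norm_num) hl hl2 hθ

lemma r21_ok {l : ℝ} (hl : 0 < l) (hl2 : l ≤ 1 / 2) (hθ : ((21 : ℕ) : ℝ) * l ^ 2 ≤ 1) :
    Tendsto (fun n => seq (-l) (regular 21) n (X2 : V 3 → ℝ)) atTop (𝓝 0) :=
  have h := de6.2.2.2.1
  fin_reg (by norm_num) (by norm_num) (by norm_num) (by norm_num [EndOK]) h.2.2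
    (fun _ _ hl hp hd => reach_blk hl hp hd h.2.1
      (reach_init hl hp hd h.1))
    (by norm_num) hl hl2 hθ

lemma r22_ok {l : ℝ} (hl : 0 < l) (hl2 : l ≤ 1 / 2) (hθ : ((22 : ℕ) : ℝ) * l ^ 2 ≤ 1) :
    Tendsto (fun n => seq (-l) (regular 22) n (X2 : V 3 → ℝ)) atTop (𝓝 0) :=
  have h := de3.2.2.1
  fin_reg (by norm_num) (by norm_num) (by norm_num) (by norm_num [EndOK]) h.2
    (fun _ _ hl hp hd => reach_init hl hp hd h.1)
    (by norm_num) hl hl2 hθ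

lemma r23_ok {l : ℝ} (hl : 0 < l) (hl2 : l ≤ 1 / 2) (hθ : ((23 : ℕ) : ℝ) * l ^ 2 ≤ 1) :
    Tendsto (fun n => seq (-l) (regular 23) n (X2 : V 3 → ℝ)) atTop (𝓝 0) :=
  have h := de2.2.2.2.2
  fin_reg (by norm_num) (by norm_num) (by norm_num) (by norm_num [EndOK]) h.2
    (fun _ _ hl hp hd => reach_init hl hp hd h.1)
    (by norm_num) hl hl2 hθ

lemma r24_ok {l : ℝ} (hl : 0 < l) (hl2 : l ≤ 1 / 2) (hθ : ((24 : ℕ) : ℝ) * l ^ 2 ≤ 1) :
    Tendsto (fun n => seq (-l) (regular 24) n (X2 : V 3 → ℝ)) atTop (𝓝 0) :=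
  have h := de6.2.2.2.2.1
  fin_reg (by norm_num) (by norm_num) (by norm_num) (by norm_num [EndOK]) h.2
    (fun _ _ hl hp hd => reach_init hl hp hd h.1)
    (by norm_num) hl hl2 hθ

lemma r25_ok {l : ℝ} (hl : 0 < l) (hl2 : l ≤ 1 / 2) (hθ : ((25 : ℕ) : ℝ) * l ^ 2 ≤ 1) :
    Tendsto (fun n => seq (-l) (regular 25) n (X2 : V 3 → ℝ)) atTop (𝓝 0) :=
  have h := de0.2.2.2.2
  fin_reg (by norm_num) (by norm_num) (by norm_num) (by norm_num [EndOK]) h.2
    (fun _ _ hl hp hd => reach_init hl hp hd h.1)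
    (by norm_num) hl hl2 hθ

lemma r26_ok {l : ℝ} (hl : 0 < l) (hl2 : l ≤ 1 / 2) (hθ : ((26 : ℕ) : ℝ) * l ^ 2 ≤ 1) :
    Tendsto (fun n => seq (-l) (regular 26) n (X2 : V 3 → ℝ)) atTop (𝓝 0) :=
  have h := de1.2.2.2.1
  fin_reg (by norm_num) (by norm_num) (by norm_num) (by norm_num [EndOK]) h.2
    (fun _ _ hl hp hd => reach_init hl hp hd h.1)
    (by norm_num) hl hl2 hθ

lemma r27_ok {l : ℝ} (hl : 0 < l) (hl2 : l ≤ 1 / 2) (hθ : ((27 : ℕ) : ℝ) * l ^ 2 ≤ 1) :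
    Tendsto (fun n => seq (-l) (regular 27) n (X2 : V 3 → ℝ)) atTop (𝓝 0) :=
  have h := de7.2.2.2
  fin_reg (by norm_num) (by norm_num) (by norm_num) (by norm_num [EndOK]) h.2
    (fun _ _ hl hp hd => reach_init hl hp hd h.1)
    (by norm_num) hl hl2 hθ

lemma p0_ok {l d : ℝ} (hd : 0 < d) (hl : 489 / 1000 ≤ l) (h1 : l ≤ 500 / 1000) (hθ : d * l ^ 2 ≤ 1) :
    Tendsto (fun n => seq (-l) (poisson d) n (X2 : V 3 → ℝ)) atTop (𝓝 0) :=
  have h := de0.1
  fin_poi (mn := 489) (md := 1000) (by norm_num) (by norm_num) (by norm_num) (by norm_num)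
    (by norm_num) (by norm_num) (by norm_num) (by norm_num) (by norm_num) (by norm_num)
    (by norm_num [EndOK]) h.2.2.2.2.2
    (fun _ _ hl hp hd => reach_blk hl hp hd h.2.2.2.2.1
      (reach_blk hl hp hd h.2.2.2.1
      (reach_blk hl hp hd h.2.2.1
      (reach_blk hl hp hd h.2.1
      (reach_init hl hp hd h.1)))))
    hd (by exact_mod_cast hl) (h1.trans (by norm_num)) hθ

lemma p1_ok {l d : ℝ} (hd : 0 < d) (hl : 478 / 1000 ≤ l) (h1 : l ≤ 489 / 1000) (hθ : d * l ^ 2 ≤ 1) :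
    Tendsto (fun n => seq (-l) (poisson d) n (X2 : V 3 → ℝ)) atTop (𝓝 0) :=
  have h := de3.1
  fin_poi (mn := 478) (md := 1000) (by norm_num) (by norm_num) (by norm_num) (by norm_num)
    (by norm_num) (by norm_num) (by norm_num) (by norm_num) (by norm_num) (by norm_num)
    (by norm_num [EndOK]) h.2.2.2.2.2
    (fun _ _ hl hp hd => reach_blk hl hp hd h.2.2.2.2.1
      (reach_blk hl hp hd h.2.2.2.1
      (reach_blk hl hp hd h.2.2.1
      (reach_blk hl hp hd h.2.1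
      (reach_init hl hp hd h.1)))))
    hd (by exact_mod_cast hl) (h1.trans (by norm_num)) hθ

lemma p2_ok {l d : ℝ} (hd : 0 < d) (hl : 466 / 1000 ≤ l) (h1 : l ≤ 478 / 1000) (hθ : d * l ^ 2 ≤ 1) :
    Tendsto (fun n => seq (-l) (poisson d) n (X2 : V 3 → ℝ)) atTop (𝓝 0) :=
  have h := de1.1
  fin_poi (mn := 466) (md := 1000) (by norm_num) (by norm_num) (by norm_num) (by norm_num)
    (by norm_num) (by norm_num) (by norm_num) (by norm_num) (by norm_num) (by norm_num)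
    (by norm_num [EndOK]) h.2.2.2.2.2
    (fun _ _ hl hp hd => reach_blk hl hp hd h.2.2.2.2.1
      (reach_blk hl hp hd h.2.2.2.1
      (reach_blk hl hp hd h.2.2.1
      (reach_blk hl hp hd h.2.1
      (reach_init hl hp hd h.1)))))
    hd (by exact_mod_cast hl) (h1.trans (by norm_num)) hθ

lemma p3_ok {l d : ℝ} (hd : 0 < d) (hl : 454 / 1000 ≤ l) (h1 : l ≤ 466 / 1000) (hθ : d * l ^ 2 ≤ 1) :
    Tendsto (fun n => seq (-l) (poisson d) n (X2 : V 3 → ℝ)) atTop (𝓝 0) :=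
  have h := de4.1
  fin_poi (mn := 454) (md := 1000) (by norm_num) (by norm_num) (by norm_num) (by norm_num)
    (by norm_num) (by norm_num) (by norm_num) (by norm_num) (by norm_num) (by norm_num)
    (by norm_num [EndOK]) h.2.2.2.2.2
    (fun _ _ hl hp hd => reach_blk hl hp hd h.2.2.2.2.1
      (reach_blk hl hp hd h.2.2.2.1
      (reach_blk hl hp hd h.2.2.1
      (reach_blk hl hp hd h.2.1
      (reach_init hl hp hd h.1)))))
    hd (by exact_mod_cast hl) (h1.trans (by norm_num)) hθ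

lemma p4_ok {l d : ℝ} (hd : 0 < d) (hl : 442 / 1000 ≤ l) (h1 : l ≤ 454 / 1000) (hθ : d * l ^ 2 ≤ 1) :
    Tendsto (fun n => seq (-l) (poisson d) n (X2 : V 3 → ℝ)) atTop (𝓝 0) :=
  have h := de5.1
  fin_poi (mn := 442) (md := 1000) (by norm_num) (by norm_num) (by norm_num) (by norm_num)
    (by norm_num) (by norm_num) (by norm_num) (by norm_num) (by norm_num) (by norm_num)
    (by norm_num [EndOK]) h.2.2.2.2.2
    (fun _ _ hl hp hd => reach_blk hl hp hd h.2.2.2.2.1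
      (reach_blk hl hp hd h.2.2.2.1
      (reach_blk hl hp hd h.2.2.1
      (reach_blk hl hp hd h.2.1
      (reach_init hl hp hd h.1)))))
    hd (by exact_mod_cast hl) (h1.trans (by norm_num)) hθ

lemma p5_ok {l d : ℝ} (hd : 0 < d) (hl : 429 / 1000 ≤ l) (h1 : l ≤ 442 / 1000) (hθ : d * l ^ 2 ≤ 1) :
    Tendsto (fun n => seq (-l) (poisson d) n (X2 : V 3 → ℝ)) atTop (𝓝 0) :=
  have h := de7.1
  fin_poi (mn := 429) (md := 1000) (by norm_num) (by norm_num) (by norm_num) (by norm_num)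
    (by norm_num) (by norm_num) (by norm_num) (by norm_num) (by norm_num) (by norm_num)
    (by norm_num [EndOK]) h.2.2.2.2.2
    (fun _ _ hl hp hd => reach_blk hl hp hd h.2.2.2.2.1
      (reach_blk hl hp hd h.2.2.2.1
      (reach_blk hl hp hd h.2.2.1
      (reach_blk hl hp hd h.2.1
      (reach_init hl hp hd h.1)))))
    hd (by exact_mod_cast hl) (h1.trans (by norm_num)) hθ

lemma p6_ok {l d : ℝ} (hd : 0 < d) (hl : 415 / 1000 ≤ l) (h1 : l ≤ 429 / 1000) (hθ : d * l ^ 2 ≤ 1) :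
    Tendsto (fun n => seq (-l) (poisson d) n (X2 : V 3 → ℝ)) atTop (𝓝 0) :=
  have h := de6.1
  fin_poi (mn := 415) (md := 1000) (by norm_num) (by norm_num) (by norm_num) (by norm_num)
    (by norm_num) (by norm_num) (by norm_num) (by norm_num) (by norm_num) (by norm_num)
    (by norm_num [EndOK]) h.2.2.2.2.2
    (fun _ _ hl hp hd => reach_blk hl hp hd h.2.2.2.2.1
      (reach_blk hl hp hd h.2.2.2.1
      (reach_blk hl hp hd h.2.2.1
      (reach_blk hl hp hd h.2.1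
      (reach_init hl hp hd h.1)))))
    hd (by exact_mod_cast hl) (h1.trans (by norm_num)) hθ

lemma p7_ok {l d : ℝ} (hd : 0 < d) (hl : 400 / 1000 ≤ l) (h1 : l ≤ 415 / 1000) (hθ : d * l ^ 2 ≤ 1) :
    Tendsto (fun n => seq (-l) (poisson d) n (X2 : V 3 → ℝ)) atTop (𝓝 0) :=
  have h := de8.1
  fin_poi (mn := 400) (md := 1000) (by norm_num) (by norm_num) (by norm_num) (by norm_num)
    (by norm_num) (by norm_num) (by norm_num) (by norm_num) (by norm_num) (by norm_num)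
    (by norm_num [EndOK]) h.2.2.2.2.2
    (fun _ _ hl hp hd => reach_blk hl hp hd h.2.2.2.2.1
      (reach_blk hl hp hd h.2.2.2.1
      (reach_blk hl hp hd h.2.2.1
      (reach_blk hl hp hd h.2.1
      (reach_init hl hp hd h.1)))))
    hd (by exact_mod_cast hl) (h1.trans (by norm_num)) hθ

lemma p8_ok {l d : ℝ} (hd : 0 < d) (hl : 385 / 1000 ≤ l) (h1 : l ≤ 400 / 1000) (hθ : d * l ^ 2 ≤ 1) :
    Tendsto (fun n => seq (-l) (poisson d) n (X2 : V 3 → ℝ)) atTop (𝓝 0) :=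
  have h := de8.2.1
  fin_poi (mn := 385) (md := 1000) (by norm_num) (by norm_num) (by norm_num) (by norm_num)
    (by norm_num) (by norm_num) (by norm_num) (by norm_num) (by norm_num) (by norm_num)
    (by norm_num [EndOK]) h.2.2.2.2
    (fun _ _ hl hp hd => reach_blk hl hp hd h.2.2.2.1
      (reach_blk hl hp hd h.2.2.1
      (reach_blk hl hp hd h.2.1
      (reach_init hl hp hd h.1))))
    hd (by exact_mod_cast hl) (h1.trans (by norm_num)) hθ

lemma p9_ok {l d : ℝ} (hd : 0 < d) (hl : 369 / 1000 ≤ l) (h1 : l ≤ 385 / 1000) (hθ : d * l ^ 2 ≤ 1) :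
    Tendsto (fun n => seq (-l) (poisson d) n (X2 : V 3 → ℝ)) atTop (𝓝 0) :=
  have h := de6.2.1
  fin_poi (mn := 369) (md := 1000) (by norm_num) (by norm_num) (by norm_num) (by norm_num)
    (by norm_num) (by norm_num) (by norm_num) (by norm_num) (by norm_num) (by norm_num)
    (by norm_num [EndOK]) h.2.2.2.2
    (fun _ _ hl hp hd => reach_blk hl hp hd h.2.2.2.1
      (reach_blk hl hp hd h.2.2.1
      (reach_blk hl hp hd h.2.1
      (reach_init hl hp hd h.1))))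
    hd (by exact_mod_cast hl) (h1.trans (by norm_num)) hθ

lemma p10_ok {l d : ℝ} (hd : 0 < d) (hl : 352 / 1000 ≤ l) (h1 : l ≤ 369 / 1000) (hθ : d * l ^ 2 ≤ 1) :
    Tendsto (fun n => seq (-l) (poisson d) n (X2 : V 3 → ℝ)) atTop (𝓝 0) :=
  have h := de7.2.1
  fin_poi (mn := 352) (md := 1000) (by norm_num) (by norm_num) (by norm_num) (by norm_num)
    (by norm_num) (by norm_num) (by norm_num) (by norm_num) (by norm_num) (by norm_num)
    (by norm_num [EndOK]) h.2.2.2.2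
    (fun _ _ hl hp hd => reach_blk hl hp hd h.2.2.2.1
      (reach_blk hl hp hd h.2.2.1
      (reach_blk hl hp hd h.2.1
      (reach_init hl hp hd h.1))))
    hd (by exact_mod_cast hl) (h1.trans (by norm_num)) hθ

lemma p11_ok {l d : ℝ} (hd : 0 < d) (hl : 334 / 1000 ≤ l) (h1 : l ≤ 352 / 1000) (hθ : d * l ^ 2 ≤ 1) :
    Tendsto (fun n => seq (-l) (poisson d) n (X2 : V 3 → ℝ)) atTop (𝓝 0) :=
  have h := de2.2.1
  fin_poi (mn := 334) (md := 1000) (by norm_num) (by norm_num) (by norm_num) (by norm_num)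
    (by norm_num) (by norm_num) (by norm_num) (by norm_num) (by norm_num) (by norm_num)
    (by norm_num [EndOK]) h.2.2.2
    (fun _ _ hl hp hd => reach_blk hl hp hd h.2.2.1
      (reach_blk hl hp hd h.2.1
      (reach_init hl hp hd h.1)))
    hd (by exact_mod_cast hl) (h1.trans (by norm_num)) hθ

lemma p12_ok {l d : ℝ} (hd : 0 < d) (hl : 315 / 1000 ≤ l) (h1 : l ≤ 334 / 1000) (hθ : d * l ^ 2 ≤ 1) :
    Tendsto (fun n => seq (-l) (poisson d) n (X2 : V 3 → ℝ)) atTop (𝓝 0) :=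
  have h := de3.2.1
  fin_poi (mn := 315) (md := 1000) (by norm_num) (by norm_num) (by norm_num) (by norm_num)
    (by norm_num) (by norm_num) (by norm_num) (by norm_num) (by norm_num) (by norm_num)
    (by norm_num [EndOK]) h.2.2.2
    (fun _ _ hl hp hd => reach_blk hl hp hd h.2.2.1
      (reach_blk hl hp hd h.2.1
      (reach_init hl hp hd h.1)))
    hd (by exact_mod_cast hl) (h1.trans (by norm_num)) hθ

lemma p13_ok {l d : ℝ} (hd : 0 < d) (hl : 295 / 1000 ≤ l) (h1 : l ≤ 315 / 1000) (hθ : d * l ^ 2 ≤ 1) :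
    Tendsto (fun n => seq (-l) (poisson d) n (X2 : V 3 → ℝ)) atTop (𝓝 0) :=
  have h := de1.2.1
  fin_poi (mn := 295) (md := 1000) (by norm_num) (by norm_num) (by norm_num) (by norm_num)
    (by norm_num) (by norm_num) (by norm_num) (by norm_num) (by norm_num) (by norm_num)
    (by norm_num [EndOK]) h.2.2.2
    (fun _ _ hl hp hd => reach_blk hl hp hd h.2.2.1
      (reach_blk hl hp hd h.2.1
      (reach_init hl hp hd h.1)))
    hd (by exact_mod_cast hl) (h1.trans (by norm_num)) hθ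

lemma p14_ok {l d : ℝ} (hd : 0 < d) (hl : 274 / 1000 ≤ l) (h1 : l ≤ 295 / 1000) (hθ : d * l ^ 2 ≤ 1) :
    Tendsto (fun n => seq (-l) (poisson d) n (X2 : V 3 → ℝ)) atTop (𝓝 0) :=
  have h := de0.2.1
  fin_poi (mn := 274) (md := 1000) (by norm_num) (by norm_num) (by norm_num) (by norm_num)
    (by norm_num) (by norm_num) (by norm_num) (by norm_num) (by norm_num) (by norm_num)
    (by norm_num [EndOK]) h.2.2.2
    (fun _ _ hl hp hd => reach_blk hl hp hd h.2.2.1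
      (reach_blk hl hp hd h.2.1
      (reach_init hl hp hd h.1)))
    hd (by exact_mod_cast hl) (h1.trans (by norm_num)) hθ

lemma p15_ok {l d : ℝ} (hd : 0 < d) (hl : 252 / 1000 ≤ l) (h1 : l ≤ 274 / 1000) (hθ : d * l ^ 2 ≤ 1) :
    Tendsto (fun n => seq (-l) (poisson d) n (X2 : V 3 → ℝ)) atTop (𝓝 0) :=
  have h := de5.2.2.1
  fin_poi (mn := 252) (md := 1000) (by norm_num) (by norm_num) (by norm_num) (by norm_num)
    (by norm_num) (by norm_num) (by norm_num) (by norm_num) (by norm_num) (by norm_num)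
    (by norm_num [EndOK]) h.2.2.2
    (fun _ _ hl hp hd => reach_blk hl hp hd h.2.2.1
      (reach_blk hl hp hd h.2.1
      (reach_init hl hp hd h.1)))
    hd (by exact_mod_cast hl) (h1.trans (by norm_num)) hθ

lemma p16_ok {l d : ℝ} (hd : 0 < d) (hl : 230 / 1000 ≤ l) (h1 : l ≤ 252 / 1000) (hθ : d * l ^ 2 ≤ 1) :
    Tendsto (fun n => seq (-l) (poisson d) n (X2 : V 3 → ℝ)) atTop (𝓝 0) :=
  have h := de5.2.1
  fin_poi (mn := 230) (md := 1000) (by norm_num) (by norm_num) (by norm_num) (by norm_num)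
    (by norm_num) (by norm_num) (by norm_num) (by norm_num) (by norm_num) (by norm_num)
    (by norm_num [EndOK]) h.2.2.2
    (fun _ _ hl hp hd => reach_blk hl hp hd h.2.2.1
      (reach_blk hl hp hd h.2.1
      (reach_init hl hp hd h.1)))
    hd (by exact_mod_cast hl) (h1.trans (by norm_num)) hθ

lemma p17_ok {l d : ℝ} (hd : 0 < d) (hl : 208 / 1000 ≤ l) (h1 : l ≤ 230 / 1000) (hθ : d * l ^ 2 ≤ 1) :
    Tendsto (fun n => seq (-l) (poisson d) n (X2 : V 3 → ℝ)) atTop (𝓝 0) :=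
  have h := de4.2.1
  fin_poi (mn := 208) (md := 1000) (by norm_num) (by norm_num) (by norm_num) (by norm_num)
    (by norm_num) (by norm_num) (by norm_num) (by norm_num) (by norm_num) (by norm_num)
    (by norm_num [EndOK]) h.2.2.2
    (fun _ _ hl hp hd => reach_blk hl hp hd h.2.2.1
      (reach_blk hl hp hd h.2.1
      (reach_init hl hp hd h.1)))
    hd (by exact_mod_cast hl) (h1.trans (by norm_num)) hθ

lemma p18_ok {l d : ℝ} (hd : 0 < d) (hl : 190 / 1000 ≤ l) (h1 : l ≤ 208 / 1000) (hθ : d * l ^ 2 ≤ 1) :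
    Tendsto (fun n => seq (-l) (poisson d) n (X2 : V 3 → ℝ)) atTop (𝓝 0) :=
  have h := de4.2.2.1
  fin_poi (mn := 190) (md := 1000) (by norm_num) (by norm_num) (by norm_num) (by norm_num)
    (by norm_num) (by norm_num) (by norm_num) (by norm_num) (by norm_num) (by norm_num)
    (by norm_num [EndOK]) h.2.2.2
    (fun _ _ hl hp hd => reach_blk hl hp hd h.2.2.1
      (reach_blk hl hp hd h.2.1
      (reach_init hl hp hd h.1)))
    hd (by exact_mod_cast hl) (h1.trans (by norm_num)) hθ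

theorem anti_reg {d : ℕ} (hd : 2 ≤ d) {l : ℝ} (hl : 19 / 100 ≤ l) (hl2 : l ≤ 1 / 2)
    (hθ : (d : ℝ) * l ^ 2 ≤ 1) :
    Tendsto (fun n => seq (-l) (regular d) n (X2 : V 3 → ℝ)) atTop (𝓝 0) := by
  have l0 : 0 < l := by linarith
  have h28 : d < 28 := by
    by_contra h
    have : (28 : ℝ) ≤ d := by exact_mod_cast not_lt.1 h
    nlinarith [mul_self_le_mul_self (by norm_num) hl]
  interval_cases d
  exacts [r2_ok l0 hl2 hθ,
    r3_ok l0 hl2 hθ,
    r4_ok l0 hl2 hθ,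
    r5_ok l0 hl2 hθ,
    r6_ok l0 hl2 hθ,
    r7_ok l0 hl2 hθ,
    r8_ok l0 hl2 hθ,
    r9_ok l0 hl2 hθ,
    r10_ok l0 hl2 hθ,
    r11_ok l0 hl2 hθ,
    r12_ok l0 hl2 hθ,
    r13_ok l0 hl2 hθ,
    r14_ok l0 hl2 hθ,
    r15_ok l0 hl2 hθ,
    r16_ok l0 hl2 hθ,
    r17_ok l0 hl2 hθ,
    r18_ok l0 hl2 hθ,
    r19_ok l0 hl2 hθ,
    r20_ok l0 hl2 hθ,
    r21_ok l0 hl2 hθ,
    r22_ok l0 hl2 hθ,
    r23_ok l0 hl2 hθ,
    r24_ok l0 hl2 hθ,
    r25_ok l0 hl2 hθ,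
    r26_ok l0 hl2 hθ,
    r27_ok l0 hl2 hθ]

theorem anti_poi {d : ℝ} (hd : 0 < d) {l : ℝ} (hl : 19 / 100 ≤ l) (hl2 : l ≤ 1 / 2)
    (hθ : d * l ^ 2 ≤ 1) :
    Tendsto (fun n => seq (-l) (poisson d) n (X2 : V 3 → ℝ)) atTop (𝓝 0) := by
  rcases le_total (489 / 1000) l with h0 | h0
  · exact p0_ok hd h0 (by linarith) hθ
  rcases le_total (478 / 1000) l with h1 | h1
  · exact p1_ok hd h1 h0 hθ
  rcases le_total (466 / 1000) l with h2 | h2
  · exact p2_ok hd h2 h1 hθ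
  rcases le_total (454 / 1000) l with h3 | h3
  · exact p3_ok hd h3 h2 hθ
  rcases le_total (442 / 1000) l with h4 | h4
  · exact p4_ok hd h4 h3 hθ
  rcases le_total (429 / 1000) l with h5 | h5
  · exact p5_ok hd h5 h4 hθ
  rcases le_total (415 / 1000) l with h6 | h6
  · exact p6_ok hd h6 h5 hθ
  rcases le_total (400 / 1000) l with h7 | h7
  · exact p7_ok hd h7 h6 hθ
  rcases le_total (385 / 1000) l with h8 | h8
  · exact p8_ok hd h8 h7 hθ
  rcases le_total (369 / 1000) l with h9 | h9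
  · exact p9_ok hd h9 h8 hθ
  rcases le_total (352 / 1000) l with h10 | h10
  · exact p10_ok hd h10 h9 hθ
  rcases le_total (334 / 1000) l with h11 | h11
  · exact p11_ok hd h11 h10 hθ
  rcases le_total (315 / 1000) l with h12 | h12
  · exact p12_ok hd h12 h11 hθ
  rcases le_total (295 / 1000) l with h13 | h13
  · exact p13_ok hd h13 h12 hθ
  rcases le_total (274 / 1000) l with h14 | h14
  · exact p14_ok hd h14 h13 hθ
  rcases le_total (252 / 1000) l with h15 | h15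
  · exact p15_ok hd h15 h14 hθ
  rcases le_total (230 / 1000) l with h16 | h16
  · exact p16_ok hd h16 h15 hθ
  rcases le_total (208 / 1000) l with h17 | h17
  · exact p17_ok hd h17 h16 hθ
  exact p18_ok hd (by linarith) h17 hθ

theorem all3 {lam : ℝ} (h0 : -(1 / 2) ≤ lam) (h1 : lam ≤ 1) :
    (∀ d : ℕ, 2 ≤ d → (d : ℝ) * lam ^ 2 ≤ 1 →
      Tendsto (fun n => seq lam (regular d) n (X2 : V 3 → ℝ)) atTop (𝓝 0)) ∧
    ∀ d : ℝ, 0 < d → d * lam ^ 2 ≤ 1 →
      Tendsto (fun n => seq lam (poisson d) n (X2 : V 3 → ℝ)) atTop (𝓝 0) := by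
  rcases le_total (-(19 / 100)) lam with h | h
  · exact ⟨fun d hd => small3 h h1 (off_regular hd), fun d hd => small3 h h1 (off_poisson hd)⟩
  · refine ⟨fun d hd hθ => ?_, fun d hd hθ => ?_⟩
    · simpa using anti_reg hd (l := -lam) (by linarith) (by linarith) (by simpa using hθ)
    · simpa using anti_poi hd (l := -lam) (by linarith) (by linarith) (by simpa using hθ)

end Vale.Agent.P154
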