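import Vale.Agent.P154.KronD

set_option linter.unusedSimpArgs false
set_option linter.unnecessarySeqFocus false
set_option linter.unusedTactic false
set_option linter.unreachableTactic false

namespace Vale.Agent.P154

def dgf (B N k : ℕ) : ℕ :=
  Nat.land (Nat.shiftRight N (Nat.mul B k)) (Nat.sub (Nat.pow (nat_lit 2) B) (nat_lit 1))

theorem dgf_eq (B N k : ℕ) : dgf B N k = dg B N k :=
  Nat.and_two_pow_sub_one_eq_mod _ _

theorem brN (a b : ℕ) (c : Bool) : Bool.rec (motive := fun _ => ℕ) b a c = cond c a b := by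
  cases c <;> rfl

theorem brA (a b : Bool) : Bool.rec (motive := fun _ => Bool) false b a = (a && b) := by
  cases a <;> rfl

theorem brO (a b : Bool) : Bool.rec (motive := fun _ => Bool) b true a = (a || b) := by
  cases a <;> rfl

/-- sum over `i < n` -/
def sumLt (n : ℕ) (f : ℕ → ℕ) : ℕ :=
  Nat.rec (motive := fun _ => ℕ) (nat_lit 0) (fun i acc => Nat.add (f i) acc) n

theorem sumLt_eq (n : ℕ) (f : ℕ → ℕ) : sumLt n f = ∑ i ∈ Finset.range n, f i := by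
  induction n with
  | zero => rfl
  | succ n ih => rw [Finset.sum_range_succ, ← ih, Nat.add_comm (sumLt n f)]; rfl

structure Par where
  ra : ℕ
  rb : ℕ
  V : ℕ
  W : ℕ
  S : ℕ
  sa : ℕ
  sb : ℕ
  U : ℕ
  ln : ℕ
  ld : ℕ
  wn : ℕ
  wd : ℕ
  ps : List ℕ

def mn (a b : ℕ) : ℕ :=
  (Bool.rec (motive := fun _ => ℕ) b a (Nat.ble a b))

theorem mn_eq (a b : ℕ) : mn a b =
  (cond (Nat.ble a b) a b) := by
  unfold mn; simp only [brN, brA, brO] <;> rfl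

def mx (a b : ℕ) : ℕ :=
  (Bool.rec (motive := fun _ => ℕ) a b (Nat.ble a b))

theorem mx_eq (a b : ℕ) : mx a b =
  (cond (Nat.ble a b) b a) := by
  unfold mx; simp only [brN, brA, brO] <;> rfl

/-- `2 ^ 32 * (x / y) ^ (i - j)` rounded down -/
def lo (x y i j : ℕ) : ℕ :=
  (Nat.div (Nat.shiftLeft (Nat.mul (Nat.pow x i) (Nat.pow y j)) (nat_lit 32)) (Nat.mul (Nat.pow y
    i) (Nat.pow x j)))

theorem lo_eq (x y i j : ℕ) : lo x y i j =
  (((x ^ i * y ^ j) <<< 32) / (y ^ i * x ^ j)) := rfl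

def up0 (x y a i j : ℕ) : ℕ :=
  (Nat.mul a (Nat.add (lo x y j (Nat.mul (nat_lit 2) i)) (nat_lit 1)))

theorem up0_eq (x y a i j : ℕ) : up0 x y a i j =
  (a * (lo x y j (2 * i) + 1)) := rfl

def up1 (x y a i j : ℕ) : ℕ :=
  (Nat.mul a (Nat.add (lo x y i (Nat.mul (nat_lit 2) j)) (nat_lit 1)))

theorem up1_eq (x y a i j : ℕ) : up1 x y a i j =
  (a * (lo x y i (2 * j) + 1)) := rfl

def up2 (x y a i j : ℕ) : ℕ :=
  (Nat.mul a (Nat.add (lo x y (Nat.add i j) (nat_lit 0)) (nat_lit 1)))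

theorem up2_eq (x y a i j : ℕ) : up2 x y a i j =
  (a * (lo x y (i + j) 0 + 1)) := rfl

/-- verify a candidate decomposition -/
def chk3 (x y U y0 y1 y2 a1 i1 j1 a2 i2 j2 a3 i3 j3 o : ℕ) : Bool :=
  (Bool.rec (motive := fun _ => Bool) false (Nat.ble (Nat.add (Nat.add (Nat.add a1 a2) a3) o)
    (Nat.pow (nat_lit 2) (nat_lit 46))) (Bool.rec (motive := fun _ => Bool) false (Nat.ble j3 i3)
    (Bool.rec (motive := fun _ => Bool) false (Nat.ble j2 i2) (Bool.rec (motive := fun _ => Bool)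
    false (Nat.ble j1 i1) (Bool.rec (motive := fun _ => Bool) false (Nat.ble i3 U) (Bool.rec
    (motive := fun _ => Bool) false (Nat.ble i2 U) (Bool.rec (motive := fun _ => Bool) false
    (Nat.ble i1 U) (Bool.rec (motive := fun _ => Bool) false (Nat.ble (Nat.add (Nat.add (Nat.add
    (up2 x y a1 i1 j1) (up2 x y a2 i2 j2)) (up2 x y a3 i3 j3)) (Nat.shiftLeft o (nat_lit 32)))
    (Nat.shiftLeft y2 (nat_lit 32))) (Bool.rec (motive := fun _ => Bool) false (Nat.ble (Nat.add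
    (Nat.add (Nat.add (up1 x y a1 i1 j1) (up1 x y a2 i2 j2)) (up1 x y a3 i3 j3)) (Nat.shiftLeft o
    (nat_lit 32))) (Nat.shiftLeft y1 (nat_lit 32))) (Nat.ble (Nat.add (Nat.add (up0 x y a1 i1 j1)
    (up0 x y a2 i2 j2)) (up0 x y a3 i3 j3)) (Nat.shiftLeft y0 (nat_lit 32))))))))))))

theorem chk3_eq (x y U y0 y1 y2 a1 i1 j1 a2 i2 j2 a3 i3 j3 o : ℕ) : chk3 x y U y0 y1 y2 a1 i1 j1 a2 i2 j2 a3 i3 j3 o =
  (Nat.ble (up0 x y a1 i1 j1 + up0 x y a2 i2 j2 + up0 x y a3 i3 j3) (y0 <<< 32) && Nat.ble (up1 x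
    y a1 i1 j1 + up1 x y a2 i2 j2 + up1 x y a3 i3 j3 + o <<< 32) (y1 <<< 32) && Nat.ble (up2 x y
    a1 i1 j1 + up2 x y a2 i2 j2 + up2 x y a3 i3 j3 + o <<< 32) (y2 <<< 32) && Nat.ble i1 U &&
    Nat.ble i2 U && Nat.ble i3 U && Nat.ble j1 i1 && Nat.ble j2 i2 && Nat.ble j3 i3 && Nat.ble
    (a1 + a2 + a3 + o) (2 ^ 46)) := by
  unfold chk3; simp only [brN, brA, brO] <;> rfl

/-- encode a verified decomposition -/
def fin3 (x y U y0 y1 y2 a1 i1 j1 a2 i2 j2 a3 i3 j3 o : ℕ) : ℕ :=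
  (Bool.rec (motive := fun _ => ℕ) (nat_lit 0) (Nat.add (Nat.add (Nat.add (Nat.shiftLeft a1
    (Nat.mul (nat_lit 112) (Nat.add (Nat.add (Nat.mul i1 (Nat.add U (nat_lit 1))) j1) (nat_lit
    2)))) (Nat.shiftLeft a2 (Nat.mul (nat_lit 112) (Nat.add (Nat.add (Nat.mul i2 (Nat.add U
    (nat_lit 1))) j2) (nat_lit 2))))) (Nat.shiftLeft a3 (Nat.mul (nat_lit 112) (Nat.add (Nat.add
    (Nat.mul i3 (Nat.add U (nat_lit 1))) j3) (nat_lit 2))))) (Nat.shiftLeft o (nat_lit 112)))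
    (chk3 x y U y0 y1 y2 a1 i1 j1 a2 i2 j2 a3 i3 j3 o))

theorem fin3_eq (x y U y0 y1 y2 a1 i1 j1 a2 i2 j2 a3 i3 j3 o : ℕ) : fin3 x y U y0 y1 y2 a1 i1 j1 a2 i2 j2 a3 i3 j3 o =
  (cond (chk3 x y U y0 y1 y2 a1 i1 j1 a2 i2 j2 a3 i3 j3 o) (a1 <<< (112 * (i1 * (U + 1) + j1 +
    2)) + a2 <<< (112 * (i2 * (U + 1) + j2 + 2)) + a3 <<< (112 * (i3 * (U + 1) + j3 + 2)) + o <<<
    112) 0) := by
  unfold fin3; simp only [brN, brA, brO] <;> rfl

def bs1 (x y p t s v : ℕ) : ℕ :=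
  (Bool.rec (motive := fun _ => ℕ) (Nat.add v s) v (Nat.ble (Nat.mul t (Nat.pow y (Nat.mul
    (nat_lit 3) (Nat.add v s)))) (Nat.mul p (Nat.pow x (Nat.mul (nat_lit 3) (Nat.add v s))))))

theorem bs1_eq (x y p t s v : ℕ) : bs1 x y p t s v =
  (cond (Nat.ble (t * y ^ (3 * (v + s))) (p * x ^ (3 * (v + s)))) v (v + s)) := by
  unfold bs1; simp only [brN, brA, brO] <;> rfl

/-- heuristic for the least `i` with `t ≤ p * ρ ^ i` -/
def ilg (x y p t : ℕ) : ℕ :=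
  (Nat.add (bs1 x y p t (nat_lit 1) (bs1 x y p t (nat_lit 2) (bs1 x y p t (nat_lit 4) (bs1 x y p
    t (nat_lit 8) (bs1 x y p t (nat_lit 16) (bs1 x y p t (nat_lit 32) (nat_lit 0))))))) (nat_lit
    1))

theorem ilg_eq (x y p t : ℕ) : ilg x y p t =
  (bs1 x y p t 1 (bs1 x y p t 2 (bs1 x y p t 4 (bs1 x y p t 8 (bs1 x y p t 16 (bs1 x y p t 32
    0))))) + 1) := rfl

def shr (a : ℕ) : ℕ :=
  (Nat.sub (Nat.sub a (Nat.shiftRight a (nat_lit 18))) (nat_lit 2))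

theorem shr_eq (a : ℕ) : shr a =
  (a - a >>> 18 - 2) := rfl

def wt (x y y2 c i j : ℕ) : ℕ :=
  (shr (Nat.shiftRight (Nat.mul (Nat.mul y2 (Nat.div (Nat.shiftLeft c (nat_lit 32)) (Nat.sub (lo
    x y (nat_lit 3) (nat_lit 0)) (nat_lit 4294967296)))) (lo x y (nat_lit 0) (Nat.add i j)))
    (nat_lit 64)))

theorem wt_eq (x y y2 c i j : ℕ) : wt x y y2 c i j =
  (shr ((y2 * ((c <<< 32) / (lo x y 3 0 - 4294967296)) * lo x y 0 (i + j)) >>> 64)) := rfl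

def patA (x y U y0 y1 y2 i j u0 u1 : ℕ) : ℕ :=
  (Bool.rec (motive := fun _ => ℕ) (fin3 x y U y0 y1 y2 (wt x y y2 (Nat.sub (lo x y (nat_lit 3)
    (nat_lit 0)) u1) i j) i j (wt x y y2 (Nat.sub u1 u0) i (Nat.sub j (nat_lit 1))) i (Nat.sub j
    (nat_lit 1)) (wt x y y2 (Nat.sub u0 (nat_lit 4294967296)) (Nat.sub i (nat_lit 1)) (Nat.sub j
    (nat_lit 1))) (Nat.sub i (nat_lit 1)) (Nat.sub j (nat_lit 1)) (nat_lit 0)) (fin3 x y U y0 y1
    y2 (wt x y y2 (Nat.sub (lo x y (nat_lit 3) (nat_lit 0)) u0) i j) i j (wt x y y2 (Nat.sub u0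
    u1) (Nat.sub i (nat_lit 1)) j) (Nat.sub i (nat_lit 1)) j (wt x y y2 (Nat.sub u1 (nat_lit
    4294967296)) (Nat.sub i (nat_lit 1)) (Nat.sub j (nat_lit 1))) (Nat.sub i (nat_lit 1))
    (Nat.sub j (nat_lit 1)) (nat_lit 0)) (Bool.rec (motive := fun _ => Bool) false (Nat.blt j i)
    (Nat.ble u1 u0)))

theorem patA_eq (x y U y0 y1 y2 i j u0 u1 : ℕ) : patA x y U y0 y1 y2 i j u0 u1 =
  (cond (Nat.ble u1 u0 && Nat.blt j i) (fin3 x y U y0 y1 y2 (wt x y y2 (lo x y 3 0 - u0) i j) i j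
    (wt x y y2 (u0 - u1) (i - 1) j) (i - 1) j (wt x y y2 (u1 - 4294967296) (i - 1) (j - 1)) (i -
    1) (j - 1) 0) (fin3 x y U y0 y1 y2 (wt x y y2 (lo x y 3 0 - u1) i j) i j (wt x y y2 (u1 - u0)
    i (j - 1)) i (j - 1) (wt x y y2 (u0 - 4294967296) (i - 1) (j - 1)) (i - 1) (j - 1) 0)) := by
  unfold patA; simp only [brN, brA, brO] <;> rfl

def patI (x y U y0 y1 y2 i j : ℕ) : ℕ :=
  (patA x y U y0 y1 y2 i j (Nat.div (Nat.mul y0 (lo x y (Nat.mul (nat_lit 3) i) (nat_lit 0))) y2)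
    (Nat.div (Nat.mul y1 (lo x y (Nat.mul (nat_lit 3) j) (nat_lit 0))) y2))

theorem patI_eq (x y U y0 y1 y2 i j : ℕ) : patI x y U y0 y1 y2 i j =
  (patA x y U y0 y1 y2 i j (y0 * lo x y (3 * i) 0 / y2) (y1 * lo x y (3 * j) 0 / y2)) := rfl

def patB (x y U y0 y1 y2 s a2 : ℕ) : ℕ :=
  (fin3 x y U y0 y1 y2 (shr (Nat.shiftRight (Nat.mul (Nat.sub s a2) (lo x y (nat_lit 1) U))
    (nat_lit 32))) (Nat.sub U (nat_lit 1)) (nat_lit 0) (shr (Nat.shiftRight (Nat.mul a2 (lo x y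
    (nat_lit 2) U)) (nat_lit 32))) U (nat_lit 1) (nat_lit 0) (nat_lit 0) (nat_lit 0) (shr
    (Nat.sub y1 s)))

theorem patB_eq (x y U y0 y1 y2 s a2 : ℕ) : patB x y U y0 y1 y2 s a2 =
  (fin3 x y U y0 y1 y2 (shr (((s - a2) * lo x y 1 U) >>> 32)) (U - 1) 0 (shr ((a2 * lo x y 2 U)
    >>> 32)) U 1 0 0 0 (shr (y1 - s))) := rfl

def patC (x y U y0 y1 y2 s : ℕ) : ℕ :=
  (patB x y U y0 y1 y2 s (mn s (Nat.div (Nat.shiftLeft (Nat.sub y2 y1) (nat_lit 32)) (Nat.sub (lo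
    x y (nat_lit 3) (nat_lit 0)) (nat_lit 4294967296)))))

theorem patC_eq (x y U y0 y1 y2 s : ℕ) : patC x y U y0 y1 y2 s =
  (patB x y U y0 y1 y2 s (mn s (((y2 - y1) <<< 32) / (lo x y 3 0 - 4294967296)))) := rfl

/-- decomposition of the vector `(y0, y1, y2) / 2 ^ 32` on the target lattice -/
def pat1 (x y U y0 y1 y2 : ℕ) : ℕ :=
  (Bool.rec (motive := fun _ => ℕ) (patC x y U y0 y1 y2 (mn (Nat.shiftRight (Nat.mul y0 (lo x y
    (Nat.mul (nat_lit 3) (Nat.sub U (nat_lit 1))) (nat_lit 0))) (nat_lit 32)) y1)) (patI x y U y0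
    y1 y2 (ilg x y y0 y2) (ilg x y y1 y2)) (Nat.ble (Nat.shiftLeft y2 (nat_lit 32)) (Nat.mul y0
    (lo x y (Nat.mul (nat_lit 3) U) (nat_lit 0)))))

theorem pat1_eq (x y U y0 y1 y2 : ℕ) : pat1 x y U y0 y1 y2 =
  (cond (Nat.ble (y2 <<< 32) (y0 * lo x y (3 * U) 0)) (patI x y U y0 y1 y2 (ilg x y y0 y2) (ilg x
    y y1 y2)) (patC x y U y0 y1 y2 (mn ((y0 * lo x y (3 * (U - 1)) 0) >>> 32) y1))) := by
  unfold pat1; simp only [brN, brA, brO] <;> rfl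

/-- one coordinate of `w * Mv (-(n / d))` -/
def mc (n d wn wd a b c : ℕ) : ℕ :=
  (Nat.div (Nat.mul wn (Nat.add (Nat.mul (Nat.sub d (Nat.mul (nat_lit 2) n)) a) (Nat.mul (Nat.add
    d n) (Nat.add b c)))) (Nat.mul (Nat.mul (nat_lit 3) d) wd))

theorem mc_eq (n d wn wd a b c : ℕ) : mc n d wn wd a b c =
  (wn * ((d - 2 * n) * a + (d + n) * (b + c)) / (3 * d * wd)) := rfl

def pat2 (P : Par) (n d wn a b c : ℕ) : ℕ :=
  (Bool.rec (motive := fun _ => ℕ) (pat1 P.sa P.sb P.U (mc n d wn P.wd a b c) (mc n d wn P.wd b a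
    c) (mc n d wn P.wd c a b)) (nat_lit 0) (Nat.beq wn (nat_lit 0)))

theorem pat2_eq (P : Par) (n d wn a b c : ℕ) : pat2 P n d wn a b c =
  (cond (Nat.beq wn 0) 0 (pat1 P.sa P.sb P.U (mc n d wn P.wd a b c) (mc n d wn P.wd b a c) (mc n
    d wn P.wd c a b))) := by
  unfold pat2; simp only [brN, brA, brO] <;> rfl

/-- image of a source vector with lower bounds `a b c` and upper bound `m` for the sum -/
def src (P : Par) (a b c m : ℕ) : ℕ :=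
  (Nat.add (Nat.add (pat2 P P.ln P.ld P.wn a b c) (pat2 P P.ln (Nat.mul (nat_lit 2) P.ld)
    (Nat.sub P.wd P.wn) a b c)) m)

theorem src_eq (P : Par) (a b c m : ℕ) : src P a b c m =
  (pat2 P P.ln P.ld P.wn a b c + pat2 P P.ln (2 * P.ld) (P.wd - P.wn) a b c + m) := rfl

def src3 (P : Par) (a b c : ℕ) : ℕ :=
  (src P a b c (Nat.add (Nat.add (Nat.add a b) c) (nat_lit 3)))

theorem src3_eq (P : Par) (a b c : ℕ) : src3 P a b c =
  (src P a b c (a + b + c + 3)) := rfl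

def orb (a b : ℕ) : ℕ :=
  (Bool.rec (motive := fun _ => ℕ) (Bool.rec (motive := fun _ => ℕ) (nat_lit 6) (nat_lit 3)
    (Bool.rec (motive := fun _ => Bool) (Nat.beq a b) true (Nat.beq b (nat_lit 0)))) (nat_lit 1)
    (Nat.beq a (nat_lit 0)))

theorem orb_eq (a b : ℕ) : orb a b =
  (cond (Nat.beq a 0) 1 (cond (Nat.beq b 0 || Nat.beq a b) 3 6)) := by
  unfold orb; simp only [brN, brA, brO] <;> rfl

def srcI (P : Par) (a b : ℕ) : ℕ :=
  (Nat.mul (orb a b) (src3 P (lo P.ra P.rb (Nat.mul (nat_lit 2) a) b) (lo P.ra P.rb (Nat.mul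
    (nat_lit 2) b) a) (lo P.ra P.rb (nat_lit 0) (Nat.add a b))))

theorem srcI_eq (P : Par) (a b : ℕ) : srcI P a b =
  (orb a b * src3 P (lo P.ra P.rb (2 * a) b) (lo P.ra P.rb (2 * b) a) (lo P.ra P.rb 0 (a + b))) := rfl

def srcJ (P : Par) (t : ℕ) : ℕ :=
  (Nat.mul (nat_lit 3) (src3 P (mx (lo P.ra P.rb (Nat.mul (nat_lit 2) t) (Nat.mul (nat_lit 2)
    P.W)) (lo P.ra P.rb P.W t)) (mn (lo P.ra P.rb (Nat.mul (nat_lit 2) t) (Nat.mul (nat_lit 2)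
    P.W)) (lo P.ra P.rb P.W t)) (nat_lit 0)))

theorem srcJ_eq (P : Par) (t : ℕ) : srcJ P t =
  (3 * src3 P (mx (lo P.ra P.rb (2 * t) (2 * P.W)) (lo P.ra P.rb P.W t)) (mn (lo P.ra P.rb (2 *
    t) (2 * P.W)) (lo P.ra P.rb P.W t)) 0) := rfl

def srcE (P : Par) : ℕ :=
  (src P (Nat.pow (nat_lit 2) (nat_lit 32)) (nat_lit 0) (nat_lit 0) (nat_lit 0))

theorem srcE_eq (P : Par) : srcE P =
  (src P (2 ^ 32) 0 0 0) := rfl

def rowM (P : Par) (a row : ℕ) : ℕ :=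
  (sumLt (Nat.add a (nat_lit 1)) (fun b => (Nat.mul (dgf (nat_lit 104) row b) (srcI P a b))))

theorem rowM_eq (P : Par) (a row : ℕ) : rowM P a row =
  (sumLt (a + 1) fun b => dgf 104 row b * srcI P a b) := rfl

def accM (P : Par) (I J : ℕ) : ℕ :=
  (Nat.add (sumLt (Nat.add P.W (nat_lit 1)) (fun a => (rowM P a (Nat.land (Nat.shiftRight I
    (Nat.mul (nat_lit 104) (Nat.add (Nat.mul (Nat.add P.W a) P.S) P.W))) (Nat.sub (Nat.pow
    (nat_lit 2) (Nat.mul (nat_lit 104) (Nat.add a (nat_lit 1)))) (nat_lit 1)))))) (sumLt (Nat.add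
    (Nat.mul (nat_lit 2) P.W) (nat_lit 1)) (fun t => (Nat.mul (dgf (nat_lit 104) J t) (srcJ P
    t)))))

theorem accM_eq (P : Par) (I J : ℕ) : accM P I J =
  ((sumLt (P.W + 1) fun a => rowM P a ((I >>> (104 * ((P.W + a) * P.S + P.W))) &&& (2 ^ (104 * (a
    + 1)) - 1))) + (sumLt (2 * P.W + 1) fun t => dgf 104 J t * srcJ P t)) := rfl

def finM (P : Par) (acc : ℕ) : ℕ :=
  (Bool.rec (motive := fun _ => ℕ) (nat_lit 0) (Nat.land (Nat.shiftRight (Nat.add acc (Nat.mul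
    (Nat.shiftRight (Nat.sub (Nat.mul (nat_lit 3) (Nat.pow (nat_lit 2) (nat_lit 72))) (dgf
    (nat_lit 112) acc (nat_lit 0))) (nat_lit 32)) (srcE P))) (nat_lit 32)) (Nat.mul (Nat.sub
    (Nat.pow (nat_lit 2) (nat_lit 41)) (nat_lit 1)) (ones (nat_lit 112) (Nat.add (Nat.mul
    (Nat.add P.U (nat_lit 1)) (Nat.add P.U (nat_lit 1))) (nat_lit 2))))) (Nat.ble (dgf (nat_lit
    112) acc (nat_lit 0)) (Nat.mul (nat_lit 3) (Nat.pow (nat_lit 2) (nat_lit 72)))))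

theorem finM_eq (P : Par) (acc : ℕ) : finM P acc =
  (cond (Nat.ble (dgf 112 acc 0) (3 * 2 ^ 72)) (((acc + ((3 * 2 ^ 72 - dgf 112 acc 0) >>> 32) *
    srcE P) >>> 32) &&& ((2 ^ 41 - 1) * ones 112 ((P.U + 1) * (P.U + 1) + 2))) 0) := by
  unfold finM; simp only [brN, brA, brO] <;> rfl

def g6 (V BS g i j : ℕ) : ℕ :=
  (Nat.div (dgf BS g (Nat.add (Nat.add (Nat.mul i (Nat.add V (nat_lit 1))) j) (nat_lit 2)))
    (nat_lit 6))

theorem g6_eq (V BS g i j : ℕ) : g6 V BS g i j =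
  (dgf BS g (i * (V + 1) + j + 2) / 6) := rfl

def fam1 (V BS g i : ℕ) : ℕ :=
  (sumLt (Nat.add i (nat_lit 1)) (fun j => (Nat.shiftLeft (g6 V BS g i j) (Nat.mul (nat_lit 104)
    (Nat.sub V j)))))

theorem fam1_eq (V BS g i : ℕ) : fam1 V BS g i =
  (sumLt (i + 1) fun j => g6 V BS g i j <<< (104 * (V - j))) := rfl

def fam2 (V BS g j : ℕ) : ℕ :=
  (sumLt (Nat.sub (Nat.add V (nat_lit 1)) j) (fun k => (Nat.shiftLeft (g6 V BS g (Nat.add j k) j)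
    (Nat.mul (nat_lit 104) (Nat.sub V (Nat.add j k))))))

theorem fam2_eq (V BS g j : ℕ) : fam2 V BS g j =
  (sumLt (V + 1 - j) fun k => g6 V BS g (j + k) j <<< (104 * (V - (j + k)))) := rfl

def fam3 (V BS g k : ℕ) : ℕ :=
  (sumLt (Nat.sub (Nat.add V (nat_lit 1)) k) (fun j => (Nat.shiftLeft (g6 V BS g (Nat.add j k) j)
    (Nat.mul (nat_lit 104) (Nat.add V j)))))

theorem fam3_eq (V BS g k : ℕ) : fam3 V BS g k =
  (sumLt (V + 1 - k) fun j => g6 V BS g (j + k) j <<< (104 * (V + j))) := rfl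

def fam (V BS g i : ℕ) : ℕ :=
  (Nat.add (Nat.add (fam1 V BS g i) (fam2 V BS g i)) (fam3 V BS g i))

theorem fam_eq (V BS g i : ℕ) : fam V BS g i =
  (fam1 V BS g i + fam2 V BS g i + fam3 V BS g i) := rfl

/-- the six images of the chamber weights -/
def expI (P : Par) (BS g : ℕ) : ℕ :=
  (sumLt (Nat.add P.V (nat_lit 1)) (fun i => (Nat.add (Nat.shiftLeft (fam P.V BS g i) (Nat.mul
    (nat_lit 104) (Nat.mul (Nat.sub P.V i) P.S))) (Nat.shiftLeft (fam P.V BS g i) (Nat.mul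
    (nat_lit 104) (Nat.add (Nat.mul (Nat.add P.V i) P.S) i))))))

theorem expI_eq (P : Par) (BS g : ℕ) : expI P BS g =
  (sumLt (P.V + 1) fun i => fam P.V BS g i <<< (104 * ((P.V - i) * P.S)) + fam P.V BS g i <<<
    (104 * ((P.V + i) * P.S + i))) := rfl

def expR (P : Par) (BS g : ℕ) : ℕ :=
  (sumLt (Nat.add P.V (nat_lit 1)) (fun i => (Nat.add (Nat.mul (fam P.V BS g i) (lo P.ra P.rb i
    (nat_lit 0))) (Nat.shiftLeft (Nat.mul (fam P.V BS g i) (lo P.ra P.rb (nat_lit 0) i)) (Nat.mul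
    (nat_lit 104) i)))))

theorem expR_eq (P : Par) (BS g : ℕ) : expR P BS g =
  (sumLt (P.V + 1) fun i => fam P.V BS g i * lo P.ra P.rb i 0 + (fam P.V BS g i * lo P.ra P.rb 0
    i) <<< (104 * i)) := rfl

/-- projection of the six images to an edge -/
def expP (P : Par) (BS g : ℕ) : ℕ :=
  (Nat.land (Nat.shiftRight (expR P BS g) (nat_lit 32)) (Nat.mul (Nat.sub (Nat.pow (nat_lit 2)
    (nat_lit 42)) (nat_lit 1)) (ones (nat_lit 104) (Nat.add (Nat.mul (nat_lit 2) P.V) (nat_lit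
    1)))))

theorem expP_eq (P : Par) (BS g : ℕ) : expP P BS g =
  ((expR P BS g >>> 32) &&& ((2 ^ 42 - 1) * ones 104 (2 * P.V + 1))) := rfl

def expZ (P : Par) (BS g : ℕ) : ℕ :=
  (Nat.shiftLeft (Nat.div (dgf BS g (nat_lit 1)) (nat_lit 3)) (Nat.mul (nat_lit 104) P.V))

theorem expZ_eq (P : Par) (BS g : ℕ) : expZ P BS g =
  ((dgf BS g 1 / 3) <<< (104 * P.V)) := rfl

def totG (V BS g : ℕ) : ℕ :=
  (sumLt (Nat.add V (nat_lit 1)) (fun i => (sumLt (Nat.add i (nat_lit 1)) (fun j => (g6 V BS g i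
    j)))))

theorem totG_eq (V BS g : ℕ) : totG V BS g =
  (sumLt (V + 1) fun i => sumLt (i + 1) fun j => g6 V BS g i j) := rfl

def tr2 (P : Par) (N : ℕ) : ℕ :=
  (Nat.land (Nat.shiftRight N (Nat.add (Nat.mul (nat_lit 104) (Nat.add (Nat.mul P.V P.S) P.V))
    (nat_lit 40))) (Nat.mul (Nat.mul (Nat.sub (Nat.pow (nat_lit 2) (nat_lit 41)) (nat_lit 1))
    (ones (nat_lit 104) (Nat.add (Nat.mul (nat_lit 2) P.W) (nat_lit 1)))) (ones (Nat.mul (nat_lit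
    104) P.S) (Nat.add (Nat.mul (nat_lit 2) P.W) (nat_lit 1)))))

theorem tr2_eq (P : Par) (N : ℕ) : tr2 P N =
  ((N >>> (104 * (P.V * P.S + P.V) + 40)) &&& ((2 ^ 41 - 1) * ones 104 (2 * P.W + 1) * ones (104
    * P.S) (2 * P.W + 1))) := rfl

def tr1 (P : Par) (N : ℕ) : ℕ :=
  (Nat.land (Nat.shiftRight N (Nat.add (Nat.mul (nat_lit 104) P.V) (nat_lit 40))) (Nat.mul
    (Nat.sub (Nat.pow (nat_lit 2) (nat_lit 42)) (nat_lit 1)) (ones (nat_lit 104) (Nat.add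
    (Nat.mul (nat_lit 2) P.W) (nat_lit 1)))))

theorem tr1_eq (P : Par) (N : ℕ) : tr1 P N =
  ((N >>> (104 * P.V + 40)) &&& ((2 ^ 42 - 1) * ones 104 (2 * P.W + 1))) := rfl

def hI (P : Par) (A p I : ℕ) : ℕ :=
  (Nat.add (tr2 P (Nat.mul A I)) (Nat.shiftLeft p (Nat.mul (nat_lit 104) (Nat.add (Nat.mul P.W
    P.S) P.W))))

theorem hI_eq (P : Par) (A p I : ℕ) : hI P A p I =
  (tr2 P (A * I) + p <<< (104 * (P.W * P.S + P.W))) := rfl

def hP (P : Par) (A1 p I : ℕ) : ℕ :=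
  (Nat.add (tr1 P (Nat.mul A1 I)) (Nat.shiftLeft p (Nat.mul (nat_lit 104) P.W)))

theorem hP_eq (P : Par) (A1 p I : ℕ) : hP P A1 p I =
  (tr1 P (A1 * I) + p <<< (104 * P.W)) := rfl

def hJ (P : Par) (A1 Z I J : ℕ) : ℕ :=
  (tr1 P (Nat.add (Nat.mul (Nat.add A1 Z) J) (Nat.mul Z I)))

theorem hJ_eq (P : Par) (A1 Z I J : ℕ) : hJ P A1 Z I J =
  (tr1 P ((A1 + Z) * J + Z * I)) := rfl

def horI (P : Par) (A : ℕ) (ps : List ℕ) : ℕ :=
  List.rec (motive := fun _ => ℕ) (nat_lit 0) (fun p _ I => hI P A p I) ps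

def horP (P : Par) (A1 : ℕ) (ps : List ℕ) : ℕ :=
  List.rec (motive := fun _ => ℕ) (nat_lit 0) (fun p _ I => hP P A1 p I) ps

def horJ (P : Par) (A1 Z : ℕ) (ps : List ℕ) : ℕ :=
  List.rec (motive := fun _ => ℕ) (nat_lit 0) (fun _ tl J => hJ P A1 Z (horP P A1 tl) J) ps

theorem horI_nil (P : Par) (A : ℕ) : horI P A [] = 0 := rfl
theorem horI_cons (P : Par) (A p : ℕ) (ps : List ℕ) :
    horI P A (p :: ps) = hI P A p (horI P A ps) := rfl
theorem horP_nil (P : Par) (A : ℕ) : horP P A [] = 0 := rfl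
theorem horP_cons (P : Par) (A p : ℕ) (ps : List ℕ) :
    horP P A (p :: ps) = hP P A p (horP P A ps) := rfl
theorem horJ_nil (P : Par) (A Z : ℕ) : horJ P A Z [] = 0 := rfl
theorem horJ_cons (P : Par) (A Z p : ℕ) (ps : List ℕ) :
    horJ P A Z (p :: ps) = hJ P A Z (horP P A ps) (horJ P A Z ps) := rfl

def step (P : Par) (BS g : ℕ) : ℕ :=
  (Bool.rec (motive := fun _ => ℕ) (nat_lit 0) (finM P (accM P (horI P (expI P BS g) P.ps) (horJ
    P (expP P BS g) (expZ P BS g) P.ps))) (Bool.rec (motive := fun _ => Bool) false (Nat.ble (dgf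
    BS g (nat_lit 1)) (Nat.pow (nat_lit 2) (nat_lit 42))) (Nat.ble (Nat.mul (nat_lit 6) (totG P.V
    BS g)) (Nat.pow (nat_lit 2) (nat_lit 41)))))

theorem step_eq (P : Par) (BS g : ℕ) : step P BS g =
  (cond (Nat.ble (6 * totG P.V BS g) (2 ^ 41) && Nat.ble (dgf BS g 1) (2 ^ 42)) (finM P (accM P
    (horI P (expI P BS g) P.ps) (horJ P (expP P BS g) (expZ P BS g) P.ps))) 0) := by
  unfold step; simp only [brN, brA, brO] <;> rfl

/-- `n` further steps on a fixed lattice -/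
def iter (P : Par) (n g : ℕ) : ℕ :=
  Nat.rec (motive := fun _ => ℕ → ℕ) (fun g => g)
    (fun _ f g => cond (Nat.ble (nat_lit 0) (step P (nat_lit 112) g))
      (f (step P (nat_lit 112) g)) (nat_lit 0)) n g

theorem iter_zero (P : Par) (g : ℕ) : iter P 0 g = g := rfl

theorem iter_succ (P : Par) (n g : ℕ) : iter P (n + 1) g = iter P n (step P 112 g) := by
  have h : Nat.ble 0 (step P 112 g) = true := Nat.ble_eq.mpr (Nat.zero_le _)
  show cond (Nat.ble 0 (step P 112 g)) (iter P n (step P 112 g)) 0 = _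
  rw [h]; rfl

/-- the first state: image of the fully informative law -/
def init (P : Par) : ℕ :=
  (finM P (nat_lit 0))

theorem init_eq (P : Par) : init P =
  (finM P 0) := rfl

/-- digitwise comparison of a packed state with a computed one -/
def leSt (U g1 g : ℕ) : Bool :=
  (allLt (Nat.add (Nat.mul (Nat.add U (nat_lit 1)) (Nat.add U (nat_lit 1))) (nat_lit 2)) (fun u
    => (Nat.ble (dgf (nat_lit 41) g1 u) (dgf (nat_lit 112) g u))))

theorem leSt_eq (U g1 g : ℕ) : leSt U g1 g =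
  (allLt ((U + 1) * (U + 1) + 2) fun u => Nat.ble (dgf 41 g1 u) (dgf 112 g u)) := rfl

def gain3 (a b c : ℕ) : ℕ :=
  (Nat.div (Nat.mul (nat_lit 2) (Nat.add (Nat.add (Nat.mul a b) (Nat.mul a c)) (Nat.mul b c)))
    (Nat.add (Nat.add (Nat.add a b) c) (nat_lit 3)))

theorem gain3_eq (a b c : ℕ) : gain3 a b c =
  (2 * (a * b + a * c + b * c) / (a + b + c + 3)) := rfl

def gain (x y i j : ℕ) : ℕ :=
  (gain3 (lo x y j (Nat.mul (nat_lit 2) i)) (lo x y i (Nat.mul (nat_lit 2) j)) (lo x y (Nat.add i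
    j) (nat_lit 0)))

theorem gain_eq (x y i j : ℕ) : gain x y i j =
  (gain3 (lo x y j (2 * i)) (lo x y i (2 * j)) (lo x y (i + j) 0)) := rfl

/-- lower bound for `2 ^ 72 * (2 - second moment of the message)` -/
def gainT (x y U BS g : ℕ) : ℕ :=
  (Nat.add (sumLt (Nat.add U (nat_lit 1)) (fun i => (sumLt (Nat.add i (nat_lit 1)) (fun j =>
    (Nat.mul (dgf BS g (Nat.add (Nat.add (Nat.mul i (Nat.add U (nat_lit 1))) j) (nat_lit 2)))
    (gain x y i j)))))) (Nat.mul (dgf BS g (nat_lit 1)) (Nat.pow (nat_lit 2) (nat_lit 32))))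

theorem gainT_eq (x y U BS g : ℕ) : gainT x y U BS g =
  ((sumLt (U + 1) fun i => sumLt (i + 1) fun j => dgf BS g (i * (U + 1) + j + 2) * gain x y i j)
    + dgf BS g 1 * 2 ^ 32) := rfl

/-- repeated squaring, rounded down, at precision `2 ^ 100` -/
def sqs (n x : ℕ) : ℕ := Nat.rec (motive := fun _ => ℕ) x (fun _ y => (y * y) >>> 100) n

/-- lower bound for `2 ^ 100 * exp (-(dn / dd))` -/
def expLo (dn dd : ℕ) : ℕ := sqs 30 (2 ^ 100 - (2 ^ 70 * dn / dd + 1))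

/-- lower bounds for `2 ^ 40` times the Poisson weights -/
def poisL (dn dd K : ℕ) : List ℕ :=
  (List.range (K + 1)).map fun k => (expLo dn dd * dn ^ k / (dd ^ k * k.factorial)) >>> 60

def regL (d : ℕ) : List ℕ := List.replicate d 0 ++ [2 ^ 40]

/-- conditions on the parameters -/
def parOK (P : Par) : Bool :=
  Nat.blt 0 P.rb && Nat.blt P.rb P.ra && Nat.blt 0 P.sb && Nat.blt P.sb P.sa &&
    Nat.blt (2 * P.W + 2 * P.V) P.S && Nat.ble P.V 63 && Nat.ble P.W 127 && Nat.ble P.V P.W &&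
    Nat.blt (lo P.ra P.rb (2 * P.W) 0) (2 ^ 46) &&
    Nat.ble P.U 63 && Nat.blt 0 P.ld &&
    Nat.ble (2 * P.ln) P.ld && Nat.blt 0 P.wd && Nat.ble P.wn P.wd &&
    P.ps.all (fun p => Nat.ble p (2 ^ 40))

/-- final test: the second moment of the law before the channel is at most `sn / sd` -/
def finOK (P : Par) (g sn sd : ℕ) : Bool :=
  Nat.ble ((2 * 2 ^ 72 - gainT P.sa P.sb P.U 41 g) * (4 * P.wd * P.ld ^ 2 * sd))
    (2 ^ 72 * ((3 * P.wn + P.wd) * P.ln ^ 2 * sn))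

end Vale.Agent.P154
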