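import Vale.Agent.P154.DeD

namespace Vale.Agent.P154

open Finset

/-- nonpositive sublinear test functions -/
def Km (G : V 3 → ℝ) : Prop := Sub G ∧ ∀ w : V 3, 0 ≤ w → G w ≤ 0

def SymG (G : V 3 → ℝ) : Prop := ∀ (σ : Equiv.Perm (Fin 3)) (w : V 3), G (w ∘ σ) = G w

def Hom (H : V 3 → ℝ) : Prop := ∀ (t : ℝ) (w : V 3), 0 ≤ t → 0 ≤ w → H (t • w) = t * H w

noncomputable def vec (r : ℝ) (a b : ℤ) : V 3 := ![r ^ (2 * a - b), r ^ (2 * b - a), r ^ (-a - b)]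

def ed0 : V 3 := ![0, 1, 1]

noncomputable def stv (r : ℝ) (U : ℕ) (f : ℕ → ℕ) (G : V 3 → ℝ) : ℝ :=
  (∑ i ∈ range (U + 1), ∑ j ∈ range (i + 1),
    (f (i * (U + 1) + j + 2) : ℝ) * G (vec r (-(i : ℤ)) (-(j : ℤ)))) + (f 1 : ℝ) * G ed0

/-- the law `A` is dominated by the weights `f` on the lattice of ratio `r` -/
def St (r : ℝ) (U : ℕ) (f : ℕ → ℕ) (A : Fn 3) : Prop :=
  ∀ G : V 3 → ℝ, Km G → SymG G → 2 ^ 40 * A G ≤ stv r U f G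

structure PosF (Φ : Fn 3) : Prop where
  add : ∀ H H' : V 3 → ℝ, Φ (fun w => H w + H' w) = Φ H + Φ H'
  smul : ∀ (c : ℝ) (H : V 3 → ℝ), Φ (fun w => c * H w) = c * Φ H
  mono : ∀ H H' : V 3 → ℝ, (∀ w : V 3, 0 ≤ w → H w ≤ H' w) → Φ H ≤ Φ H'

def SymF (Φ : Fn 3) : Prop :=
  ∀ (σ : Equiv.Perm (Fin 3)) (H : V 3 → ℝ), Φ (fun w => H (w ∘ σ)) = Φ H

def ten (Φ Ψ : Fn 3) : Fn 3 := fun H => Φ fun a => Ψ fun b => H (a * b)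

def Bnd (A Φ Ψ : Fn 3) : Prop :=
  ∀ G : V 3 → ℝ, Km G → A G ≤ Φ G + ∑ i : Fin 3, Ψ fun w => G (w ∘ Equiv.swap 0 i)

noncomputable def hF (Φ : Fn 3) : List ℕ → Fn 3
  | [] => fun _ => 0
  | p :: ps => fun H => (p : ℝ) / 2 ^ 40 * H 1 + ten Φ (hF Φ ps) H

noncomputable def hE (Φ Ψ : Fn 3) : List ℕ → Fn 3
  | [] => fun _ => 0
  | _ :: ps => fun H => ten Φ (hE Φ Ψ ps) H + ten Ψ (hE Φ Ψ ps) H + ten Ψ (hF Φ ps) H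

/-- `N` encodes a list of weighted cells (weight, row, column); `Θ` integrates against it -/
def Rp (B S N cb tw : ℕ) (Θ : (ℕ → ℕ → ℝ) → ℝ) : Prop :=
  ∃ l : List (ℕ × ℕ × ℕ), N = (l.map fun x => x.1 * 2 ^ (B * (x.2.1 * S + x.2.2))).sum ∧
    (∀ x ∈ l, x.2.2 ≤ cb) ∧ (l.map fun x => x.1).sum ≤ tw ∧
    ∀ h : ℕ → ℕ → ℝ, Θ h = (l.map fun x => (x.1 : ℝ) * h x.2.1 x.2.2).sum

def Le2 (r : ℝ) (S o N cb tw : ℕ) (Φ : Fn 3) : Prop :=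
  ∃ Θ, Rp 104 S N cb tw Θ ∧ ∀ H : V 3 → ℝ, (∀ w : V 3, 0 ≤ w → 0 ≤ H w) →
    Θ (fun i j => H (vec r ((i : ℤ) - o) ((j : ℤ) - o))) ≤ 2 ^ 40 * Φ H

def Le1 (r : ℝ) (S o N cb tw : ℕ) (Φ : Fn 3) : Prop :=
  ∃ Θ, Rp 104 S N cb tw Θ ∧ ∀ H : V 3 → ℝ, Hom H → (∀ w : V 3, 0 ≤ w → 0 ≤ H w) →
    Θ (fun _ j => H (vec r 0 ((j : ℤ) - o) * ed0)) ≤ 2 ^ 40 * Φ fun w => H (w * ed0)

/-- two-channel mixture -/
noncomputable def MixC (ln ld wn wd : ℕ) (Q : Fn 3) : Fn 3 := fun ψ =>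
  (wn : ℝ) / wd * Mop (-((ln : ℝ) / ld)) Q ψ +
    (1 - (wn : ℝ) / wd) * Mop (-((ln : ℝ) / ld / 2)) Q ψ

noncomputable def Gm (P : Par) (G : V 3 → ℝ) (v : V 3) : ℝ :=
  (P.wn : ℝ) / P.wd * G (Mv (-((P.ln : ℝ) / P.ld)) v) +
    (1 - (P.wn : ℝ) / P.wd) * G (Mv (-((P.ln : ℝ) / P.ld / 2)) v)

/-- value of the test function at the compact cell `u` -/
noncomputable def cellv (r : ℝ) (U : ℕ) (G : V 3 → ℝ) (u : ℕ) : ℝ :=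
  if u = 0 then 0 else if u = 1 then G ed0 else
    G (vec r (-(((u - 2) / (U + 1) : ℕ) : ℤ)) (-(((u - 2) % (U + 1) : ℕ) : ℤ)))

noncomputable def exF (r : ℝ) (U BS g : ℕ) : Fn 3 := fun H =>
  ∑ i ∈ range (U + 1), ∑ j ∈ range (i + 1), (g6 U BS g i j : ℝ) / 2 ^ 40 *
    ∑ σ : Equiv.Perm (Fin 3), H (vec r (-(i : ℤ)) (-(j : ℤ)) ∘ σ)

noncomputable def exE (BS g : ℕ) : Fn 3 := fun H => ((dg BS g 1 / 3 : ℕ) : ℝ) / 2 ^ 40 * H ed0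

structure Chn where
  ln : ℕ
  ld : ℕ
  wn : ℕ
  wd : ℕ
  ps : List ℕ

def mkP (c : Chn) (ra rb V W sa sb U : ℕ) : Par :=
  ⟨ra, rb, V, W, 2 * W + 2 * V + 1, sa, sb, U, c.ln, c.ld, c.wn, c.wd, c.ps⟩

def Dom (lam : ℝ) (p : ℕ → ℝ) (c : Chn) : Prop :=
  ∃ p' : ℕ → ℝ, Prob p' ∧ (∀ k, ((c.ps.getD k 0 : ℕ) : ℝ) ≤ 2 ^ 40 * p' k) ∧
    ∀ Q : Fn 3, IsLaw Q →
      Cx (mix p (pw (Mop lam Q))) (mix p' (pw (MixC c.ln c.ld c.wn c.wd Q)))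

def Reach (lam : ℝ) (p : ℕ → ℝ) (c : Chn) (x y U g : ℕ) : Prop :=
  ∃ n, St ((x : ℝ) / y) U (dg 41 g) (MixC c.ln c.ld c.wn c.wd (seq lam p n))

def iniOK (c : Chn) (sa sb U W n g1 : ℕ) : Bool :=
  parOK (mkP c sa sb U W sa sb U) &&
    leSt U g1 (iter (mkP c sa sb U W sa sb U) n (init (mkP c sa sb U W sa sb U)))

def blkOK (c : Chn) (ra rb V W0 sa sb U W n g g1 : ℕ) : Bool :=
  parOK (mkP c ra rb V W0 sa sb U) && parOK (mkP c sa sb U W sa sb U) &&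
    leSt U g1 (iter (mkP c sa sb U W sa sb U) n (step (mkP c ra rb V W0 sa sb U) 41 g))

def endOK (c : Chn) (sa sb U W g sn sd : ℕ) : Bool :=
  parOK (mkP c sa sb U W sa sb U) && Nat.blt 0 c.ln && Nat.blt 0 sd &&
    finOK (mkP c sa sb U W sa sb U) g sn sd

end Vale.Agent.P154
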