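import Mathlib

namespace Vale.Agent.P154

open Filter Topology

/-- What is seen at depth `n`: the tree cut at level `n` together with the spins at level `n`. -/
def Obs (q : ℕ) : ℕ → Type
  | 0 => Fin q
  | n + 1 => List (Obs q n)

/-- The Potts channel: probability that a parent with spin `i` has a child with spin `j`. -/
noncomputable def chan (q : ℕ) (lam : ℝ) (i j : Fin q) : ℝ :=
  (if i = j then lam else 0) + (1 - lam) / q

/-- Probability of the observation given root spin `i`, for offspring law `p`. -/
noncomputable def lik (q : ℕ) (lam : ℝ) (p : ℕ → ℝ) : (n : ℕ) → Obs q n → Fin q → ℝ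
  | 0, s, i => if (show Fin q from s) = i then 1 else 0
  | n + 1, l, i => p (List.length (show List (Obs q n) from l)) *
      (List.map (fun o => ∑ j, chan q lam i j * lik q lam p n o j)
        (show List (Obs q n) from l)).prod

/-- Expected total variation distance between the posterior of the root spin and uniform. -/
noncomputable def adv (q : ℕ) (lam : ℝ) (p : ℕ → ℝ) (n : ℕ) : ℝ :=
  ∑' o : Obs q n, ((∑ j, lik q lam p n o j) / q) *
    ((1 / 2) * ∑ i, |lik q lam p n o i / (∑ j, lik q lam p n o j) - 1 / q|)

/-- Offspring law of the `d`-ary tree. -/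
noncomputable def regular (d : ℕ) (k : ℕ) : ℝ := if k = d then 1 else 0

/-- Poisson offspring law of mean `d`. -/
noncomputable def poisson (d : ℝ) (k : ℕ) : ℝ := Real.exp (-d) * d ^ k / (k.factorial : ℝ)

def Recon (a : ℕ → ℝ) : Prop := ∃ L : ℝ, 0 < L ∧ Tendsto a atTop (𝓝 L)

def NonRecon (a : ℕ → ℝ) : Prop := Tendsto a atTop (𝓝 0)

end Vale.Agent.P154
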