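import Vale.Agent.P154.Cone

namespace Vale.Agent.P154

open Filter Topology

namespace End3Aux

theorem bd_sq : Bd fun a : V 3 => X2 a ^ 2 := by
  simpa only [sq] using (bd_X2 (q := 3)).mul bd_X2

variable {A B : Fn 3}

theorem star4 (hA : IsLaw A) (hB : IsLaw B) {φ : V 3 → ℝ} (hφ : Bd φ) {c c' : ℝ}
    (h : ∀ a ∈ Sx 3, ∀ b ∈ Sx 3,
      SS φ a b ≤ φ a + φ b + c * (X2 a * X2 b) + c' * (X2 a ^ 2 * X2 b)) :
    star A B φ ≤ A φ + B φ + (c * A X2 + c' * A fun a => X2 a ^ 2) * B X2 := by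
  have := star_le hA hB hφ (Finset.univ : Finset (Fin 4))
    (u := ![φ, fun _ => 1, fun a => c * X2 a, fun a => c' * X2 a ^ 2])
    (v := ![fun _ => 1, φ, X2, X2])
    (fun i _ => by
      fin_cases i
      exacts [hφ, Bd.const 1, (Bd.const c).mul bd_X2, (Bd.const c').mul bd_sq])
    (fun i _ => by
      fin_cases i
      exacts [Bd.const 1, hφ, bd_X2, bd_X2])
    fun a ha b hb => by
      simp only [Fin.sum_univ_four, Matrix.cons_val]
      linarith [h a ha b hb]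
  simp only [Fin.sum_univ_four, Matrix.cons_val, hA.const, hB.const, hA.smul _ _ bd_X2,
    hA.smul _ _ bd_sq] at this
  linarith

theorem pw_X2 (h1 : P1) (hA : IsLaw A) (k : ℕ) :
    1 + 201 / 200 * pw A k X2 ≤ (1 + 201 / 200 * A X2) ^ k := by
  have h0 : 0 ≤ A X2 := hA.nonneg bd_X2 fun a _ => X2_nonneg a
  induction k with
  | zero => simp [pw, unit, X2_one]
  | succ k ih =>
    have := star4 hA (hA.pw k) bd_X2 (c := 201 / 200) (c' := 0) fun a ha b hb => by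
      linarith [h1 a ha b hb]
    have h2 := mul_le_mul_of_nonneg_right ih (show 0 ≤ 1 + 201 / 200 * A X2 by positivity)
    rw [pw, pow_succ]
    linarith

theorem pw_phi (h1 : P1) (hA : IsLaw A) {φ : V 3 → ℝ} (hφ : Bd φ) (h0 : φ 1 = 0) {c : ℝ}
    (hc : 0 ≤ c) (h : ∀ a ∈ Sx 3, ∀ b ∈ Sx 3,
      SS φ a b ≤ φ a + φ b + c * (X2 a * X2 b) + 4 * (X2 a ^ 2 * X2 b)) (k : ℕ) :
    201 / 200 * (201 / 200 * A X2) * pw A k φ ≤ 201 / 200 * (201 / 200 * A X2) * A φ * k +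
      (c * A X2 + 4 * A fun a => X2 a ^ 2) *
        ((1 + 201 / 200 * A X2) ^ k - 1 - k * (201 / 200 * A X2)) := by
  have y0 : 0 ≤ A X2 := hA.nonneg bd_X2 fun a _ => X2_nonneg a
  have m0 : 0 ≤ A fun a => X2 a ^ 2 := hA.nonneg bd_sq fun a _ => sq_nonneg _
  induction k with
  | zero => simp [pw, unit, h0]
  | succ k ih =>
    have h2 := star4 hA (hA.pw k) hφ h
    have h3 := pw_X2 h1 hA k
    have hK : 0 ≤ c * A X2 + 4 * A fun a => X2 a ^ 2 := by positivity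
    rw [pw, pow_succ]
    generalize (c * A X2 + 4 * A fun a => X2 a ^ 2) = K at *
    have hz : 0 ≤ 201 / 200 * A X2 := by positivity
    generalize 201 / 200 * A X2 = z at *
    have h4 := mul_le_mul_of_nonneg_left h2 (show 0 ≤ 201 / 200 * z by positivity)
    have h5 := mul_le_mul_of_nonneg_left h3 (mul_nonneg hK hz)
    push_cast
    linarith

theorem mix_phi (h1 : P1) (hA : IsLaw A) {φ : V 3 → ℝ} (hφ : Bd φ) (h0 : φ 1 = 0) {c : ℝ}
    (hc : 0 ≤ c) (h : ∀ a ∈ Sx 3, ∀ b ∈ Sx 3,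
      SS φ a b ≤ φ a + φ b + c * (X2 a * X2 b) + 4 * (X2 a ^ 2 * X2 b))
    {p : ℕ → ℝ} {d ρ : ℝ} (hp : Off p d ρ) (hy : 0 < A X2) (hd : d * (201 / 200 * A X2) ≤ 1) :
    mix p (pw A) φ ≤ d * A φ + (c * A X2 + 4 * A fun a => X2 a ^ 2) *
      (ρ * d ^ 2 * A X2 / 2 + 2 / 9 * (201 / 200) * d ^ 3 * A X2 ^ 2) := by
  have m0 : 0 ≤ A fun a => X2 a ^ 2 := hA.nonneg bd_sq fun a _ => sq_nonneg _
  have hK : 0 ≤ c * A X2 + 4 * A fun a => X2 a ^ 2 := by positivity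
  have k := pw_phi h1 hA hφ h0 hc h
  obtain ⟨g1, g2⟩ := hp.gen (201 / 200 * A X2) (by positivity) hd
  have s1 : Summable fun k : ℕ =>
      p k * ((1 + 201 / 200 * A X2) ^ k - 1 - k * (201 / 200 * A X2)) := by
    refine ((g1.sub hp.prob.2.summable).sub
      (hp.mean.summable.mul_right (201 / 200 * A X2))).congr fun k => ?_
    ring
  generalize (c * A X2 + 4 * A fun a => X2 a ^ 2) = K at *
  have h2 := hasSum_le (fun j => by
      have := mul_le_mul_of_nonneg_left (k j) (hp.prob.1 j)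
      linarith)
    ((summable_mix hp.prob hA.pw hφ).hasSum.mul_left (201 / 200 * (201 / 200 * A X2)))
    ((hp.mean.mul_left (201 / 200 * (201 / 200 * A X2) * A φ)).add (s1.hasSum.mul_left K))
  have h3 := mul_le_mul_of_nonneg_left g2 hK
  refine le_of_mul_le_mul_left ?_ (show 0 < 201 / 200 * (201 / 200 * A X2) by positivity)
  rw [mix]
  linarith

theorem final {l l1 ξ θ S T M : ℝ} (hl : 0 < l) (hll : l ≤ l1) (hξ : 0 ≤ ξ) (h0 : 0 ≤ θ)
    (h1 : θ ≤ 1) (hS : 0 < S) (hM : 0 ≤ M) (he : 0 < 1 - l1 ^ 2 - 4 * l1 ^ 2 * ξ)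
    (hE : l1 * (ξ * (397 / 100 * (1 - l1 ^ 2 - 4 * l1 ^ 2 * ξ) + 4 * l1 ^ 2 * (502 / 100 * ξ))) +
      55 / 100 * l1 ^ 2 * (502 / 100 * ξ) * (1 + l1) <
        23 / 100 * (1 - l1 ^ 2 - 4 * l1 ^ 2 * ξ) * (1 + l1))
    (hT : T ≤ -(θ * l * T) + θ ^ 2 * ξ * (397 / 100 * S + 4 * l ^ 2 * M))
    (hm : M ≤ θ * l ^ 2 * M + θ ^ 2 * ξ * (502 / 100 * S + 4 * l ^ 2 * M)) :
    0 < 23 / 100 * S - l * T - 55 / 100 * l ^ 2 * M := by
  have l2 : l ^ 2 * M ≤ l1 ^ 2 * M :=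
    mul_le_mul_of_nonneg_right (pow_le_pow_left₀ hl.le hll 2) hM
  have l3 : 0 ≤ l ^ 2 * M := by positivity
  have t2 : θ ^ 2 ≤ 1 := pow_le_one₀ h0 h1
  have a1 : M * (1 - l1 ^ 2 - 4 * l1 ^ 2 * ξ) ≤ 502 / 100 * ξ * S := by
    have b1 := mul_le_mul_of_nonneg_right h1 l3
    have b2 := mul_le_mul_of_nonneg_right t2
      (show 0 ≤ ξ * (502 / 100 * S + 4 * l ^ 2 * M) by positivity)
    have b3 := mul_le_mul_of_nonneg_left l2 hξ
    linarith
  have hl1 : 0 < l1 := hl.trans_le hll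
  have a2 : (1 + l1) * (l * T) ≤ l1 * (ξ * (397 / 100 * S + 4 * l1 ^ 2 * M)) := by
    rcases le_total T 0 with hT0 | hT0
    · exact (mul_nonpos_of_nonneg_of_nonpos (by positivity)
        (mul_nonpos_of_nonneg_of_nonpos hl.le hT0)).trans (by positivity)
    have hK : 0 ≤ ξ * (397 / 100 * S + 4 * l ^ 2 * M) := by positivity
    have b0 : ξ * (397 / 100 * S + 4 * l ^ 2 * M) ≤ ξ * (397 / 100 * S + 4 * l1 ^ 2 * M) :=
      mul_le_mul_of_nonneg_left (by linarith) hξ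
    rw [mul_assoc (θ ^ 2)] at hT
    generalize ξ * (397 / 100 * S + 4 * l ^ 2 * M) = K at *
    have b1 : θ ^ 2 * (1 + l) ≤ 1 + θ * l := by
      nlinarith [mul_nonneg (mul_nonneg h0 hl.le) (sub_nonneg.2 h1)]
    have b2 : (1 + l) * T ≤ K := by
      refine le_of_mul_le_mul_left ?_ (show 0 < 1 + θ * l by positivity)
      have c1 := mul_le_mul_of_nonneg_right b1 hK
      have c2 := mul_le_mul_of_nonneg_left hT (show 0 ≤ 1 + l by positivity)
      linarith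
    have b3 := mul_le_mul_of_nonneg_left (b2.trans b0) hl1.le
    have b4 := mul_le_mul_of_nonneg_right hll hT0
    linarith
  generalize 1 - l1 ^ 2 - 4 * l1 ^ 2 * ξ = e at *
  refine (mul_pos_iff_of_pos_left (show 0 < e * (1 + l1) by positivity)).1 ?_
  have c1 := mul_le_mul_of_nonneg_left a2 he.le
  have c2 := mul_le_mul_of_nonneg_left a1 (show 0 ≤ l1 * ξ * 4 * l1 ^ 2 by positivity)
  have c3 := mul_le_mul_of_nonneg_left l2 (show 0 ≤ e * (1 + l1) by positivity)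
  have c4 := mul_le_mul_of_nonneg_left a1 (show 0 ≤ l1 ^ 2 * (1 + l1) by positivity)
  have c5 := mul_lt_mul_of_pos_right hE hS
  linarith

end End3Aux
open End3Aux

theorem end3 (hc : Clos g3) {μ : ℝ} (hμ : 0 < μ) (hd : Dlt g3 μ 1) (h1 : P1) (h2 : P2)
    (h3 : P3) {l l1 s0 : ℝ} (hl : 0 < l) (hll : l ≤ l1) (hl1 : l1 ≤ 1 / 2) {p : ℕ → ℝ}
    {d ρ ρ1 : ℝ} (hp : Off p d ρ) (hρ0 : 0 ≤ ρ1) (hρ : ρ ≤ ρ1) (hθ : d * l ^ 2 ≤ 1)
    (hs : 0 ≤ s0) (hE : EndOK l1 s0 ρ1)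
    (hn : ∃ n, seq (-l) p n (X2 : V 3 → ℝ) ≤ s0) :
    Tendsto (fun n => seq (-l) p n (X2 : V 3 → ℝ)) atTop (𝓝 0) := by
  have ha : Adm 3 (-l) := ⟨by push_cast; linarith, by linarith⟩
  have hL := fun n => IsLaw.seq (q := 3) ha hp.prob n
  have hA := fun n => (hL n).Mop ha
  obtain ⟨S, tS, lS⟩ := exists_lim ha hp.prob (convexOn_X2 (q := 3))
  obtain ⟨M, tM, -⟩ := exists_lim ha hp.prob (convexOn_X2sq (q := 3))
  obtain ⟨U, tU, -⟩ := exists_lim ha hp.prob (convexOn_X3 (q := 3))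
  have tT : Tendsto (fun n => seq (-l) p n (X3 : V 3 → ℝ)) atTop (𝓝 (U - 3 * S)) := by
    refine (tU.sub (tS.const_mul 3)).congr fun n => ?_
    rw [(hL n).add _ _ bd_X3 ((Bd.const 3).mul bd_X2), (hL n).smul _ _ bd_X2, add_sub_cancel_right]
  generalize U - 3 * S = T at tT
  have S0 : 0 ≤ S := ge_of_tendsto' tS fun n => (hL n).nonneg bd_X2 fun a _ => X2_nonneg a
  have m0 := fun n => (hL n).nonneg bd_sq fun a _ => sq_nonneg _
  have M0 : 0 ≤ M := ge_of_tendsto' tM m0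
  rcases S0.eq_or_lt with rfl | hS
  · exact tS
  have d0 : 0 ≤ d := hp.mean.nonneg fun k => mul_nonneg (hp.prob.1 k) (Nat.cast_nonneg k)
  obtain ⟨e1, e2, e3⟩ := hE
  generalize hξ : ρ1 * (201 / 200) * s0 / 2 + 2 / 9 * (201 / 200) ^ 2 * s0 ^ 2 = ξ at e1 e3
  have ξ0 : 0 ≤ ξ := by rw [← hξ]; positivity
  have θ0 : 0 ≤ d * l ^ 2 := by positivity
  obtain ⟨n0, hn0⟩ := hn
  have rec1 : ∀ {φ : V 3 → ℝ}, Bd φ → φ 1 = 0 → ∀ {c : ℝ}, 0 ≤ c → (∀ a ∈ Sx 3, ∀ b ∈ Sx 3,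
      SS φ a b ≤ φ a + φ b + c * (X2 a * X2 b) + 4 * (X2 a ^ 2 * X2 b)) → ∀ n, n0 ≤ n →
      seq (-l) p (n + 1) φ ≤ d * Mop (-l) (seq (-l) p n) φ + (d * l ^ 2) ^ 2 * ξ *
        (c * seq (-l) p n (X2 : V 3 → ℝ) + 4 * l ^ 2 * seq (-l) p n fun a : V 3 => X2 a ^ 2) := by
    intro φ hφ h0 c c0 h n hn
    have b1 : seq (-l) p n (X2 : V 3 → ℝ) ≤ s0 :=
      (antitone_seq ha hp.prob convexOn_X2 hn).trans hn0
    have b2 := hS.trans_le (lS n)
    have b3 := mix_phi h1 (hA n) hφ h0 c0 h hp (by rw [Mop_X2 ha (hL n), neg_sq]; positivity) (by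
      rw [Mop_X2 ha (hL n), neg_sq]
      nlinarith [mul_le_mul hθ b1 b2.le zero_le_one])
    rw [Mop_X2 ha (hL n), Mop_X2sq ha (hL n), neg_sq, (by ring : (-l) ^ 4 = l ^ 4)] at b3
    refine b3.trans (add_le_add_right ?_ _)
    have b4 := m0 n
    generalize seq (-l) p n (X2 : V 3 → ℝ) = s at *
    generalize (seq (-l) p n fun a : V 3 => X2 a ^ 2) = m at *
    have b5 : ρ * s / 2 + 2 / 9 * (201 / 200) * (d * l ^ 2) * s ^ 2 ≤ ξ := by
      rw [← hξ]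
      have c1 := mul_le_mul hρ b1 b2.le hρ0
      have c2 := mul_le_mul hθ (pow_le_pow_left₀ b2.le b1 2) (sq_nonneg _) zero_le_one
      nlinarith [mul_nonneg hρ0 hs, sq_nonneg s0]
    have b6 := mul_le_mul_of_nonneg_left b5
      (show 0 ≤ (d * l ^ 2) ^ 2 * (c * s + 4 * l ^ 2 * m) by positivity)
    linarith
  have lim : ∀ c : ℝ, Tendsto (fun n => (d * l ^ 2) ^ 2 * ξ *
      (c * seq (-l) p n (X2 : V 3 → ℝ) + 4 * l ^ 2 * seq (-l) p n fun a : V 3 => X2 a ^ 2)) atTop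
      (𝓝 ((d * l ^ 2) ^ 2 * ξ * (c * S + 4 * l ^ 2 * M))) := fun c =>
    ((tS.const_mul c).add (tM.const_mul _)).const_mul _
  have hT := le_of_tendsto_of_tendsto (tT.comp (tendsto_add_atTop_nat 1))
    (((tT.const_mul (d * l ^ 2 * l)).neg).add (lim (397 / 100)))
    (eventually_atTop.2 ⟨n0, fun n hn => by
      have := rec1 bd_X3 X3_one (by norm_num) h2 n hn
      rw [Mop_X3 ha (hL n)] at this
      simp only [Function.comp]
      linarith⟩)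
  have hM := le_of_tendsto_of_tendsto (tM.comp (tendsto_add_atTop_nat 1))
    ((tM.const_mul (d * l ^ 2 * l ^ 2)).add (lim (502 / 100)))
    (eventually_atTop.2 ⟨n0, fun n hn => by
      have := rec1 bd_sq (by simp [X2_one]) (by norm_num) h3 n hn
      rw [Mop_X2sq ha (hL n)] at this
      simp only [Function.comp]
      linarith⟩)
  have key := final hl hll ξ0 θ0 hθ hS M0 e1 e3 hT hM
  have bg : Bd g3 := (((Bd.const _).mul bd_X2).add bd_X3).sub ((Bd.const _).mul bd_sq)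
  refine X2_tendsto_of_cone ha hp (by rwa [neg_sq]) bg (by simp [g3, X2_one, X3_one]) hc hμ
    (.inl rfl) hd ?_
  filter_upwards [(((tS.const_mul (23 / 100)).sub (tT.const_mul l)).sub
    (tM.const_mul (55 / 100 * l ^ 2))).eventually (lt_mem_nhds key)] with n hn
  have e : Mop (-l) (seq (-l) p n) g3 = 23 / 100 * Mop (-l) (seq (-l) p n) (X2 : V 3 → ℝ) +
      Mop (-l) (seq (-l) p n) (X3 : V 3 → ℝ) -
      55 / 100 * Mop (-l) (seq (-l) p n) fun a : V 3 => X2 a ^ 2 := by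
    rw [← (hA n).smul _ _ bd_X2, ← (hA n).smul _ _ bd_sq,
      ← (hA n).add _ _ ((Bd.const _).mul bd_X2) bd_X3,
      ← (hA n).sub (((Bd.const _).mul bd_X2).add bd_X3) ((Bd.const _).mul bd_sq)]
    rfl
  rw [e, Mop_X2 ha (hL n), Mop_X3 ha (hL n), Mop_X2sq ha (hL n)]
  have := mul_pos (pow_pos hl 2) hn
  linarith

end Vale.Agent.P154
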