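import Vale.Agent.P154.DeS
import Vale.Agent.P154.Cvx

namespace Vale.Agent.P154

variable {A Φ Ψ Φ' Ψ' : Fn 3}

theorem PosF.ten (h : PosF Φ) (h' : PosF Φ') : PosF (ten Φ Φ') := by
  refine ⟨fun H H' => ?_, fun c H => ?_, fun H H' e => ?_⟩
  · simp only [P154.ten, h'.add, h.add]
  · simp only [P154.ten, h'.smul, h.smul]
  · exact h.mono _ _ fun a ha => h'.mono _ _ fun b hb => e _ (mul_nn ha hb)

theorem PosF.plus (h : PosF Φ) (h' : PosF Φ') : PosF (fun H => Φ H + Φ' H) := by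
  refine ⟨fun H H' => ?_, fun c H => ?_, fun H H' e => add_le_add (h.mono _ _ e) (h'.mono _ _ e)⟩
  · simp only [h'.add, h.add]; ring
  · simp only [h'.smul, h.smul]; ring

theorem PosF.zero : PosF (fun _ => 0) :=
  ⟨fun _ _ => by simp, fun _ _ => by simp, fun _ _ _ => le_rfl⟩

theorem PosF.congr (h : PosF Φ) {H H' : V 3 → ℝ} (e : ∀ w : V 3, 0 ≤ w → H w = H' w) :
    Φ H = Φ H' :=
  le_antisymm (h.mono _ _ fun w hw => (e w hw).le) (h.mono _ _ fun w hw => (e w hw).ge)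

theorem PosF.map_zero (h : PosF Φ) : Φ (fun _ => 0) = 0 := by
  simpa using h.smul 0 fun _ => 0

theorem PosF.nonpos (h : PosF Φ) {H : V 3 → ℝ} (e : ∀ w : V 3, 0 ≤ w → H w ≤ 0) : Φ H ≤ 0 :=
  (h.mono _ _ e).trans h.map_zero.le

theorem PosF.map_sum (h : PosF Φ) {ι : Type} (s : Finset ι) (H : ι → V 3 → ℝ) :
    Φ (fun w => ∑ i ∈ s, H i w) = ∑ i ∈ s, Φ (H i) := by
  classical
  induction s using Finset.induction_on with
  | empty => simpa using h.map_zero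
  | insert i s hi ih => simp only [Finset.sum_insert hi, h.add, ih]

theorem PosF.nonneg (h : PosF Φ) {H : V 3 → ℝ} (e : ∀ w : V 3, 0 ≤ w → 0 ≤ H w) :
    0 ≤ Φ H := h.map_zero.ge.trans (h.mono _ _ e)

theorem SymF.ten (h : SymF Φ) (h' : SymF Φ') : SymF (ten Φ Φ') := by
  intro σ H
  unfold P154.ten
  rw [← h σ fun a => Φ' fun b => H (a * b)]
  congr 1
  funext a
  exact h' σ fun b => H (a ∘ σ * b)

theorem posF_hF (h : PosF Φ) (ps : List ℕ) : PosF (hF Φ ps) := by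
  induction ps with
  | nil => exact PosF.zero
  | cons p ps ih =>
    refine PosF.plus (Φ := fun H => (p : ℝ) / 2 ^ 40 * H 1) ⟨fun _ _ => mul_add _ _ _,
      fun _ _ => mul_left_comm _ _ _, fun _ _ e => ?_⟩ (h.ten ih)
    exact mul_le_mul_of_nonneg_left (e 1 zero_le_one) (by positivity)

theorem posF_hE (h : PosF Φ) (h' : PosF Ψ) (ps : List ℕ) : PosF (hE Φ Ψ ps) := by
  induction ps with
  | nil => exact PosF.zero
  | cons p ps ih => exact ((h.ten ih).plus (h'.ten ih)).plus (h'.ten (posF_hF h ps))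

theorem symF_hF (h : SymF Φ) (ps : List ℕ) : SymF (hF Φ ps) := by
  induction ps with
  | nil => exact fun _ _ => rfl
  | cons p ps ih =>
    intro σ H
    show (p : ℝ) / 2 ^ 40 * H ((1 : V 3) ∘ σ) + ten Φ (hF Φ ps) _ = (p : ℝ) / 2 ^ 40 * H 1 + _
    rw [h.ten ih σ H]
    rfl

theorem Km.mul_left {G : V 3 → ℝ} (h : Km G) {a : V 3} (ha : 0 ≤ a) : Km fun b => G (a * b) :=
  ⟨h.1.mul_left ha, fun _ hw => h.2 _ (mul_nn ha hw)⟩

theorem comp_nn {w : V 3} (hw : 0 ≤ w) (σ : Equiv.Perm (Fin 3)) : 0 ≤ w ∘ σ := fun i => hw (σ i)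

theorem PosF.km (h : PosF Φ) {G : V 3 → ℝ} (hG : Km G) (σ : Equiv.Perm (Fin 3)) :
    Km fun a => Φ fun b => G (a * (b ∘ σ)) := by
  refine ⟨⟨fun x y hx hy => ?_, fun t x ht hx => ?_⟩, fun a ha =>
    h.nonpos fun b hb => hG.2 _ (mul_nn ha (comp_nn hb σ))⟩
  · show Φ _ ≤ Φ _ + Φ _
    rw [← h.add]
    refine h.mono _ _ fun b hb => ?_
    rw [add_mul]
    exact hG.1.1 _ _ (mul_nn hx (comp_nn hb σ)) (mul_nn hy (comp_nn hb σ))
  · show Φ _ = t * Φ _
    rw [← h.smul]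
    refine h.congr fun b hb => ?_
    rw [smul_mul_assoc]
    exact hG.1.2 _ _ ht (mul_nn hx (comp_nn hb σ))

theorem Km.add {G G' : V 3 → ℝ} (h : Km G) (h' : Km G') : Km fun a => G a + G' a := by
  refine ⟨⟨fun x y hx hy => ?_, fun t x ht hx => ?_⟩,
    fun a ha => add_nonpos (h.2 a ha) (h'.2 a ha)⟩
  · have h1 := h.1.1 x y hx hy
    have h2 := h'.1.1 x y hx hy
    show G (x + y) + G' (x + y) ≤ G x + G' x + (G y + G' y)
    linarith
  · show G (t • x) + G' (t • x) = t * (G x + G' x)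
    rw [h.1.2 t x ht hx, h'.1.2 t x ht hx, mul_add]

theorem Km.sum3 {G : Fin 3 → V 3 → ℝ} (h : ∀ i, Km (G i)) : Km fun a => ∑ i, G i a := by
  simp only [Fin.sum_univ_three]
  exact ((h 0).add (h 1)).add (h 2)

/-- truncated mixture -/
noncomputable def trM (A : Fn 3) (ps : List ℕ) (G : V 3 → ℝ) : ℝ :=
  ∑ k ∈ Finset.range ps.length, ((ps.getD k 0 : ℕ) : ℝ) / 2 ^ 40 * pw A k G

theorem trM_bd (hA : IsLaw A) (ps : List ℕ) {G : V 3 → ℝ} (hG : Sub G) :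
    Bd fun a => trM A ps fun b => G (a * b) :=
  Bd.sum _ fun k _ => (Bd.const _).mul (bd_sub_inner (hA.pw k) hG)

theorem trM_cons (hA : IsLaw A) (p : ℕ) (ps : List ℕ) {G : V 3 → ℝ} (hG : Sub G) :
    trM A (p :: ps) G = (p : ℝ) / 2 ^ 40 * G 1 + A fun a => trM A ps fun b => G (a * b) := by
  unfold trM
  rw [List.length_cons, Finset.sum_range_succ', add_comm,
    hA.sum _ fun k _ => (Bd.const _).mul (bd_sub_inner (hA.pw k) hG)]
  congr 1
  refine Finset.sum_congr rfl fun k _ => ?_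
  rw [hA.smul _ _ (bd_sub_inner (hA.pw k) hG), ← hA.star_sub (hA.pw k) hG]
  rfl

theorem trM_le (hA : IsLaw A) (h : PosF Φ) (h' : PosF Ψ) (hs : SymF Φ) (hb : Bnd A Φ Ψ)
    (ps : List ℕ) : Bnd (trM A ps) (hF Φ ps) (hE Φ Ψ ps) := by
  induction ps with
  | nil => intro G _; simp [trM, hF, hE]
  | cons p ps ih =>
    intro G hG
    have f1 := posF_hF h ps
    have f2 := posF_hE h h' ps
    have hK : Km fun a => hF Φ ps (fun b => G (a * b)) +
        ∑ i : Fin 3, hE Φ Ψ ps fun w => G (a * (w ∘ Equiv.swap 0 i)) :=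
      (f1.km hG 1).add (Km.sum3 fun i => f2.km hG _)
    have h1 := (hA.mono _ _ (trM_bd hA ps hG.1) hK.1.bd
      fun a ha => ih _ (hG.mul_left (Sx.nn ha))).trans (hb _ hK)
    rw [trM_cons hA p ps hG.1]
    simp only [hF, hE, Finset.sum_add_distrib, h.add, h'.add, h.map_sum, h'.map_sum] at h1 ⊢
    have e1 : ∀ i : Fin 3, (Φ fun a => hE Φ Ψ ps fun w => G (a * (w ∘ Equiv.swap 0 i))) =
        ten Φ (hE Φ Ψ ps) fun w => G (w ∘ Equiv.swap 0 i) := fun i =>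
      (hs (Equiv.swap 0 i) _).symm
    have e2 : ∀ j : Fin 3, (Ψ fun a => hF Φ ps fun b => G (a ∘ Equiv.swap 0 j * b)) =
        ten Ψ (hF Φ ps) fun w => G (w ∘ Equiv.swap 0 j) := fun j => by
      unfold ten
      congr 1
      funext a
      exact (symF_hF hs ps (Equiv.swap 0 j) _).symm
    have e3 : ∀ j : Fin 3, (∑ i : Fin 3, Ψ fun a => hE Φ Ψ ps fun w =>
        G (a ∘ Equiv.swap 0 j * (w ∘ Equiv.swap 0 i))) ≤
        ten Ψ (hE Φ Ψ ps) fun w => G (w ∘ Equiv.swap 0 j) := fun j => by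
      rw [← Finset.add_sum_erase _ _ (Finset.mem_univ j)]
      refine add_le_of_nonpos_right (Finset.sum_nonpos fun i _ => ?_)
      exact h'.nonpos fun a ha => f2.nonpos fun w hw =>
        hG.2 _ (mul_nn (comp_nn ha _) (comp_nn hw _))
    have e4 := Finset.sum_le_sum (s := Finset.univ) fun j _ => e3 j
    simp only [e1, e2] at h1
    unfold ten at *
    linarith

theorem bnd_horner (hA : IsLaw A) (h : PosF Φ) (h' : PosF Ψ) (hs : SymF Φ) (hb : Bnd A Φ Ψ)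
    {p : ℕ → ℝ} (hp : Prob p) (ps : List ℕ)
    (hps : ∀ k, ((ps.getD k 0 : ℕ) : ℝ) ≤ 2 ^ 40 * p k) :
    Bnd (mix p (pw A)) (hF Φ ps) (hE Φ Ψ ps) := by
  intro G hG
  refine le_trans ?_ (trM_le hA h h' hs hb ps G hG)
  have hn : ∀ k, pw A k G ≤ 0 := fun k => by
    have := (hA.pw k).mono _ _ hG.1.bd (Bd.const 0) fun a ha => hG.2 a (Sx.nn ha)
    rwa [(hA.pw k).const] at this
  have h1 := (summable_mix hp (fun k => hA.pw k) hG.1.bd).neg.sum_le_tsum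
    (Finset.range ps.length) fun k _ => neg_nonneg.2 (mul_nonpos_of_nonneg_of_nonpos (hp.1 k) (hn k))
  rw [tsum_neg, Finset.sum_neg_distrib, neg_le_neg_iff] at h1
  refine h1.trans (Finset.sum_le_sum fun k _ => mul_le_mul_of_nonpos_right ?_ (hn k))
  rw [div_le_iff₀' (by positivity)]
  exact hps k

theorem Bnd.of_cx {A' : Fn 3} (h : Cx A A') (hb : Bnd A' Φ Ψ) : Bnd A Φ Ψ :=
  fun G hG => (h G hG.1).trans (hb G hG)

theorem isLaw_MixC {ln ld wn wd : ℕ} (h0 : 0 < ld) (h1 : 2 * ln ≤ ld) (h2 : 0 < wd)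
    (h3 : wn ≤ wd) {Q : Fn 3} (hQ : IsLaw Q) : IsLaw (MixC ln ld wn wd Q) := by
  have a0 : (0 : ℝ) ≤ (ln : ℝ) / ld := by positivity
  have a1 : (ln : ℝ) / ld ≤ 1 / 2 := by
    rw [div_le_div_iff₀ (Nat.cast_pos.2 h0) two_pos]
    have : ((2 * ln : ℕ) : ℝ) ≤ ld := Nat.cast_le.2 h1
    push_cast at this
    linarith
  refine IsLaw.comb (hQ.Mop ⟨?_, ?_⟩) (hQ.Mop ⟨?_, ?_⟩) (by positivity)
    ((div_le_one (Nat.cast_pos.2 h2)).2 (Nat.cast_le.2 h3)) <;> push_cast <;> linarith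

/-- folding to the chamber `w 0 ≥ w 1 ≥ w 2` -/
noncomputable def chi (w : V 3) : ℝ :=
  if w 1 ≤ w 0 ∧ w 2 ≤ w 1 then
    (if w 0 = w 2 then 1 else if w 1 = w 2 ∨ w 0 = w 1 then 3 else 6) else 0

noncomputable def c3 (a b c : ℝ) : ℝ :=
  if b ≤ a ∧ c ≤ b then (if a = c then 1 else if b = c ∨ a = b then 3 else 6) else 0

set_option linter.unusedSimpArgs false in
theorem c3_sum (a b c : ℝ) :
    c3 a b c + c3 b a c + c3 c b a + c3 a c b + c3 b c a + c3 c a b ≤ 6 := by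
  rcases lt_trichotomy a b with h1 | rfl | h1
  · rcases lt_trichotomy b c with h2 | rfl | h2
    · have h3 := h1.trans h2
      simp [c3, h1.le, h2.le, h3.le, h1.ne, h2.ne, h3.ne, h1.ne', h2.ne', h3.ne', h1.not_ge,
        h2.not_ge, h3.not_ge]
    · simp [c3, h1.le, h1.ne, h1.ne', h1.not_ge]; norm_num
    · rcases lt_trichotomy a c with h3 | rfl | h3
      · simp [c3, h1.le, h2.le, h3.le, h1.ne, h2.ne, h3.ne, h1.ne', h2.ne', h3.ne', h1.not_ge,
          h2.not_ge, h3.not_ge]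
      · simp [c3, h1.le, h1.ne, h1.ne', h1.not_ge]; norm_num
      · simp [c3, h1.le, h2.le, h3.le, h1.ne, h2.ne, h3.ne, h1.ne', h2.ne', h3.ne', h1.not_ge,
          h2.not_ge, h3.not_ge]
  · rcases lt_trichotomy a c with h3 | rfl | h3
    · simp [c3, h3.le, h3.ne, h3.ne', h3.not_ge]; norm_num
    · simp [c3]; norm_num
    · simp [c3, h3.le, h3.ne, h3.ne', h3.not_ge]; norm_num
  · rcases lt_trichotomy a c with h2 | rfl | h2
    · have h3 := h1.trans h2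
      simp [c3, h1.le, h2.le, h3.le, h1.ne, h2.ne, h3.ne, h1.ne', h2.ne', h3.ne', h1.not_ge,
        h2.not_ge, h3.not_ge]
    · simp [c3, h1.le, h1.ne, h1.ne', h1.not_ge]; norm_num
    · rcases lt_trichotomy b c with h3 | rfl | h3
      · simp [c3, h1.le, h2.le, h3.le, h1.ne, h2.ne, h3.ne, h1.ne', h2.ne', h3.ne', h1.not_ge,
          h2.not_ge, h3.not_ge]
      · simp [c3, h1.le, h1.ne, h1.ne', h1.not_ge]; norm_num
      · simp [c3, h1.le, h2.le, h3.le, h1.ne, h2.ne, h3.ne, h1.ne', h2.ne', h3.ne', h1.not_ge,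
          h2.not_ge, h3.not_ge]

theorem fold_le (h : PosF Φ) (hs : SymF Φ) {H : V 3 → ℝ} (hH : SymG H)
    (h0 : ∀ w : V 3, 0 ≤ w → 0 ≤ H w) : Φ (fun w => chi w * H w) ≤ Φ H := by
  have k : ∀ σ : Equiv.Perm (Fin 3), Φ (fun w => c3 (w (σ 0)) (w (σ 1)) (w (σ 2)) * H w) =
      Φ fun w => chi w * H w := fun σ => by
    rw [← hs σ fun w => chi w * H w]
    simp only [hH σ]
    rfl
  have k1 : Φ (fun w => c3 (w 0) (w 1) (w 2) * H w) = _ := k 1
  have k2 : Φ (fun w => c3 (w 1) (w 0) (w 2) * H w) = _ := k (Equiv.swap 0 1)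
  have k3 : Φ (fun w => c3 (w 2) (w 1) (w 0) * H w) = _ := k (Equiv.swap 0 2)
  have k4 : Φ (fun w => c3 (w 0) (w 2) (w 1) * H w) = _ := k (Equiv.swap 1 2)
  have k5 : Φ (fun w => c3 (w 1) (w 2) (w 0) * H w) = _ := k (Equiv.swap 0 1 * Equiv.swap 1 2)
  have k6 : Φ (fun w => c3 (w 2) (w 0) (w 1) * H w) = _ := k (Equiv.swap 1 2 * Equiv.swap 0 1)
  have k7 := h.mono (fun w => c3 (w 0) (w 1) (w 2) * H w + c3 (w 1) (w 0) (w 2) * H w +
    c3 (w 2) (w 1) (w 0) * H w + c3 (w 0) (w 2) (w 1) * H w + c3 (w 1) (w 2) (w 0) * H w +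
    c3 (w 2) (w 0) (w 1) * H w) (fun w => 6 * H w) fun w hw => by
      have := mul_le_mul_of_nonneg_right (c3_sum (w 0) (w 1) (w 2)) (h0 w hw)
      linarith
  simp only [h.add, h.smul] at k7
  linarith

end Vale.Agent.P154
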