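import Vale.Agent.P154.Rp
import Vale.Agent.P154.Fun

namespace Vale.Agent.P154

open Finset

theorem sum_perm3 (F : Equiv.Perm (Fin 3) → ℝ) :
    ∑ σ, F σ = F 1 + F (Equiv.swap 0 1) + F (Equiv.swap 0 2) + F (Equiv.swap 1 2) +
      F (Equiv.swap 0 1 * Equiv.swap 1 2) + F (Equiv.swap 1 2 * Equiv.swap 0 1) := by
  have h : (univ : Finset (Equiv.Perm (Fin 3))) =
      {1, Equiv.swap 0 1, Equiv.swap 0 2, Equiv.swap 1 2, Equiv.swap 0 1 * Equiv.swap 1 2,
        Equiv.swap 1 2 * Equiv.swap 0 1} := by decide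
  rw [h, sum_insert (by decide), sum_insert (by decide), sum_insert (by decide),
    sum_insert (by decide), sum_insert (by decide), sum_singleton]
  ring

theorem sum_perm3_vec (H : V 3 → ℝ) (x y z : ℝ) :
    ∑ σ : Equiv.Perm (Fin 3), H (![x, y, z] ∘ σ) =
      H ![x, y, z] + H ![y, x, z] + H ![z, y, x] + H ![x, z, y] + H ![y, z, x] + H ![z, x, y] := by
  have e0 : (![x, y, z] : V 3) ∘ (1 : Equiv.Perm (Fin 3)) = ![x, y, z] := rfl
  have e1 : (![x, y, z] : V 3) ∘ Equiv.swap (0 : Fin 3) 1 = ![y, x, z] := by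
    funext i; fin_cases i <;> rfl
  have e2 : (![x, y, z] : V 3) ∘ Equiv.swap (0 : Fin 3) 2 = ![z, y, x] := by
    funext i; fin_cases i <;> rfl
  have e3 : (![x, y, z] : V 3) ∘ Equiv.swap (1 : Fin 3) 2 = ![x, z, y] := by
    funext i; fin_cases i <;> rfl
  have e4 : (![x, y, z] : V 3) ∘ (Equiv.swap (0 : Fin 3) 1 * Equiv.swap 1 2 :
      Equiv.Perm (Fin 3)) = ![y, z, x] := by
    funext i; fin_cases i <;> rfl
  have e5 : (![x, y, z] : V 3) ∘ (Equiv.swap (1 : Fin 3) 2 * Equiv.swap 0 1 :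
      Equiv.Perm (Fin 3)) = ![z, x, y] := by
    funext i; fin_cases i <;> rfl
  rw [sum_perm3, e0, e1, e2, e3, e4, e5]

theorem exp_ed0_nn : (0 : V 3) ≤ ed0 := by
  intro i; fin_cases i <;> simp [ed0]

theorem posF_exF {r : ℝ} (hr : 0 < r) (U BS g : ℕ) : PosF (exF r U BS g) := by
  refine ⟨fun H H' => ?_, fun c H => ?_, fun H H' h => ?_⟩
  · simp only [exF, sum_add_distrib, mul_add]
  · simp only [exF, mul_sum]
    refine sum_congr rfl fun i _ => sum_congr rfl fun j _ => sum_congr rfl fun σ _ => ?_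
    ring
  · refine sum_le_sum fun i _ => sum_le_sum fun j _ =>
      mul_le_mul_of_nonneg_left (sum_le_sum fun σ _ => h _ fun k => ?_) (by positivity)
    exact vec_nonneg hr _ _ (σ k)

theorem symF_exF (r : ℝ) (U BS g : ℕ) : SymF (exF r U BS g) := by
  intro τ H
  unfold exF
  refine sum_congr rfl fun i _ => sum_congr rfl fun j _ => ?_
  congr 1
  exact Equiv.sum_comp (Equiv.mulRight τ)
    (fun σ : Equiv.Perm (Fin 3) => H (vec r (-(i : ℤ)) (-(j : ℤ)) ∘ σ))

theorem posF_exE (BS g : ℕ) : PosF (exE BS g) := by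
  refine ⟨fun H H' => ?_, fun c H => ?_, fun H H' h => ?_⟩
  · simp only [exE, mul_add]
  · simp only [exE]; ring
  · exact mul_le_mul_of_nonneg_left (h _ exp_ed0_nn) (by positivity)

theorem bnd_ex {r : ℝ} (hr : 0 < r) {U BS g : ℕ} {A : Fn 3} (hA : IsLaw A)
    (h : St r U (dg BS g) A) : Bnd A (exF r U BS g) (exE BS g) := by
  intro G hG
  have hnn : ∀ (w : V 3) (σ : Equiv.Perm (Fin 3)), 0 ≤ w → 0 ≤ w ∘ σ := fun w σ hw k => hw (σ k)
  set Gs : V 3 → ℝ := fun w => ∑ σ : Equiv.Perm (Fin 3), G (w ∘ σ) with hGs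
  have hle : ∀ w : V 3, 0 ≤ w → Gs w ≤ 0 := fun w hw =>
    sum_nonpos fun σ _ => hG.2 _ (hnn w σ hw)
  have hK : Km Gs := by
    refine ⟨⟨fun x y hx hy => ?_, fun t x ht hx => ?_⟩, hle⟩
    · simp only [hGs]
      rw [← sum_add_distrib]
      exact sum_le_sum fun σ _ => (hG.1.perm σ).1 x y hx hy
    · simp only [hGs]
      rw [mul_sum]
      exact sum_congr rfl fun σ _ => (hG.1.perm σ).2 t x ht hx
  have hS : SymG Gs := fun τ w =>
    Equiv.sum_comp (Equiv.mulLeft τ) (fun σ : Equiv.Perm (Fin 3) => G (w ∘ σ))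
  have hAG : A Gs = 6 * A G := by
    rw [hGs, hA.sum univ fun σ _ => hG.1.bd.perm σ]
    simp only [hA.perm _ _ hG.1.bd, sum_const, card_univ, Fintype.card_perm, Fintype.card_fin,
      nsmul_eq_mul]
    norm_num [Nat.factorial]
  have h1 := h Gs hK hS
  have hE : Gs ed0 = 2 * ∑ i : Fin 3, G (ed0 ∘ Equiv.swap 0 i) := by
    have e0 : ed0 ∘ Equiv.swap (0 : Fin 3) 0 = ![0, 1, 1] := by
      funext i; fin_cases i <;> rfl
    have e1 : ed0 ∘ Equiv.swap (0 : Fin 3) 1 = ![1, 0, 1] := by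
      funext i; fin_cases i <;> rfl
    have e2 : ed0 ∘ Equiv.swap (0 : Fin 3) 2 = ![1, 1, 0] := by
      funext i; fin_cases i <;> rfl
    rw [Fin.sum_univ_three, e0, e1, e2, hGs]
    simp only [ed0]
    rw [sum_perm3_vec]
    ring
  have h2 : stv r U (dg BS g) Gs ≤ 6 * (2 ^ 40 * exF r U BS g G) +
      6 * (2 ^ 40 * ∑ i : Fin 3, exE BS g fun w => G (w ∘ Equiv.swap 0 i)) := by
    unfold stv
    refine add_le_add ?_ ?_
    · unfold exF
      rw [mul_sum, mul_sum]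
      refine sum_le_sum fun i _ => ?_
      rw [mul_sum, mul_sum]
      refine sum_le_sum fun j _ => ?_
      have h6 : 6 * (g6 U BS g i j : ℝ) ≤ (dg BS g (i * (U + 1) + j + 2) : ℝ) := by
        rw [g6_eq, dgf_eq]
        exact_mod_cast Nat.mul_div_le _ 6
      have hv := hle _ (vec_nonneg hr (-(i : ℤ)) (-(j : ℤ)))
      have e : 6 * (2 ^ 40 * ((g6 U BS g i j : ℝ) / 2 ^ 40 *
          ∑ σ : Equiv.Perm (Fin 3), G (vec r (-(i : ℤ)) (-(j : ℤ)) ∘ σ))) =
          6 * (g6 U BS g i j : ℝ) * Gs (vec r (-(i : ℤ)) (-(j : ℤ))) := by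
        simp only [hGs]
        field_simp
      rw [e]
      exact mul_le_mul_of_nonpos_right h6 hv
    · have h3 : 3 * ((dg BS g 1 / 3 : ℕ) : ℝ) ≤ (dg BS g 1 : ℝ) := by
        exact_mod_cast Nat.mul_div_le _ 3
      have e : 6 * (2 ^ 40 * ∑ i : Fin 3, exE BS g fun w => G (w ∘ Equiv.swap 0 i)) =
          3 * ((dg BS g 1 / 3 : ℕ) : ℝ) * Gs ed0 := by
        simp only [exE]
        rw [← mul_sum, hE]
        field_simp
        ring
      rw [e]
      exact mul_le_mul_of_nonpos_right h3 (hle _ exp_ed0_nn)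
  rw [hAG] at h1
  have h3 : (2 : ℝ) ^ 40 * A G ≤ 2 ^ 40 * (exF r U BS g G +
      ∑ i : Fin 3, exE BS g fun w => G (w ∘ Equiv.swap 0 i)) := by linarith
  exact le_of_mul_le_mul_left h3 (by positivity)

theorem exp_flip1 {M : Type} [AddCommMonoid M] (n : ℕ) (F : ℕ → ℕ → M) :
    ∑ j ∈ range n, ∑ k ∈ range (n - j), F (j + k) j =
      ∑ i ∈ range n, ∑ j ∈ range (i + 1), F i j := by
  rw [← sum_range_diag_flip n fun j k => F (j + k) j]
  refine sum_congr rfl fun i _ => sum_congr rfl fun j hj => ?_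
  rw [Nat.add_sub_cancel' (Nat.lt_succ_iff.1 (mem_range.1 hj))]

theorem exp_flip2 {M : Type} [AddCommMonoid M] (n : ℕ) (F : ℕ → ℕ → ℕ → M) :
    ∑ k ∈ range n, ∑ j ∈ range (n - k), F (j + k) j k =
      ∑ i ∈ range n, ∑ j ∈ range (i + 1), F i j (i - j) := by
  rw [← sum_range_diag_flip n fun k j => F (j + k) j k]
  refine sum_congr rfl fun i _ => ?_
  rw [← sum_range_reflect]
  refine sum_congr rfl fun j hj => ?_
  have := mem_range.1 hj
  have e1 : i + 1 - 1 - j = i - j := by omega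
  have e2 : i - (i - j) = j := by omega
  have e3 : j + (i - j) = i := by omega
  rw [e1, e2, e3]

/-- weight of one family -/
def famW (V BS g i : ℕ) : ℕ :=
  ∑ j ∈ range (i + 1), g6 V BS g i j + ∑ k ∈ range (V + 1 - i), g6 V BS g (i + k) i +
    ∑ j ∈ range (V + 1 - i), g6 V BS g (j + i) j

/-- integration against one family -/
noncomputable def famT (V BS g i : ℕ) (h : ℕ → ℕ → ℝ) : ℝ :=
  ∑ j ∈ range (i + 1), (g6 V BS g i j : ℝ) * h 0 (V - j) +
    ∑ k ∈ range (V + 1 - i), (g6 V BS g (i + k) i : ℝ) * h 0 (V - (i + k)) +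
    ∑ j ∈ range (V + 1 - i), (g6 V BS g (j + i) j : ℝ) * h 0 (V + j)

theorem rp_row (S n cb : ℕ) (c col : ℕ → ℕ) (h : ∀ j < n, col j ≤ cb) :
    Rp 104 S (∑ j ∈ range n, c j <<< (104 * col j)) cb (∑ j ∈ range n, c j)
      (fun f => ∑ j ∈ range n, (c j : ℝ) * f 0 (col j)) := by
  refine Rp.sum (T := fun j f => (c j : ℝ) * f 0 (col j)) fun j hj => ?_
  have hs := Rp.single 104 S (c j) 0 (col j)
  rw [zero_mul, zero_add] at hs
  exact hs.weaken (h j hj) le_rfl

theorem rp_fam (S V BS g : ℕ) {i : ℕ} (hi : i < V + 1) :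
    Rp 104 S (fam V BS g i) (2 * V - i) (famW V BS g i) (famT V BS g i) := by
  rw [fam_eq, fam1_eq, fam2_eq, fam3_eq, sumLt_eq, sumLt_eq, sumLt_eq]
  exact ((rp_row S (i + 1) (2 * V - i) (fun j => g6 V BS g i j) (fun j => V - j)
    fun j _ => by omega).add (rp_row S (V + 1 - i) (2 * V - i) (fun k => g6 V BS g (i + k) i)
      (fun k => V - (i + k)) fun j _ => by omega)).add
    (rp_row S (V + 1 - i) (2 * V - i) (fun j => g6 V BS g (j + i) j) (fun j => V + j)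
      fun j _ => by omega)

theorem sum_famW (V BS g : ℕ) : ∑ i ∈ range (V + 1), famW V BS g i = 3 * totG V BS g := by
  simp only [famW, sum_add_distrib, totG_eq, sumLt_eq]
  rw [exp_flip1 (V + 1) fun i j => g6 V BS g i j, exp_flip2 (V + 1) fun i j _ => g6 V BS g i j]
  ring

theorem six_sum (r : ℝ) (U BS g : ℕ) (H : V 3 → ℝ) :
    ∑ i ∈ range (U + 1), famT U BS g i (fun _ b => H (vec r (-(i : ℤ)) ((b : ℤ) - U)) +
      H (vec r i ((b : ℤ) + i - U))) = 2 ^ 40 * exF r U BS g H := by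
  simp only [famT, sum_add_distrib]
  rw [exp_flip1 (U + 1) fun i j => (g6 U BS g i j : ℝ) *
      (H (vec r (-(j : ℤ)) (((U - i : ℕ) : ℤ) - U)) + H (vec r j (((U - i : ℕ) : ℤ) + j - U))),
    exp_flip2 (U + 1) fun i j k => (g6 U BS g i j : ℝ) *
      (H (vec r (-(k : ℤ)) (((U + j : ℕ) : ℤ) - U)) + H (vec r k (((U + j : ℕ) : ℤ) + k - U)))]
  unfold exF
  rw [mul_sum, ← sum_add_distrib, ← sum_add_distrib]
  refine sum_congr rfl fun i hi => ?_
  rw [mul_sum, ← sum_add_distrib, ← sum_add_distrib]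
  refine sum_congr rfl fun j hj => ?_
  have hi' : i ≤ U := Nat.lt_succ_iff.1 (mem_range.1 hi)
  have hj' : j ≤ i := Nat.lt_succ_iff.1 (mem_range.1 hj)
  have key : ∀ a b x y z : ℤ, 2 * a - b = x → 2 * b - a = y → -a - b = z →
      vec r a b = ![r ^ x, r ^ y, r ^ z] := by
    intro a b x y z h1 h2 h3
    rw [← h1, ← h2, ← h3]; rfl
  rw [Nat.cast_sub hi', Nat.cast_sub (hj'.trans hi'), Nat.cast_sub hj', Nat.cast_add,
    key (-(i : ℤ)) (-(j : ℤ)) (j - 2 * i) (i - 2 * j) (i + j) (by ring) (by ring) (by ring),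
    sum_perm3_vec,
    key (-(i : ℤ)) ((U : ℤ) - j - U) (j - 2 * i) (i - 2 * j) (i + j) (by ring) (by ring) (by ring),
    key (i : ℤ) ((U : ℤ) - j + i - U) (i + j) (i - 2 * j) (j - 2 * i) (by ring) (by ring) (by ring),
    key (-(j : ℤ)) ((U : ℤ) - i - U) (i - 2 * j) (j - 2 * i) (i + j) (by ring) (by ring) (by ring),
    key (j : ℤ) ((U : ℤ) - i + j - U) (i + j) (j - 2 * i) (i - 2 * j) (by ring) (by ring) (by ring),
    key (-((i : ℤ) - j)) ((U : ℤ) + j - U) (j - 2 * i) (i + j) (i - 2 * j)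
      (by ring) (by ring) (by ring),
    key ((i : ℤ) - j) ((U : ℤ) + j + (i - j) - U) (i - 2 * j) (i + j) (j - 2 * i)
      (by ring) (by ring) (by ring)]
  field_simp
  ring

theorem le2_expI {P : Par} (hP : parOK P = true) {BS g : ℕ}
    (ht : 6 * totG P.V BS g ≤ 2 ^ 41) :
    Le2 ((P.ra : ℝ) / P.rb) P.S P.V (expI P BS g) (2 * P.V) (2 ^ 41)
      (exF ((P.ra : ℝ) / P.rb) P.V BS g) := by
  have _ := hP
  generalize (P.ra : ℝ) / P.rb = r
  rw [expI_eq, sumLt_eq]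
  have h := Rp.sum (B := 104) (S := P.S) (cb := 2 * P.V) (n := P.V + 1)
    (M := fun i => fam P.V BS g i <<< (104 * ((P.V - i) * P.S)) +
      fam P.V BS g i <<< (104 * ((P.V + i) * P.S + i)))
    (t := fun i => famW P.V BS g i + famW P.V BS g i)
    (T := fun i f => famT P.V BS g i (fun a b => f (a + (P.V - i)) (b + 0)) +
      famT P.V BS g i (fun a b => f (a + (P.V + i)) (b + i))) fun i hi =>
      (((rp_fam P.S P.V BS g hi).shift (P.V - i) 0).weaken (by omega) le_rfl).add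
        (((rp_fam P.S P.V BS g hi).shift (P.V + i) i).weaken (by omega) le_rfl)
  refine ⟨_, h.weaken le_rfl ?_, fun H _ => le_of_eq ?_⟩
  · rw [sum_add_distrib, sum_famW]; omega
  · rw [← six_sum]
    refine sum_congr rfl fun i hi => ?_
    have hi' : i < P.V + 1 := mem_range.1 hi
    rw [← (rp_fam P.S P.V BS g hi').map_add]
    simp only [famT, zero_add, add_zero]
    have e1 : ((P.V - i : ℕ) : ℤ) - P.V = -(i : ℤ) := by
      rw [Nat.cast_sub (by omega)]; ring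
    simp only [e1, Nat.cast_add, add_sub_cancel_left]

theorem le1_expP {P : Par} (hP : parOK P = true) {BS g : ℕ}
    (ht : 6 * totG P.V BS g ≤ 2 ^ 41) :
    Le1 ((P.ra : ℝ) / P.rb) P.S P.V (expP P BS g) (2 * P.V) (2 ^ 49)
      (exF ((P.ra : ℝ) / P.rb) P.V BS g) := by
  obtain ⟨hb, hab, -, -, hS, hV, -, hVW, hlo, -⟩ := parOK_iff.1 hP
  have ha : 0 < P.ra := by omega
  have hr : (0 : ℝ) < (P.ra : ℝ) / P.rb := div_pos (Nat.cast_pos.2 ha) (Nat.cast_pos.2 hb)
  have h := Rp.sum (B := 104) (S := P.S) (cb := 2 * P.V) (n := P.V + 1)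
    (M := fun i => fam P.V BS g i * lo P.ra P.rb i 0 +
      (fam P.V BS g i * lo P.ra P.rb 0 i) <<< (104 * i))
    (t := fun i => 2 ^ 46 * famW P.V BS g i + 2 ^ 46 * famW P.V BS g i)
    (T := fun i f => (lo P.ra P.rb i 0 : ℝ) * famT P.V BS g i f +
      (lo P.ra P.rb 0 i : ℝ) * famT P.V BS g i (fun a b => f (a + 0) (b + i))) fun i hi => by
      have h1 := (rp_fam P.S P.V BS g hi).smul (lo P.ra P.rb i 0)
      have h2 := ((rp_fam P.S P.V BS g hi).smul (lo P.ra P.rb 0 i)).shift 0 i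
      rw [zero_mul, zero_add, mul_comm (lo _ _ _ _) (fam _ _ _ _)] at h2
      rw [mul_comm (lo _ _ _ _) (fam _ _ _ _)] at h1
      have l1 : lo P.ra P.rb i 0 ≤ 2 ^ 46 :=
        (lo_mono hb hab.le (n := 2 * P.W) (by omega)).trans hlo.le
      have l2 : lo P.ra P.rb 0 i ≤ 2 ^ 46 :=
        (lo_mono hb hab.le (n := 2 * P.W) (by omega)).trans hlo.le
      exact (h1.weaken (by omega) (Nat.mul_le_mul_right _ l1)).add
        (h2.weaken (by omega) (Nat.mul_le_mul_right _ l2))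
  have hw : ∑ i ∈ range (P.V + 1), (2 ^ 46 * famW P.V BS g i + 2 ^ 46 * famW P.V BS g i) <
      2 ^ 104 := by
    rw [sum_add_distrib, ← mul_sum, sum_famW]; omega
  obtain ⟨Θ', h1, h2⟩ := h.trunc (o1 := 0) (o2 := 0) (e := 32) (c := 42)
    (n1 := 1) (n2 := 2 * P.V + 1) (by norm_num) (by omega) hw (by omega) (by norm_num)
  refine ⟨Θ', ?_, fun H hom hH => ?_⟩
  · rw [expP_eq, expR_eq, sumLt_eq]
    rw [ones_one (B := 104 * P.S) (by omega), mul_one, zero_mul, zero_add, mul_zero,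
      zero_add] at h1
    exact h1.weaken (by omega) (by omega)
  · have hnn : ∀ b : ℤ, 0 ≤ vec ((P.ra : ℝ) / P.rb) 0 b * ed0 := fun b =>
      mul_nn (vec_nonneg hr _ _) exp_ed0_nn
    have h3 := h2 (fun _ j => H (vec ((P.ra : ℝ) / P.rb) 0 ((j : ℤ) - P.V) * ed0))
      fun a b => hH _ (hnn _)
    simp only [add_zero] at h3
    refine le_of_mul_le_mul_left (h3.trans ?_) (by positivity : (0 : ℝ) < 2 ^ 32)
    rw [← six_sum, mul_sum]
    refine sum_le_sum fun i hi => ?_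
    have hi' : i < P.V + 1 := mem_range.1 hi
    have hR := rp_fam P.S P.V BS g hi'
    rw [← hR.map_smul, ← hR.map_smul, ← hR.map_smul, ← hR.map_add]
    refine hR.mono fun _ b => ?_
    rw [vec_ed0 hr (-(i : ℤ)), vec_ed0 hr (i : ℤ), hom _ _ (by positivity) (hnn _),
      hom _ _ (by positivity) (hnn _), mul_add, ← mul_assoc, ← mul_assoc, Nat.cast_add]
    have l1 := lo_le hb ha i 0
    have l2 := lo_le hb ha 0 i
    simp only [Nat.cast_zero, sub_zero, zero_sub] at l1 l2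
    rw [neg_neg]
    exact add_le_add (mul_le_mul_of_nonneg_right l1 (hH _ (hnn _)))
      (mul_le_mul_of_nonneg_right l2 (hH _ (hnn _)))

theorem le1_expZ {P : Par} (hP : parOK P = true) {BS g : ℕ} (hz : dg BS g 1 ≤ 2 ^ 42) :
    Le1 ((P.ra : ℝ) / P.rb) P.S P.V (expZ P BS g) (2 * P.V) (2 ^ 41) (exE BS g) := by
  have _ := hP
  have hs := Rp.single 104 P.S (dg BS g 1 / 3) 0 P.V
  rw [zero_mul, zero_add] at hs
  rw [expZ_eq, dgf_eq]
  refine ⟨_, hs.weaken (by omega) (by omega), fun H _ _ => le_of_eq ?_⟩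
  have e : ed0 * ed0 = ed0 := by
    funext i; fin_cases i <;> simp [ed0]
  simp only [sub_self, vec_zero, exE, one_mul, e]
  field_simp

end Vale.Agent.P154
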