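import Vale.Agent.P154.Rp
import Vale.Agent.P154.Fun

namespace Vale.Agent.P154

theorem hor_ed0_sq : ed0 * ed0 = ed0 := by
  funext i; fin_cases i <;> simp [ed0]

theorem hor_ed0_nn : (0 : V 3) ≤ ed0 := by
  intro i; fin_cases i <;> simp [ed0]

theorem hor_mul2 {r : ℝ} (hr : 0 < r) {S o o' N N' cb cb' t t' : ℕ} {Φ Φ' : Fn 3}
    (h : Le2 r S o N cb t Φ) (h' : Le2 r S o' N' cb' t' Φ') (hΦ' : PosF Φ') :
    ∃ Θ, Rp 104 S (N * N') (cb + cb') (t * t') Θ ∧ ∀ H : V 3 → ℝ, (∀ w : V 3, 0 ≤ w → 0 ≤ H w) →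
      Θ (fun i j => H (vec r ((i : ℤ) - o - o') ((j : ℤ) - o - o'))) ≤
        2 ^ 40 * (2 ^ 40 * ten Φ Φ' H) := by
  obtain ⟨Θ, h1, h2⟩ := h
  obtain ⟨Θ', h1', h2'⟩ := h'
  refine ⟨_, h1.mul h1', fun H hH => ?_⟩
  have hK : ∀ x : V 3, 0 ≤ x → 0 ≤ Φ' fun w => H (x * w) := fun x hx =>
    hΦ'.nonneg fun w hw => hH _ (mul_nn hx hw)
  calc Θ (fun a b => Θ' fun a' b' =>
          H (vec r (((a + a' : ℕ) : ℤ) - o - o') (((b + b' : ℕ) : ℤ) - o - o')))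
      ≤ Θ (fun a b => 2 ^ 40 * Φ' fun w => H (vec r ((a : ℤ) - o) ((b : ℤ) - o) * w)) := by
        refine h1.mono fun a b => ?_
        refine le_of_eq_of_le ?_ (h2' (fun w => H (vec r ((a : ℤ) - o) ((b : ℤ) - o) * w))
          fun w hw => hH _ (mul_nn (vec_nonneg hr _ _) hw))
        congr 1
        funext a' b'
        rw [← vec_add hr]
        congr 2 <;> push_cast <;> ring
    _ = 2 ^ 40 * Θ (fun a b => Φ' fun w => H (vec r ((a : ℤ) - o) ((b : ℤ) - o) * w)) :=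
        h1.map_smul _ _
    _ ≤ 2 ^ 40 * (2 ^ 40 * ten Φ Φ' H) :=
        mul_le_mul_of_nonneg_left (h2 (fun x => Φ' fun w => H (x * w)) hK) (by positivity)

theorem hor_mul1 {r : ℝ} (hr : 0 < r) {S o o' N N' cb cb' t t' : ℕ} {Φ Φ' : Fn 3}
    (h : Le1 r S o N cb t Φ) (h' : Le1 r S o' N' cb' t' Φ') (hΦ' : PosF Φ') :
    ∃ Θ, Rp 104 S (N * N') (cb + cb') (t * t') Θ ∧ ∀ H : V 3 → ℝ, Hom H →
      (∀ w : V 3, 0 ≤ w → 0 ≤ H w) →
      Θ (fun _ j => H (vec r 0 ((j : ℤ) - o - o') * ed0)) ≤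
        2 ^ 40 * (2 ^ 40 * ten Φ Φ' fun w => H (w * ed0)) := by
  obtain ⟨Θ, h1, h2⟩ := h
  obtain ⟨Θ', h1', h2'⟩ := h'
  refine ⟨_, h1.mul h1', fun H hom hH => ?_⟩
  have hK : ∀ x : V 3, 0 ≤ x → 0 ≤ Φ' fun w => H (x * (w * ed0)) := fun x hx =>
    hΦ'.nonneg fun w hw => hH _ (mul_nn hx (mul_nn hw hor_ed0_nn))
  have hKh : Hom fun x => Φ' fun w => H (x * (w * ed0)) := by
    intro s x hs hx
    show (Φ' fun w => H ((s • x) * (w * ed0))) = s * Φ' fun w => H (x * (w * ed0))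
    rw [← hΦ'.smul]
    refine hΦ'.congr fun w hw => ?_
    rw [smul_mul_assoc, hom _ _ hs (mul_nn hx (mul_nn hw hor_ed0_nn))]
  calc Θ (fun _ b => Θ' fun _ b' => H (vec r 0 (((b + b' : ℕ) : ℤ) - o - o') * ed0))
      ≤ Θ (fun _ b => 2 ^ 40 * Φ' fun w => H ((vec r 0 ((b : ℤ) - o) * ed0) * (w * ed0))) := by
        refine h1.mono fun _ b => ?_
        have hx : 0 ≤ vec r 0 ((b : ℤ) - o) * ed0 := mul_nn (vec_nonneg hr _ _) hor_ed0_nn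
        refine le_of_eq_of_le ?_ (h2' (fun w => H ((vec r 0 ((b : ℤ) - o) * ed0) * w))
          (fun s w hs hw => ?_) fun w hw => hH _ (mul_nn hx hw))
        · congr 1
          funext _ b'
          rw [mul_mul_mul_comm, hor_ed0_sq, ← vec_add hr]
          congr 3
          push_cast; ring
        · show H (_ * (s • w)) = s * H (_ * w)
          rw [mul_smul_comm, hom _ _ hs (mul_nn hx hw)]
    _ = 2 ^ 40 * Θ (fun _ b => Φ' fun w => H ((vec r 0 ((b : ℤ) - o) * ed0) * (w * ed0))) :=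
        h1.map_smul _ _
    _ ≤ 2 ^ 40 * (2 ^ 40 * ten Φ Φ' fun w => H (w * ed0)) := by
        refine mul_le_mul_of_nonneg_left ?_ (by positivity)
        refine (h2 (fun x => Φ' fun w => H (x * (w * ed0))) hKh hK).trans (le_of_eq ?_)
        unfold ten
        simp only [mul_mul_mul_comm _ ed0 _ ed0, hor_ed0_sq]

theorem hor_tr2 {P : Par} (hP : parOK P = true) {r : ℝ} (hr : 0 < r) {N t : ℕ} (ht : t < 2 ^ 104)
    {Θ : (ℕ → ℕ → ℝ) → ℝ} (h : Rp 104 P.S N (2 * P.V + 2 * P.W) t Θ) {Φ : Fn 3}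
    (hΦ : ∀ H : V 3 → ℝ, (∀ w : V 3, 0 ≤ w → 0 ≤ H w) →
      Θ (fun i j => H (vec r ((i : ℤ) - P.V - P.W) ((j : ℤ) - P.V - P.W))) ≤
        2 ^ 40 * (2 ^ 40 * Φ H)) :
    Le2 r P.S P.W (tr2 P N) (2 * P.W) (2 ^ 57) Φ := by
  obtain ⟨-, -, -, -, hS, -, hW, -⟩ := parOK_iff.1 hP
  obtain ⟨Θ', h1, h2⟩ := h.trunc (o1 := P.V) (o2 := P.V) (e := 40) (c := 41)
    (n1 := 2 * P.W + 1) (n2 := 2 * P.W + 1) (by norm_num) (by omega) ht (by omega) (by norm_num)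
  refine ⟨Θ', ?_, fun H hH => ?_⟩
  · rw [tr2_eq]
    refine h1.weaken (by omega) ?_
    have : (2 * P.W + 1) * (2 * P.W + 1) ≤ 255 * 255 := Nat.mul_le_mul (by omega) (by omega)
    omega
  · have h3 := (h2 _ fun a b => hH _ (vec_nonneg hr _ _)).trans (hΦ H hH)
    have e : (fun a b : ℕ => H (vec r (((a + P.V : ℕ) : ℤ) - P.V - P.W)
        (((b + P.V : ℕ) : ℤ) - P.V - P.W))) =
        fun a b : ℕ => H (vec r ((a : ℤ) - P.W) ((b : ℤ) - P.W)) := by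
      funext a b
      congr 2 <;> push_cast <;> ring
    rw [e] at h3
    exact le_of_mul_le_mul_left h3 (by positivity)

theorem hor_tr1 {P : Par} (hP : parOK P = true) {r : ℝ} (hr : 0 < r) {N t : ℕ} (ht : t < 2 ^ 104)
    {Θ : (ℕ → ℕ → ℝ) → ℝ} (h : Rp 104 P.S N (2 * P.V + 2 * P.W) t Θ) {Φ : Fn 3}
    (hΦ : ∀ H : V 3 → ℝ, Hom H → (∀ w : V 3, 0 ≤ w → 0 ≤ H w) →
      Θ (fun _ j => H (vec r 0 ((j : ℤ) - P.V - P.W) * ed0)) ≤
        2 ^ 40 * (2 ^ 40 * Φ fun w => H (w * ed0))) :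
    Le1 r P.S P.W (tr1 P N) (2 * P.W) (2 ^ 50) Φ := by
  obtain ⟨-, -, -, -, hS, -, hW, -⟩ := parOK_iff.1 hP
  obtain ⟨Θ', h1, h2⟩ := h.trunc (o1 := 0) (o2 := P.V) (e := 40) (c := 42)
    (n1 := 1) (n2 := 2 * P.W + 1) (by norm_num) (by omega) ht (by omega) (by norm_num)
  refine ⟨Θ', ?_, fun H hom hH => ?_⟩
  · rw [tr1_eq]
    rw [ones_one (B := 104 * P.S) (by omega), mul_one, zero_mul, zero_add] at h1
    exact h1.weaken (by omega) (by omega)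
  · have h3 := (h2 _ fun a b => hH _ (mul_nn (vec_nonneg hr _ _) hor_ed0_nn)).trans (hΦ H hom hH)
    have e : (fun _ b : ℕ => H (vec r 0 (((b + P.V : ℕ) : ℤ) - P.V - P.W) * ed0)) =
        fun _ b : ℕ => H (vec r 0 ((b : ℤ) - P.W) * ed0) := by
      funext a b
      congr 3
      push_cast; ring
    rw [e] at h3
    exact le_of_mul_le_mul_left h3 (by positivity)

theorem hor_sound {P : Par} (hP : parOK P = true) {Φ Ψ : Fn 3} (hΦ : PosF Φ) (hΨ : PosF Ψ)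
    {A A1 Z : ℕ} (hA : Le2 ((P.ra : ℝ) / P.rb) P.S P.V A (2 * P.V) (2 ^ 41) Φ)
    (hA1 : Le1 ((P.ra : ℝ) / P.rb) P.S P.V A1 (2 * P.V) (2 ^ 49) Φ)
    (hZ : Le1 ((P.ra : ℝ) / P.rb) P.S P.V Z (2 * P.V) (2 ^ 41) Ψ)
    (ps : List ℕ) (hps : ∀ p ∈ ps, p ≤ 2 ^ 40) :
    Le2 ((P.ra : ℝ) / P.rb) P.S P.W (horI P A ps) (2 * P.W) (2 ^ 58) (hF Φ ps) ∧
      Le1 ((P.ra : ℝ) / P.rb) P.S P.W (horP P A1 ps) (2 * P.W) (2 ^ 51) (hF Φ ps) ∧
      Le1 ((P.ra : ℝ) / P.rb) P.S P.W (horJ P A1 Z ps) (2 * P.W) (2 ^ 51) (hE Φ Ψ ps) := by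
  have hr : (0 : ℝ) < (P.ra : ℝ) / P.rb := by
    obtain ⟨h1, h2, -⟩ := parOK_iff.1 hP
    exact div_pos (Nat.cast_pos.2 (by omega)) (Nat.cast_pos.2 h1)
  generalize (P.ra : ℝ) / P.rb = r at *
  induction ps with
  | nil =>
    refine ⟨⟨_, Rp.zero _ _ _ _, fun H _ => ?_⟩, ⟨_, Rp.zero _ _ _ _, fun H _ _ => ?_⟩,
      ⟨_, Rp.zero _ _ _ _, fun H _ _ => ?_⟩⟩ <;> simp [hF, hE]
  | cons p ps ih =>
    obtain ⟨i1, i2, i3⟩ := ih fun x hx => hps x (List.mem_cons_of_mem _ hx)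
    have hp : p ≤ 2 ^ 40 := hps p List.mem_cons_self
    have hF' := posF_hF hΦ ps
    have hE' := posF_hE hΦ hΨ ps
    refine ⟨?_, ?_, ?_⟩
    · obtain ⟨Θ, h1, h2⟩ := hor_mul2 hr hA i1 hF'
      obtain ⟨Θ', h3, h4⟩ := hor_tr2 hP hr (by norm_num) h1 h2
      rw [horI_cons, hI_eq]
      refine ⟨_, (h3.add ((Rp.single 104 P.S p P.W P.W).weaken (by omega) hp)).weaken le_rfl
        (by norm_num), fun H hH => ?_⟩
      have := h4 H hH
      simp only [sub_self, vec_zero, hF]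
      have e : (2 : ℝ) ^ 40 * ((p : ℝ) / 2 ^ 40 * H 1) = p * H 1 := by field_simp
      rw [mul_add, e]
      linarith
    · obtain ⟨Θ, h1, h2⟩ := hor_mul1 hr hA1 i2 hF'
      obtain ⟨Θ', h3, h4⟩ := hor_tr1 hP hr (by norm_num) h1 h2
      rw [horP_cons, hP_eq]
      have hs := Rp.single 104 P.S p 0 P.W
      rw [zero_mul, zero_add] at hs
      refine ⟨_, (h3.add (hs.weaken (by omega) hp)).weaken le_rfl
        (by norm_num), fun H hom hH => ?_⟩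
      have := h4 H hom hH
      simp only [sub_self, vec_zero, hF]
      have e : (2 : ℝ) ^ 40 * ((p : ℝ) / 2 ^ 40 * H (1 * ed0)) = p * H (1 * ed0) := by field_simp
      rw [mul_add, e]
      linarith
    · obtain ⟨Θ1, a1, b1⟩ := hor_mul1 hr hA1 i3 hE'
      obtain ⟨Θ2, a2, b2⟩ := hor_mul1 hr hZ i3 hE'
      obtain ⟨Θ3, a3, b3⟩ := hor_mul1 hr hZ i2 hF'
      rw [horJ_cons, hJ_eq, add_mul]
      obtain ⟨Θ', h3, h4⟩ := hor_tr1 (Φ := hE Φ Ψ (p :: ps)) hP hr (by norm_num)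
        ((a1.add a2).add a3) (fun H hom hH => by
          have c1 := b1 H hom hH
          have c2 := b2 H hom hH
          have c3 := b3 H hom hH
          simp only [hE]
          linarith)
      exact ⟨Θ', h3.weaken le_rfl (by norm_num), h4⟩

end Vale.Agent.P154
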