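import Vale.Agent.P154.Cvx

namespace Vale.Agent.P154

namespace Offs

theorem hexp (x : ℝ) : HasSum (fun k : ℕ => x ^ k / (k.factorial : ℝ)) (Real.exp x) := by
  rw [Real.exp_eq_exp_ℝ]
  exact NormedSpace.expSeries_div_hasSum_exp x

theorem reg (d : ℕ) (f : ℕ → ℝ) : HasSum (fun k => regular d k * f k) (f d) := by
  have := hasSum_single (f := fun k => regular d k * f k) d fun k hk => by simp [regular, hk]
  simpa [regular] using this

theorem poi (d z : ℝ) : HasSum (fun k => poisson d k * z ^ k) (Real.exp (d * (z - 1))) := by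
  rw [show d * (z - 1) = -d + d * z by ring, Real.exp_add]
  refine ((hexp (d * z)).mul_left _).congr_fun fun k => ?_
  rw [poisson, mul_pow]; ring

theorem exp_le {x : ℝ} (h0 : 0 ≤ x) (h1 : x ≤ 1) :
    Real.exp x ≤ 1 + x + x ^ 2 / 2 + 2 / 9 * x ^ 3 := by
  have := Real.exp_bound' h0 h1 (n := 3) (by norm_num)
  simp only [Finset.sum_range_succ, Finset.sum_range_zero, Nat.factorial] at this
  norm_num at this
  linarith

end Offs

open Offs

theorem prob_regular (d : ℕ) : Prob (regular d) :=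
  ⟨fun k => by unfold regular; split_ifs <;> norm_num, by simpa using reg d fun _ => 1⟩

theorem prob_poisson {d : ℝ} (hd : 0 ≤ d) : Prob (poisson d) :=
  ⟨fun k => by unfold poisson; positivity, by simpa using poi d 1⟩

theorem off_regular {d : ℕ} (hd : 2 ≤ d) : Off (regular d) d (1 - 1 / (d : ℝ)) := by
  refine ⟨prob_regular d, reg d _, (reg d _).summable, ?_, fun z hz h1 => ⟨(reg d _).summable, ?_⟩⟩
  · simp [regular, show 0 ≠ d by omega, show 1 ≠ d by omega]
  rw [(reg d fun k => (1 + z) ^ k - 1 - k * z).tsum_eq]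
  have hd0 : (0 : ℝ) < d := by exact_mod_cast (by omega : 0 < d)
  have h2 := Finset.single_le_sum (s := Finset.range (d + 1))
    (f := fun j => (d * z) ^ j / (j.factorial : ℝ) - z ^ j * 1 ^ (d - j) * d.choose j)
    (fun j _ => by
      have := mul_le_mul_of_nonneg_left (Nat.choose_le_pow_div (α := ℝ) j d) (pow_nonneg hz j)
      rw [one_pow, mul_one, mul_pow, mul_comm ((d : ℝ) ^ j), mul_div_assoc]
      linarith)
    (Finset.mem_range.2 (by omega : 2 < d + 1))
  rw [Finset.sum_sub_distrib, ← add_pow, Nat.cast_choose_two, add_comm z] at h2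
  have h3 := Real.sum_le_exp_of_nonneg (show 0 ≤ d * z by positivity) (d + 1)
  have h4 := exp_le (show 0 ≤ d * z by positivity) h1
  have h5 : (1 - 1 / (d : ℝ)) * (d * z) ^ 2 / 2 = z ^ 2 * (d * (d - 1) / 2) := by field_simp
  simp only [Nat.factorial, one_pow, mul_one] at h2
  norm_num at h2
  rw [h5]
  linarith

theorem off_poisson {d : ℝ} (hd : 0 < d) : Off (poisson d) d 1 := by
  have hp := prob_poisson hd.le
  have hm : HasSum (fun k : ℕ => poisson d k * k) d := by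
    rw [← hasSum_nat_add_iff' 1]
    simp only [Finset.range_one, Finset.sum_singleton, Nat.cast_zero, mul_zero, sub_zero]
    have := hp.2.mul_left d
    rw [mul_one] at this
    refine this.congr_fun fun k => ?_
    simp only [poisson, Nat.factorial_succ]
    push_cast
    field_simp
    ring
  refine ⟨hp, hm, ?_, ?_, fun z hz h1 => ⟨(poi d _).summable, ?_⟩⟩
  · refine (poi d 4).summable.of_nonneg_of_le (fun k => mul_nonneg (hp.1 k) (sq_nonneg _))
      fun k => mul_le_mul_of_nonneg_left ?_ (hp.1 k)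
    have : (k : ℝ) ≤ 2 ^ k := by exact_mod_cast Nat.lt_two_pow_self.le
    calc (k : ℝ) ^ 2 ≤ (2 ^ k) ^ 2 := by gcongr
      _ = 4 ^ k := by rw [← pow_mul, mul_comm, pow_mul]; norm_num
  · have h1 := Real.add_one_lt_exp hd.ne'
    have h2 := Real.exp_pos (-d)
    have h3 : Real.exp (-d) * Real.exp d = 1 := by rw [← Real.exp_add]; simp
    simp only [poisson, pow_zero, pow_one, Nat.factorial]
    norm_num
    nlinarith
  · have h2 := ((poi d (1 + z)).sub hp.2).sub (hm.mul_right z)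
    have h3 : HasSum (fun k : ℕ => poisson d k * ((1 + z) ^ k - 1 - k * z)) _ :=
      h2.congr_fun fun k => by ring
    rw [h3.tsum_eq, add_sub_cancel_left]
    linarith [exp_le (mul_nonneg hd.le hz) h1]

variable {q : ℕ} [NeZero q]

theorem Offs.pw_comb {A : Fn q} (hA : IsLaw A) {w : ℝ} (h0 : 0 ≤ w) (h1 : w ≤ 1) (k : ℕ)
    {φ : V q → ℝ} (hφ : Bd φ) : pw (fun ψ => w * A ψ + (1 - w) * unit ψ) k φ =
      ∑ x ∈ Finset.HasAntidiagonal.antidiagonal k, k.choose x.1 * (w ^ x.1 * (1 - w) ^ x.2 * pw A x.1 φ) := by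
  induction k generalizing φ with
  | zero => simp [pw]
  | succ k ih =>
    obtain ⟨C, hC⟩ := hφ.hat_mul
    have hM := (hA.comb IsLaw.unit h0 h1).pw k
    have hb : ∀ j, Bd fun a => pw A j fun b => hat φ (a * b) := fun j =>
      (hA.pw j).bd_inner (F := fun a b => hat φ (a * b)) ⟨C, hC⟩
    have e1 : (pw (fun ψ => w * A ψ + (1 - w) * unit ψ) k fun b => hat φ (1 * b)) =
        pw (fun ψ => w * A ψ + (1 - w) * unit ψ) k φ :=
      hM.congr ⟨C, hC 1 one_mem_Sx⟩ fun a ha => by rw [one_mul, hat_of_mem _ ha]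
    have e2 : (A fun a => pw (fun ψ => w * A ψ + (1 - w) * unit ψ) k fun b => hat φ (a * b)) =
        ∑ x ∈ Finset.HasAntidiagonal.antidiagonal k,
          k.choose x.1 * (w ^ x.1 * (1 - w) ^ x.2) * pw A (x.1 + 1) φ := by
      rw [hA.congr (hM.bd_inner (F := fun a b => hat φ (a * b)) ⟨C, hC⟩)
        (ψ := fun a => ∑ x ∈ Finset.HasAntidiagonal.antidiagonal k,
          k.choose x.1 * (w ^ x.1 * (1 - w) ^ x.2) * pw A x.1 fun b => hat φ (a * b))
        (fun a ha => by simp only [ih ⟨C, hC a ha⟩, mul_assoc]),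
        hA.sum _ fun x _ => (Bd.const _).mul (hb _)]
      exact Finset.sum_congr rfl fun x _ => hA.smul _ _ (hb _)
    rw [Finset.sum_antidiagonal_choose_succ_mul
      (fun i j => w ^ i * (1 - w) ^ j * pw A i φ)]
    change w * (A fun a => pw (fun ψ => w * A ψ + (1 - w) * unit ψ) k fun b => hat φ (a * b)) +
      (1 - w) * (pw (fun ψ => w * A ψ + (1 - w) * unit ψ) k fun b => hat φ (1 * b)) = _
    rw [e1, e2, ih hφ, Finset.mul_sum, Finset.mul_sum, add_comm]
    symm
    congr 1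
    · exact Finset.sum_congr rfl fun x _ => by ring
    · refine Finset.sum_congr rfl fun x hx => ?_
      rw [Nat.choose_symm_of_eq_add (Finset.HasAntidiagonal.mem_antidiagonal.1 hx).symm]
      ring

/-- thinning of a compound Poisson law -/
theorem thin {A : Fn q} (hA : IsLaw A) {d w : ℝ} (hd : 0 ≤ d) (h0 : 0 ≤ w) (h1 : w ≤ 1)
    {φ : V q → ℝ} (hφ : Bd φ) :
    mix (poisson d) (pw fun ψ => w * A ψ + (1 - w) * unit ψ) φ =
      mix (poisson (w * d)) (pw A) φ := by
  have hp1 := prob_poisson (mul_nonneg h0 hd)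
  have hp2 := prob_poisson (mul_nonneg (sub_nonneg.2 h1) hd)
  have h := tsum_mul_tsum_eq_tsum_sum_antidiagonal_of_summable_norm
    (summable_mix hp1 hA.pw hφ).norm hp2.2.summable.norm
  rw [hp2.2.tsum_eq, mul_one] at h
  unfold mix
  rw [h]
  refine tsum_congr fun k => ?_
  rw [Offs.pw_comb hA h0 h1 k hφ, Finset.mul_sum]
  refine Finset.sum_congr rfl fun x hx => ?_
  obtain ⟨i, j⟩ := x
  obtain rfl : i + j = k := Finset.HasAntidiagonal.mem_antidiagonal.1 hx
  simp only [poisson, Nat.cast_add_choose]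
  rw [show -d = -(w * d) + -((1 - w) * d) by ring, Real.exp_add, mul_pow, mul_pow, pow_add]
  field_simp

theorem Offs.adm {u : ℝ} (h0 : 0 ≤ u) (h1 : u ≤ 1 / 2) : Adm 3 (-u) :=
  ⟨by push_cast; linarith, by linarith⟩

theorem Offs.cvx {P : Fn 3} (hP : IsLaw P) {u v t : ℝ} (hu : Adm 3 u) (hv : Adm 3 v) (t0 : 0 ≤ t)
    (t1 : t ≤ 1) {G : V 3 → ℝ} (hG : Sub G) :
    Mop (t * u + (1 - t) * v) P G ≤ t * Mop u P G + (1 - t) * Mop v P G := by
  have hw : Adm 3 (t * u + (1 - t) * v) := by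
    obtain ⟨a1, a2⟩ := hu
    obtain ⟨b1, b2⟩ := hv
    constructor <;> nlinarith
  have b1 := hG.bd.Mv hu
  have b2 := hG.bd.Mv hv
  unfold Mop
  rw [← hP.smul _ _ b1, ← hP.smul _ _ b2, ← hP.add _ _ ((Bd.const _).mul b1) ((Bd.const _).mul b2)]
  refine hP.mono _ _ (hG.bd.Mv hw) (((Bd.const _).mul b1).add ((Bd.const _).mul b2))
    fun a ha => ?_
  have e : Mv (t * u + (1 - t) * v) a = t • Mv u a + (1 - t) • Mv v a := by
    ext i; simp only [Mv, Pi.add_apply, Pi.smul_apply, smul_eq_mul]; ring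
  have p1 := Mv_nonneg hu (a := a) ha.1
  have p2 := Mv_nonneg hv (a := a) ha.1
  rw [e, ← hG.2 _ _ t0 p1, ← hG.2 _ _ (sub_nonneg.2 t1) p2]
  exact hG.1 _ _ (smul_nonneg t0 p1) (smul_nonneg (sub_nonneg.2 t1) p2)

theorem cx_Mop_neg {P : Fn 3} (hP : IsLaw P) {l l1 : ℝ} (hl : 0 ≤ l) (hll : l ≤ l1)
    (hl1 : l1 ≤ 1 / 2) : Cx (Mop (-l) P) (Mop (-l1) P) := by
  intro G hG
  rcases (hl.trans hll).eq_or_lt with h | h
  · rw [show l = l1 by linarith]
  have a1 := Offs.adm h.le hl1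
  have a0 : Adm 3 0 := ⟨by norm_num, by norm_num⟩
  have t0 : 0 ≤ l / l1 := by positivity
  have t1 : l / l1 ≤ 1 := (div_le_one h).2 hll
  have h1 := Offs.cvx hP a1 a0 t0 t1 hG
  rw [show l / l1 * -l1 + (1 - l / l1) * 0 = -l by field_simp; ring] at h1
  have h2 : Mop 0 P G = G 1 := by
    rw [← hP.const (G 1)]
    refine hP.congr (hG.bd.Mv a0) fun a ha => ?_
    congr 1
    ext i
    simp [Mv, Sx.av ha]
  have h3 := (hP.Mop a1).jen G hG
  rw [h2] at h1
  nlinarith

/-- a two-channel mixture at a larger rate dominates -/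
theorem cx_two {P : Fn 3} (hP : IsLaw P) {d d1 d2 l l1 : ℝ} (hd : 0 < d) (hd1 : 0 < d1)
    (h12 : d1 ≤ d2) (hd2 : d ≤ d2) (hl : 0 ≤ l) (hll : l ≤ l1) (hl1 : l1 ≤ 1 / 2)
    (hc : d * (2 * l - l1) ≤ d1 * l1) :
    Cx (mix (poisson d) (pw (Mop (-l) P)))
      (mix (poisson d2) (pw fun ψ => d1 / d2 * Mop (-l1) P ψ +
        (1 - d1 / d2) * Mop (-(l1 / 2)) P ψ)) := by
  have h2 : 0 < d2 := hd.trans_le hd2
  have a0 := Offs.adm hl (hll.trans hl1)
  have a1 := Offs.adm (hl.trans hll) hl1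
  have a2 := Offs.adm (u := l1 / 2) (by linarith) (by linarith)
  have w0 : 0 ≤ d / d2 := by positivity
  have w1 : d / d2 ≤ 1 := (div_le_one h2).2 hd2
  have v0 : 0 ≤ d1 / d2 := by positivity
  have v1 : d1 / d2 ≤ 1 := (div_le_one h2).2 h12
  have L1 := (hP.Mop a0).comb IsLaw.unit w0 w1
  have L2 := (hP.Mop a1).comb (hP.Mop a2) v0 v1
  intro G hG
  have h := thin (hP.Mop a0) h2.le w0 w1 hG.bd
  rw [div_mul_cancel₀ _ h2.ne'] at h
  rw [← h]
  refine Cx.mix (prob_poisson h2.le) L1.pw L2.pw (Cx.pw L1 L2 fun G hG => ?_) G hG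
  have e1 : unit G ≤ Mop (-(l1 / 2)) P G := (hP.Mop a2).jen G hG
  have e2 := cx_Mop_neg hP (l := l1 / 2) (l1 := l1) (by linarith) (by linarith) hl1 G hG
  rcases le_or_gt l (l1 / 2) with h3 | h3
  · have e3 := cx_Mop_neg hP hl h3 (by linarith) G hG
    nlinarith [mul_le_mul_of_nonneg_left e3 w0, mul_le_mul_of_nonneg_left e1 (sub_nonneg.2 w1),
      mul_le_mul_of_nonneg_left e2 v0]
  · have h4 : 0 < l1 := by linarith
    have g0 : 0 ≤ (2 * l - l1) / l1 := div_nonneg (by linarith) h4.le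
    have g1 : (2 * l - l1) / l1 ≤ 1 := (div_le_one h4).2 (by linarith)
    have e3 := Offs.cvx hP a1 a2 g0 g1 hG
    rw [show (2 * l - l1) / l1 * -l1 + (1 - (2 * l - l1) / l1) * -(l1 / 2) = -l by
      field_simp; ring] at e3
    have e4 : d / d2 * ((2 * l - l1) / l1) ≤ d1 / d2 := by
      rw [div_mul_div_comm, div_le_div_iff₀ (by positivity) h2]
      nlinarith
    nlinarith [mul_le_mul_of_nonneg_left e3 w0, mul_le_mul_of_nonneg_left e1 (sub_nonneg.2 w1),
      mul_le_mul_of_nonneg_right e4 (sub_nonneg.2 e2)]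

end Vale.Agent.P154
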