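import Vale.Agent.P154.Mst
import Vale.Agent.P154.Exp
import Vale.Agent.P154.Hor
import Vale.Agent.P154.Offs

namespace Vale.Agent.P154

variable {lam : ℝ} {p : ℕ → ℝ} {c : Chn}

theorem St.anti {r : ℝ} (hr : 0 < r) {U : ℕ} {f f' : ℕ → ℕ} {A : Fn 3} (h : St r U f A)
    (hf : ∀ u < (U + 1) * (U + 1) + 2, f' u ≤ f u) : St r U f' A := by
  intro G hG hS
  refine (h G hG hS).trans (add_le_add (Finset.sum_le_sum fun i hi =>
    Finset.sum_le_sum fun j hj => ?_) ?_)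
  · have hi' := Finset.mem_range.1 hi
    have hj' := Finset.mem_range.1 hj
    have : i * (U + 1) ≤ U * (U + 1) := Nat.mul_le_mul_right _ (by omega)
    refine mul_le_mul_of_nonpos_right (Nat.cast_le.2 (hf _ ?_)) (hG.2 _ (vec_nonneg hr _ _))
    rw [add_mul U 1 (U + 1)]
    omega
  · exact mul_le_mul_of_nonpos_right (Nat.cast_le.2 (hf _ (by omega))) (hG.2 _ exp_ed0_nn)

theorem St.of_leSt {r : ℝ} (hr : 0 < r) {U g1 g : ℕ} {A : Fn 3} (h : St r U (dg 112 g) A)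
    (hf : leSt U g1 g = true) : St r U (dg 41 g1) A := by
  rw [leSt_eq, allLt_iff] at hf
  refine h.anti hr fun u hu => ?_
  have := hf u hu
  rwa [Nat.ble_eq, dgf_eq, dgf_eq] at this

theorem St.of_zero (r : ℝ) (U B : ℕ) {A : Fn 3} (hA : IsLaw A) : St r U (dg B 0) A := by
  intro G hG _
  have h1 : A G ≤ 0 := by
    rw [← hA.const 0]
    exact hA.mono _ _ hG.1.bd (Bd.const _) fun a ha => hG.2 a ha.1
  have h2 : stv r U (dg B 0) G = 0 := by simp [stv, dg]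
  rw [h2]
  exact mul_nonpos_of_nonneg_of_nonpos (by positivity) h1

theorem step_sound (hl : Adm 3 lam) (hp : Prob p) (hd : Dom lam p c)
    {ra rb V W sa sb U BS g n : ℕ} (hP : parOK (mkP c ra rb V W sa sb U) = true)
    (h : St ((ra : ℝ) / rb) V (dg BS g) (MixC c.ln c.ld c.wn c.wd (seq lam p n))) :
    St ((sa : ℝ) / sb) U (dg 112 (step (mkP c ra rb V W sa sb U) BS g))
      (MixC c.ln c.ld c.wn c.wd (seq lam p (n + 1))) := by
  obtain ⟨hb, hab, -, -, -, -, -, -, -, -, h1, h2, h3, h4, hps⟩ := parOK_iff.1 hP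
  have hr : (0 : ℝ) < (ra : ℝ) / rb :=
    div_pos (Nat.cast_pos.2 (lt_trans hb hab)) (Nat.cast_pos.2 hb)
  obtain ⟨p', hp', hq, hcx⟩ := hd
  have hL : ∀ m, IsLaw (seq lam p m : Fn 3) := fun m => IsLaw.seq hl hp m
  have hM : ∀ m, IsLaw (MixC c.ln c.ld c.wn c.wd (seq lam p m)) := fun m =>
    isLaw_MixC h1 h2 h3 h4 (hL m)
  rw [step_eq]
  cases hc : (Nat.ble (6 * totG (mkP c ra rb V W sa sb U).V BS g) (2 ^ 41) &&
      Nat.ble (dgf BS g 1) (2 ^ 42)) with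
  | false => exact St.of_zero _ _ _ (hM _)
  | true =>
    rw [Bool.and_eq_true, Nat.ble_eq, Nat.ble_eq, dgf_eq] at hc
    have hF1 := posF_exF hr V BS g
    have hE1 := posF_exE BS g
    have hS1 := symF_exF ((ra : ℝ) / rb) V BS g
    have hb1 := bnd_horner (hM n) hF1 hE1 hS1 (bnd_ex hr (hM n) h) hp' c.ps hq
    have hb2 := Bnd.of_cx (hcx _ (hL n)) hb1
    obtain ⟨a1, -, a3⟩ := hor_sound hP hF1 hE1 (le2_expI hP hc.1) (le1_expP hP hc.1)
      (le1_expZ hP hc.2) c.ps hps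
    exact mstep_sound hP (hL (n + 1)) (posF_hF hF1 _) (posF_hE hF1 hE1 _) (symF_hF hS1 _) hb2
      a1 a3

theorem iter_sound (hl : Adm 3 lam) (hp : Prob p) (hd : Dom lam p c)
    {W sa sb U : ℕ} (hP : parOK (mkP c sa sb U W sa sb U) = true) (k : ℕ) {g n : ℕ}
    (h : St ((sa : ℝ) / sb) U (dg 112 g) (MixC c.ln c.ld c.wn c.wd (seq lam p n))) :
    St ((sa : ℝ) / sb) U (dg 112 (iter (mkP c sa sb U W sa sb U) k g))
      (MixC c.ln c.ld c.wn c.wd (seq lam p (n + k))) := by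
  induction k generalizing g n with
  | zero => exact h
  | succ k ih =>
    rw [iter_succ, show n + (k + 1) = n + 1 + k by omega]
    exact ih (step_sound hl hp hd hP h)

theorem run_pos {ra rb V W sa sb U : ℕ} (hP : parOK (mkP c ra rb V W sa sb U) = true) :
    (0 : ℝ) < (sa : ℝ) / sb := by
  obtain ⟨-, -, hb, hab, -⟩ := parOK_iff.1 hP
  exact div_pos (Nat.cast_pos.2 (lt_trans hb hab)) (Nat.cast_pos.2 hb)

theorem reach_init (hl : Adm 3 lam) (hp : Prob p) (hd : Dom lam p c) {sa sb U W n g1 : ℕ}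
    (h : iniOK c sa sb U W n g1 = true) : Reach lam p c sa sb U g1 := by
  rw [iniOK, Bool.and_eq_true] at h
  exact ⟨0 + n, (iter_sound hl hp hd h.1 n
    (init_sound h.1 (IsLaw.seq hl hp 0))).of_leSt (run_pos h.1) h.2⟩

theorem reach_blk (hl : Adm 3 lam) (hp : Prob p) (hd : Dom lam p c)
    {ra rb V W0 sa sb U W n g g1 : ℕ} (h : blkOK c ra rb V W0 sa sb U W n g g1 = true)
    (h0 : Reach lam p c ra rb V g) : Reach lam p c sa sb U g1 := by
  rw [blkOK, Bool.and_eq_true, Bool.and_eq_true] at h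
  obtain ⟨m, hm⟩ := h0
  exact ⟨m + 1 + n, (iter_sound hl hp hd h.1.2 n
    (step_sound hl hp hd h.1.1 hm)).of_leSt (run_pos h.1.2) h.2⟩

theorem reach_end (hl : Adm 3 lam) (hp : Prob p) {sa sb U W g sn sd : ℕ}
    (h : endOK c sa sb U W g sn sd = true) (h0 : Reach lam p c sa sb U g) :
    ∃ n, seq lam p n (X2 : V 3 → ℝ) ≤ (sn : ℝ) / sd := by
  rw [endOK, Bool.and_eq_true, Bool.and_eq_true, Bool.and_eq_true, Nat.blt_eq, Nat.blt_eq] at h
  obtain ⟨m, hm⟩ := h0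
  exact ⟨m, gain_sound h.1.1.1 (IsLaw.seq hl hp m) h.1.1.2 h.1.2 hm h.2⟩

theorem run_half {ln ld : ℕ} (hld : 0 < ld) (h2 : 2 * ln ≤ ld) : (ln : ℝ) / ld ≤ 1 / 2 := by
  rw [div_le_div_iff₀ (Nat.cast_pos.2 hld) (by norm_num)]
  have : ((2 * ln : ℕ) : ℝ) ≤ ld := Nat.cast_le.2 h2
  push_cast at this
  linarith

theorem dom_reg {l : ℝ} {d ln ld : ℕ} (h0 : 0 ≤ l) (hld : 0 < ld) (h1 : l ≤ (ln : ℝ) / ld)
    (h2 : 2 * ln ≤ ld) : Dom (-l) (regular d) ⟨ln, ld, 1, 1, regL d⟩ := by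
  have hh := run_half hld h2
  refine ⟨regular d, prob_regular d, fun k => ?_, fun Q hQ => ?_⟩
  · show (((regL d).getD k 0 : ℕ) : ℝ) ≤ 2 ^ 40 * regular d k
    unfold regL regular
    rcases lt_trichotomy k d with h | h | h
    · rw [List.getD_append _ _ _ _ (by simpa using h), if_neg h.ne]
      simp [List.getD_eq_getElem?_getD, h]
    · subst h
      rw [List.getD_append_right _ _ _ _ (by simp), if_pos rfl]
      simp
      norm_num
    · rw [List.getD_eq_default _ _ (by simp; omega), if_neg h.ne']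
      simp
  · have e : MixC ln ld 1 1 Q = Mop (-((ln : ℝ) / ld)) Q := by
      funext ψ; simp [MixC]
    show Cx _ (mix (regular d) (pw (MixC ln ld 1 1 Q)))
    rw [e]
    have L1 := hQ.Mop (Offs.adm h0 (h1.trans hh))
    have L2 := hQ.Mop (Offs.adm (h0.trans h1) hh)
    exact Cx.mix (prob_regular d) L1.pw L2.pw (Cx.pw L1 L2 (cx_Mop_neg hQ h0 h1 hh))

theorem sqs_le (x n : ℕ) : (sqs n x : ℝ) ≤ 2 ^ 100 * ((x : ℝ) / 2 ^ 100) ^ (2 ^ n) := by
  induction n with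
  | zero => simp only [pow_zero, pow_one]; rw [mul_div_cancel₀ _ (by positivity)]; exact le_rfl
  | succ n ih =>
    have e : sqs (n + 1) x = (sqs n x * sqs n x) / 2 ^ 100 := Nat.shiftRight_eq_div_pow _ _
    rw [e, pow_succ 2 n, pow_mul]
    refine Nat.cast_div_le.trans ?_
    push_cast
    rw [div_le_iff₀ (by positivity)]
    have := mul_self_le_mul_self (Nat.cast_nonneg _) ih
    refine this.trans (le_of_eq ?_)
    ring

theorem expLo_aux (n x : ℕ) {t : ℝ} (ht : t ≤ ((2 ^ n : ℕ) : ℝ))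
    (hx : (x : ℝ) / 2 ^ 100 ≤ 1 - t / ((2 ^ n : ℕ) : ℝ)) :
    (sqs n x : ℝ) ≤ 2 ^ 100 * Real.exp (-t) :=
  (sqs_le x n).trans (mul_le_mul_of_nonneg_left ((pow_le_pow_left₀ (by positivity) hx _).trans
    (Real.one_sub_div_pow_le_exp_neg ht)) (by positivity))

theorem expLo_le {dn dd : ℕ} (hdd : 0 < dd) (h : dn ≤ 1000 * dd) :
    (expLo dn dd : ℝ) ≤ 2 ^ 100 * Real.exp (-((dn : ℝ) / dd)) := by
  have hd : (0 : ℝ) < dd := Nat.cast_pos.2 hdd
  have h1 : (dn : ℝ) / dd ≤ 1000 := by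
    rw [div_le_iff₀ hd]; exact_mod_cast h
  have h2 : 2 ^ 70 * dn / dd ≤ 2 ^ 70 * 1000 := by
    refine Nat.div_le_of_le_mul ?_
    calc 2 ^ 70 * dn ≤ 2 ^ 70 * (1000 * dd) := Nat.mul_le_mul_left _ h
      _ = _ := by ring
  have h3 : (2 : ℝ) ^ 70 * ((dn : ℝ) / dd) ≤ ((2 ^ 70 * dn / dd + 1 : ℕ) : ℝ) := by
    rw [← mul_div_assoc, div_le_iff₀ hd]
    have := Nat.lt_mul_div_succ (2 ^ 70 * dn) hdd
    rw [mul_comm dd] at this
    exact_mod_cast this.le
  refine expLo_aux 30 _ (h1.trans (by norm_num)) ?_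
  rw [Nat.cast_sub (by omega), div_le_iff₀ (by positivity)]
  generalize ((2 ^ 70 * dn / dd + 1 : ℕ) : ℝ) = y at h3
  push_cast
  linarith

theorem poisL_le {dn dd : ℕ} (hdd : 0 < dd) (h : dn ≤ 1000 * dd) (K k : ℕ) :
    (((poisL dn dd K).getD k 0 : ℕ) : ℝ) ≤ 2 ^ 40 * poisson ((dn : ℝ) / dd) k := by
  have hd : (0 : ℝ) < dd := Nat.cast_pos.2 hdd
  rcases lt_or_ge k (K + 1) with hk | hk
  · have e : (poisL dn dd K).getD k 0 =
        (expLo dn dd * dn ^ k / (dd ^ k * k.factorial)) / 2 ^ 60 := by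
      rw [← Nat.shiftRight_eq_div_pow]
      simp [poisL, List.getD_eq_getElem?_getD, hk]
    rw [e]
    refine Nat.cast_div_le.trans ?_
    have h1 : ((expLo dn dd * dn ^ k / (dd ^ k * k.factorial) : ℕ) : ℝ) ≤
        2 ^ 100 * poisson ((dn : ℝ) / dd) k := by
      refine Nat.cast_div_le.trans ?_
      push_cast
      unfold poisson
      have hf : (0 : ℝ) < k.factorial := Nat.cast_pos.2 k.factorial_pos
      rw [div_le_iff₀ (by positivity)]
      refine (mul_le_mul_of_nonneg_right (expLo_le hdd h) (by positivity)).trans (le_of_eq ?_)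
      rw [div_pow]
      field_simp
    push_cast
    rw [div_le_iff₀ (by positivity)]
    linarith
  · rw [List.getD_eq_default _ _ (by simpa [poisL] using hk)]
    unfold poisson
    push_cast
    positivity

theorem dom_poi {l d : ℝ} {ln ld wn wd dn dd K : ℕ} (h0 : 0 ≤ l) (hld : 0 < ld)
    (h1 : l ≤ (ln : ℝ) / ld) (h2 : 2 * ln ≤ ld) (hd : 0 < d) (hdd : 0 < dd)
    (hdn : dn ≤ 1000 * dd) (hd2 : d ≤ (dn : ℝ) / dd) (hw0 : 0 < wn) (hw : wn ≤ wd)
    (hc : d * (2 * l - (ln : ℝ) / ld) ≤ (dn : ℝ) / dd * wn / wd * ((ln : ℝ) / ld)) :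
    Dom (-l) (poisson d) ⟨ln, ld, wn, wd, poisL dn dd K⟩ := by
  have hh := run_half hld h2
  have h3 : (0 : ℝ) < (dn : ℝ) / dd := hd.trans_le hd2
  have hwn : (0 : ℝ) < wn := Nat.cast_pos.2 hw0
  have hwd : (0 : ℝ) < wd := Nat.cast_pos.2 (hw0.trans_le hw)
  have hw' : (wn : ℝ) ≤ wd := Nat.cast_le.2 hw
  refine ⟨poisson ((dn : ℝ) / dd), prob_poisson h3.le, fun k => poisL_le hdd hdn K k,
    fun Q hQ => ?_⟩
  have h12 : (dn : ℝ) / dd * wn / wd ≤ (dn : ℝ) / dd := by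
    rw [div_le_iff₀ hwd]
    exact mul_le_mul_of_nonneg_left hw' h3.le
  have h4 := cx_two hQ hd (by positivity) h12 hd2 h0 h1 hh hc
  have e : (dn : ℝ) / dd * wn / wd / ((dn : ℝ) / dd) = (wn : ℝ) / wd := by
    rw [mul_div_assoc, mul_div_cancel_left₀ _ h3.ne']
  rw [e] at h4
  exact h4

end Vale.Agent.P154
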