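import Vale.Agent.P154.KS
import Vale.Agent.P154.Conc
import Vale.Agent.P154.End3
import Vale.Agent.P154.Run
import Vale.Agent.P154.C3M0
import Vale.Agent.P154.C3M1
import Vale.Agent.P154.C3M2
import Vale.Agent.P154.C3M3
import Vale.Agent.P154.C3M4

namespace Vale.Agent.P154

open Filter Topology

theorem iff_of {q : ℕ} [NeZero q] (hq : 2 ≤ q) {lam : ℝ} (hl : Adm q lam) {p : ℕ → ℝ} {d ρ : ℝ}
    (hp : Off p d ρ)
    (h0 : d * lam ^ 2 ≤ 1 → Tendsto (fun n => seq lam p n (X2 : V q → ℝ)) atTop (𝓝 0)) :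
    (Recon (adv q lam p) ↔ 1 < d * lam ^ 2) ∧ (NonRecon (adv q lam p) ↔ d * lam ^ 2 ≤ 1) := by
  have e : adv q lam p = fun n => seq lam p n (tv : V q → ℝ) := funext (adv_eq hl hp.prob)
  rw [e]
  have h1 : d * lam ^ 2 ≤ 1 → NonRecon fun n => seq lam p n (tv : V q → ℝ) := fun h =>
    tv_tendsto_zero (fun n => IsLaw.seq hl hp.prob n) (h0 h)
  have h2 := recon_of_gt hq hl hp
  have h3 : ∀ a, Recon a → NonRecon a → False := fun a ⟨L, hL, t⟩ t0 =>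
    hL.ne' (tendsto_nhds_unique t t0)
  exact ⟨⟨fun h => not_le.1 fun h' => h3 _ h (h1 h'), h2⟩,
    ⟨fun h => not_lt.1 fun h' => h3 _ (h2 h') h, h1⟩⟩

theorem small3 {lam : ℝ} (h0 : -(19 / 100) ≤ lam) (h1 : lam ≤ 1) {p : ℕ → ℝ} {d ρ : ℝ}
    (hp : Off p d ρ) (hθ : d * lam ^ 2 ≤ 1) :
    Tendsto (fun n => seq lam p n (X2 : V 3 → ℝ)) atTop (𝓝 0) :=
  ferro3 c3m1_ok (by norm_num) c3m0_ok h0 h1 hp hθ

theorem fin_reg {d ln ld sa sb U W g sn sd : ℕ} (hd : 2 ≤ d) (hld : 0 < ld) (h2 : 2 * ln ≤ ld)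
    (hE : EndOK ((ln : ℝ) / ld) ((sn : ℝ) / sd) (1 - 1 / (d : ℝ)))
    (he : endOK ⟨ln, ld, 1, 1, regL d⟩ sa sb U W g sn sd = true)
    (hr : ∀ lam p, Adm 3 lam → Prob p → Dom lam p ⟨ln, ld, 1, 1, regL d⟩ →
      Reach lam p ⟨ln, ld, 1, 1, regL d⟩ sa sb U g)
    (hc : 2 * ln = ld ∨ ld * ld ≤ d * (ln * ln))
    {l : ℝ} (hl : 0 < l) (hl2 : l ≤ 1 / 2) (hθ : d * l ^ 2 ≤ 1) :
    Tendsto (fun n => seq (-l) (regular d) n (X2 : V 3 → ℝ)) atTop (𝓝 0) := by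
  have hld' : (0 : ℝ) < ld := Nat.cast_pos.2 hld
  have hd' : (2 : ℝ) ≤ d := Nat.ofNat_le_cast.2 hd
  have h1 : l ≤ (ln : ℝ) / ld := by
    rw [le_div_iff₀ hld']
    rcases hc with h | h
    · have : (2 : ℝ) * ln = ld := by exact_mod_cast h
      nlinarith
    · have h3 : (ld : ℝ) * ld ≤ d * (ln * ln) := by exact_mod_cast h
      refine (abs_le_of_sq_le_sq' ?_ (Nat.cast_nonneg _)).2
      have h4 : (d : ℝ) * (l * ld) ^ 2 ≤ d * (ln : ℝ) ^ 2 := by nlinarith [mul_pos hld' hld']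
      exact le_of_mul_le_mul_left h4 (by linarith)
  have ha : Adm 3 (-l) := ⟨by push_cast; linarith, by linarith⟩
  refine end3 c3m1_ok (by norm_num) c3m0_ok c3m2_ok c3m3_ok c3m4_ok hl h1 (run_half hld h2)
    (off_regular hd) ?_ le_rfl hθ (by positivity) hE
    (reach_end ha (prob_regular d) he (hr _ _ ha (prob_regular d) (dom_reg hl.le hld h1 h2)))
  rw [sub_nonneg, div_le_one (by linarith)]
  linarith

theorem fin_poi {ln ld wn wd dn dd K sa sb U W g sn sd mn md : ℕ} (hld : 0 < ld)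
    (h2 : 2 * ln ≤ ld) (hdd : 0 < dd) (hdn : dn ≤ 1000 * dd) (hw0 : 0 < wn) (hw : wn ≤ wd)
    (hc : dd * wd * (ld * ld) ≤ dn * wn * (ln * ln)) (hm : dd * (md * md) ≤ dn * (mn * mn))
    (hmd : 0 < md) (hmn : 0 < mn)
    (hE : EndOK ((ln : ℝ) / ld) ((sn : ℝ) / sd) 1)
    (he : endOK ⟨ln, ld, wn, wd, poisL dn dd K⟩ sa sb U W g sn sd = true)
    (hr : ∀ lam p, Adm 3 lam → Prob p → Dom lam p ⟨ln, ld, wn, wd, poisL dn dd K⟩ →
      Reach lam p ⟨ln, ld, wn, wd, poisL dn dd K⟩ sa sb U g)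
    {l d : ℝ} (hd : 0 < d) (hl : (mn : ℝ) / md ≤ l) (h1 : l ≤ (ln : ℝ) / ld)
    (hθ : d * l ^ 2 ≤ 1) :
    Tendsto (fun n => seq (-l) (poisson d) n (X2 : V 3 → ℝ)) atTop (𝓝 0) := by
  have hld' : (0 : ℝ) < ld := Nat.cast_pos.2 hld
  have hdd' : (0 : ℝ) < dd := Nat.cast_pos.2 hdd
  have hmd' : (0 : ℝ) < md := Nat.cast_pos.2 hmd
  have hmn' : (0 : ℝ) < mn := Nat.cast_pos.2 hmn
  have hwd' : (0 : ℝ) < wd := Nat.cast_pos.2 (hw0.trans_le hw)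
  have m0 : (0 : ℝ) < (mn : ℝ) / md := div_pos hmn' hmd'
  have l0 : 0 < l := m0.trans_le hl
  have hh := run_half hld h2
  have ha : Adm 3 (-l) := ⟨by push_cast; linarith, by linarith⟩
  have a1 : d ≤ (dn : ℝ) / dd := by
    have h3 : (dd : ℝ) * (md * md) ≤ dn * (mn * mn) := by exact_mod_cast hm
    have h4 : 1 ≤ (dn : ℝ) / dd * ((mn : ℝ) / md) ^ 2 := by
      rw [div_pow, div_mul_div_comm, one_le_div (by positivity)]
      nlinarith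
    have h5 : d * ((mn : ℝ) / md) ^ 2 ≤ d * l ^ 2 := by gcongr
    exact le_of_mul_le_mul_right (h5.trans (hθ.trans h4)) (by positivity)
  have a2 : d * (2 * l - (ln : ℝ) / ld) ≤ (dn : ℝ) / dd * wn / wd * ((ln : ℝ) / ld) := by
    have h3 : (dd : ℝ) * wd * (ld * ld) ≤ dn * wn * (ln * ln) := by exact_mod_cast hc
    have h4 : 1 ≤ (dn : ℝ) / dd * wn / wd * ((ln : ℝ) / ld) * ((ln : ℝ) / ld) := by
      rw [show (dn : ℝ) / dd * wn / wd * ((ln : ℝ) / ld) * ((ln : ℝ) / ld) =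
        dn * wn * (ln * ln) / (dd * wd * (ld * ld)) by field_simp, one_le_div (by positivity)]
      exact h3
    have h5 : d * (2 * l - (ln : ℝ) / ld) * ((ln : ℝ) / ld) ≤ d * l ^ 2 := by
      nlinarith [mul_nonneg hd.le (sq_nonneg (l - (ln : ℝ) / ld))]
    exact le_of_mul_le_mul_right (h5.trans (hθ.trans h4)) (l0.trans_le h1)
  exact end3 c3m1_ok (by norm_num) c3m0_ok c3m2_ok c3m3_ok c3m4_ok l0 h1 hh
    (off_poisson hd) zero_le_one le_rfl hθ (by positivity) hE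
    (reach_end ha (prob_poisson hd.le) he (hr _ _ ha (prob_poisson hd.le)
      (dom_poi l0.le hld h1 h2 hd hdd hdn a1 hw0 hw a2)))

end Vale.Agent.P154
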