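import Vale.Agent.P154.Cvx

namespace Vale.Agent.P154

open Filter Topology

variable {q : ℕ} [NeZero q]

namespace KSAux

/-- iterated integral of a bounded two-variable function -/
def Bil (A B : Fn q) (F : V q → V q → ℝ) (c : ℝ) : Prop :=
  (∃ C, ∀ a ∈ Sx q, ∀ b ∈ Sx q, |F a b| ≤ C) ∧ A (fun a => B (F a)) = c

variable {A B : Fn q}

theorem Bil.mul (hA : IsLaw A) (hB : IsLaw B) {u v : V q → ℝ} (hu : Bd u) (hv : Bd v) :
    Bil A B (fun a b => u a * v b) (A u * B v) := by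
  refine ⟨?_, ?_⟩
  · obtain ⟨C, hC⟩ := hu
    obtain ⟨D, hD⟩ := hv
    exact ⟨C * D, fun a ha b hb => by
      rw [abs_mul]
      exact mul_le_mul (hC a ha) (hD b hb) (abs_nonneg _) ((abs_nonneg _).trans (hC a ha))⟩
  · simp only [hB.smul _ _ hv]
    simp only [mul_comm _ (B v), hA.smul _ _ hu]

theorem Bil.add (hA : IsLaw A) (hB : IsLaw B) {F G : V q → V q → ℝ} {c d : ℝ} (h : Bil A B F c)
    (h' : Bil A B G d) : Bil A B (fun a b => F a b + G a b) (c + d) := by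
  obtain ⟨⟨C, hC⟩, e⟩ := h
  obtain ⟨⟨D, hD⟩, e'⟩ := h'
  have hb : ∀ a ∈ Sx q, ∀ b ∈ Sx q, |F a b + G a b| ≤ C + D := fun a ha b hb =>
    (abs_add_le _ _).trans (add_le_add (hC a ha b hb) (hD a ha b hb))
  refine ⟨⟨_, hb⟩, ?_⟩
  rw [← e, ← e', ← hA.add _ _ (hB.bd_inner ⟨C, hC⟩) (hB.bd_inner ⟨D, hD⟩)]
  exact hA.congr (hB.bd_inner ⟨_, hb⟩) fun a ha => hB.add _ _ ⟨C, hC a ha⟩ ⟨D, hD a ha⟩

theorem Bil.sum (hA : IsLaw A) (hB : IsLaw B) {ι : Type} (s : Finset ι)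
    {F : ι → V q → V q → ℝ} (h : ∀ i, Bil A B (F i) 0) :
    Bil A B (fun a b => ∑ i ∈ s, F i a b) 0 := by
  classical
  induction s using Finset.induction_on with
  | empty => simpa [hA.const] using Bil.mul hA hB (Bd.const 0) (Bd.const 0)
  | insert i s hi ih => simpa [Finset.sum_insert hi] using Bil.add hA hB (h i) ih

theorem Bil.le (hA : IsLaw A) (hB : IsLaw B) {F : V q → V q → ℝ} {c : ℝ} (h : Bil A B F c)
    {φ : V q → ℝ} (hφ : Bd φ) (hF : ∀ a ∈ Sx q, ∀ b ∈ Sx q, F a b ≤ hat φ (a * b)) :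
    c ≤ star A B φ := by
  obtain ⟨⟨C, hC⟩, rfl⟩ := h
  obtain ⟨D, hD⟩ := hφ.hat_mul
  exact hA.mono _ _ (hB.bd_inner ⟨C, hC⟩) (hB.bd_inner ⟨D, hD⟩) fun a ha =>
    hB.mono _ _ ⟨C, hC a ha⟩ ⟨D, hD a ha⟩ (hF a ha)

theorem q_pos : (0 : ℝ) < q := Nat.cast_pos.2 (NeZero.pos q)

theorem hat_X2_ge {w : V q} (hw : ∀ i, 0 ≤ w i) (z : V q) :
    (∑ i, (2 * (w i - av w) * z i - av w * z i ^ 2)) / q ≤ hat X2 w := by
  have hD : 0 ≤ av w := div_nonneg (Finset.sum_nonneg fun i _ => hw i) q_pos.le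
  rw [hat, X2, ← mul_div_assoc, Finset.mul_sum]
  refine div_le_div_of_nonneg_right (Finset.sum_le_sum fun i _ => ?_) q_pos.le
  rcases hD.eq_or_lt with h | h
  · have h0 : ∑ i, w i = 0 := by
      have := h.symm
      rw [av, div_eq_zero_iff] at this
      exact this.resolve_right q_pos.ne'
    rw [← h, (Finset.sum_eq_zero_iff_of_nonneg fun i _ => hw i).1 h0 i (Finset.mem_univ _)]
    simp
  · have e : w i = av w * ((av w)⁻¹ * w i) := by field_simp
    simp only [Pi.smul_apply, smul_eq_mul]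
    generalize (av w)⁻¹ * w i = x at e
    rw [e]
    nlinarith [mul_nonneg hD (sq_nonneg (x - 1 - z i))]

theorem point {a b : V q} (ha : a ∈ Sx q) (hb : b ∈ Sx q) :
    X2 a * 1 + (1 - 2 * X2 a) * X2 b +
      ∑ i, ((((2 - X2 a) * (a i - 1) + 2 * (a i - 1) ^ 2) / q) * (b i - 1) +
        (a i - 1) * ((2 * (b i - 1) ^ 2 - (b i - 1) * X2 b) / q)) ≤ hat X2 (a * b) := by
  refine le_trans ?_ (hat_X2_ge (fun i => mul_nonneg (ha.1 i) (hb.1 i))
    fun i => (a i - 1) + (b i - 1))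
  have hq := q_pos (q := q)
  have s1 : ∑ i, (a i - 1) = 0 := by simp [Finset.sum_sub_distrib, ha.2]
  have s2 : ∑ i, (b i - 1) = 0 := by simp [Finset.sum_sub_distrib, hb.2]
  have cs := Finset.sum_mul_sq_le_sq_mul_sq Finset.univ (fun i => a i - 1) fun i => b i - 1
  have hD : av (a * b) = 1 + (∑ i, (a i - 1) * (b i - 1)) / q := by
    have : ∑ i, (a * b) i = ∑ i, ((1 : ℝ) + (a i - 1) + (b i - 1) + (a i - 1) * (b i - 1)) :=
      Finset.sum_congr rfl fun i _ => by simp only [Pi.mul_apply]; ring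
    rw [av, this]
    simp only [Finset.sum_add_distrib, s1, s2, Finset.sum_const, Finset.card_univ,
      Fintype.card_fin, nsmul_eq_mul]
    field_simp
    ring
  generalize av (a * b) = D at hD
  have e1 : ∑ i, (2 * (a i * b i - D) * (a i - 1 + (b i - 1)) - D * (a i - 1 + (b i - 1)) ^ 2) =
      ∑ i, ((2 - 2 * D) * (a i - 1) + (2 - 2 * D) * (b i - 1) + (2 - D) * (a i - 1) ^ 2 +
        (2 - D) * (b i - 1) ^ 2 + (2 * (2 - D)) * ((a i - 1) * (b i - 1)) +
        2 * ((a i - 1) ^ 2 * (b i - 1)) + 2 * ((a i - 1) * (b i - 1) ^ 2)) :=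
    Finset.sum_congr rfl fun i _ => by ring
  have e2 : ∑ i, ((((2 - X2 a) * (a i - 1) + 2 * (a i - 1) ^ 2) / q) * (b i - 1) +
        (a i - 1) * ((2 * (b i - 1) ^ 2 - (b i - 1) * X2 b) / q)) =
      ∑ i, (((2 - X2 a - X2 b) / q) * ((a i - 1) * (b i - 1)) +
        (2 / q) * ((a i - 1) ^ 2 * (b i - 1)) + (2 / q) * ((a i - 1) * (b i - 1) ^ 2)) :=
    Finset.sum_congr rfl fun i _ => by ring
  rw [e1, e2]
  simp only [Finset.sum_add_distrib, ← Finset.mul_sum, s1, s2, X2] at cs ⊢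
  generalize ∑ i, (a i - 1) ^ 2 = x at cs ⊢
  generalize ∑ i, (b i - 1) ^ 2 = y at cs ⊢
  generalize ∑ i, (a i - 1) * (b i - 1) = u at cs hD ⊢
  generalize ∑ i, (a i - 1) ^ 2 * (b i - 1) = r
  generalize ∑ i, (a i - 1) * (b i - 1) ^ 2 = r'
  subst hD
  rw [← sub_nonneg]
  have : ((2 - 2 * (1 + u / q)) * 0 + (2 - 2 * (1 + u / q)) * 0 + (2 - (1 + u / q)) * x +
      (2 - (1 + u / q)) * y + 2 * (2 - (1 + u / q)) * u + 2 * r + 2 * r') / q -
      (x / q * 1 + (1 - 2 * (x / q)) * (y / q) +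
        ((2 - x / q - y / q) / q * u + 2 / q * r + 2 / q * r')) = 2 * (x * y - u ^ 2) / q ^ 2 := by
    field_simp
    ring
  rw [this]
  exact div_nonneg (by linarith) (by positivity)

theorem coord_zero (hA : IsLaw A) (i : Fin q) : A (fun a => a i - 1) = 0 := by
  rw [hA.sub (Bd.of_continuous (by fun_prop)) (Bd.const 1), hA.coord, hA.const, sub_self]

end KSAux
open KSAux

theorem star_X2_ge (hq : 2 ≤ q) {A B : Fn q} (hA : IsLaw A) (hB : IsLaw B) :
    A X2 + B X2 - 2 * (A X2 * B X2) ≤ star A B X2 := by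
  have _ := hq
  have cX : Continuous (X2 : V q → ℝ) := by unfold X2; fun_prop
  have h1 := Bil.mul hA hB bd_X2 (Bd.const 1)
  have h2 := Bil.mul hA hB (u := fun a => 1 - 2 * X2 a) (Bd.of_continuous (by fun_prop)) bd_X2
  have h3 := Bil.sum hA hB Finset.univ (F := fun (i : Fin q) a b =>
    (((2 - X2 a) * (a i - 1) + 2 * (a i - 1) ^ 2) / q) * (b i - 1) +
      (a i - 1) * ((2 * (b i - 1) ^ 2 - (b i - 1) * X2 b) / q)) fun i => by
    have k1 := Bil.mul hA hB (u := fun a => ((2 - X2 a) * (a i - 1) + 2 * (a i - 1) ^ 2) / q)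
      (v := fun b => b i - 1) (Bd.of_continuous (by fun_prop)) (Bd.of_continuous (by fun_prop))
    have k2 := Bil.mul hA hB (u := fun a => a i - 1)
      (v := fun b => (2 * (b i - 1) ^ 2 - (b i - 1) * X2 b) / q)
      (Bd.of_continuous (by fun_prop)) (Bd.of_continuous (by fun_prop))
    rw [coord_zero hB, mul_zero] at k1
    rw [coord_zero hA, zero_mul] at k2
    simpa using Bil.add hA hB k1 k2
  have h4 := Bil.le hA hB (Bil.add hA hB (Bil.add hA hB h1 h2) h3) bd_X2 fun a ha b hb =>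
    point ha hb
  rw [hA.sub (Bd.const 1) ((Bd.const 2).mul bd_X2), hA.smul _ _ bd_X2, hA.const, hB.const] at h4
  linarith

namespace KSAux

theorem pw_ge (hq : 2 ≤ q) {A : Fn q} (hA : IsLaw A) (hy : 2 * A X2 ≤ 1) (k : ℕ) :
    k * A X2 - 2 * A X2 ^ 2 * k ^ 2 ≤ pw A k X2 := by
  have h0 : 0 ≤ A X2 := hA.nonneg bd_X2 fun a _ => X2_nonneg a
  induction k with
  | zero => simp [pw, unit, X2_one]
  | succ k ih =>
    have h1 := star_X2_ge hq hA (hA.pw k)
    have h2 := mul_le_mul_of_nonneg_left ih (sub_nonneg.2 hy)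
    have hk : (0 : ℝ) ≤ k := Nat.cast_nonneg k
    rw [pw]
    push_cast
    nlinarith [mul_nonneg (pow_nonneg h0 3) (sq_nonneg (k : ℝ)), mul_nonneg (sq_nonneg (A X2)) hk,
      sq_nonneg (A X2)]

theorem pw_succ_ge {A : Fn q} (hA : IsLaw A) (k : ℕ) : A X2 ≤ pw A (k + 1) X2 := by
  induction k with
  | zero => exact (hA.star_unit bd_X2).ge
  | succ k ih =>
    exact ih.trans ((cx_pw_succ hA (k + 1)).le_of_convexOn (hA.pw _) (hA.pw _) convexOn_X2)

theorem top_pos (hq : 2 ≤ q) : 0 < (top : Fn q) X2 := by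
  have h2 : (2 : ℝ) ≤ q := by exact_mod_cast hq
  refine div_pos (Finset.sum_pos (fun i _ => div_pos ?_ q_pos) Finset.univ_nonempty) q_pos
  refine Finset.sum_pos' (fun j _ => sq_nonneg _) ⟨i, Finset.mem_univ _, ?_⟩
  rw [Pi.single_eq_same]
  exact pow_pos (by linarith) 2

end KSAux

theorem recon_of_gt (hq : 2 ≤ q) {lam : ℝ} (hl : Adm q lam) {p : ℕ → ℝ} {d ρ : ℝ}
    (hp : Off p d ρ) (h : 1 < d * lam ^ 2) :
    Recon fun n => seq lam p n (tv : V q → ℝ) := by
  have hL := fun n => IsLaw.seq (q := q) hl hp.prob n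
  have hA := fun n => (hL n).Mop hl
  have l0 : 0 < lam ^ 2 := (sq_nonneg lam).lt_of_ne fun e => by
    rw [← e] at h
    linarith
  have p0 := hp.prob.1
  have pos : ∀ n, 0 < seq lam p n (X2 : V q → ℝ) := by
    intro n
    induction n with
    | zero => exact top_pos hq
    | succ n ih =>
      have hy : 0 < Mop lam (seq lam p n) (X2 : V q → ℝ) := by
        rw [Mop_X2 hl (hL n)]
        positivity
      obtain ⟨k, hk⟩ : ∃ k, 0 < p (k + 1) := by
        by_contra! H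
        have := hp.prob.2.unique (hasSum_single 0 fun k hk => by
          obtain ⟨k, rfl⟩ := Nat.exists_eq_succ_of_ne_zero hk
          exact le_antisymm (H k) (p0 _))
        linarith [hp.two, p0 1]
      exact (summable_mix hp.prob (hA n).pw bd_X2).tsum_pos (fun j => mul_nonneg (p0 j)
        (((hA n).pw j).nonneg bd_X2 fun a _ => X2_nonneg a)) (k + 1)
        (mul_pos hk (hy.trans_le (pw_succ_ge (hA n) k)))
  obtain ⟨m, hm⟩ := hp.sq
  have m0 : 0 ≤ m := hm.nonneg fun k => mul_nonneg (p0 k) (sq_nonneg _)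
  obtain ⟨e, e0, he⟩ : ∃ e : ℝ, 0 < e ∧ ∀ n, e ≤ seq lam p n (X2 : V q → ℝ) := by
    refine ⟨min (1 / (2 * lam ^ 2)) ((d * lam ^ 2 - 1) / (2 * (lam ^ 2) ^ 2 * m + 1)),
      lt_min (by positivity) (div_pos (by linarith) (by positivity)), fun n => ?_⟩
    by_cases hy : 2 * Mop lam (seq lam p n) (X2 : V q → ℝ) ≤ 1
    · refine (min_le_right _ _).trans ?_
      have h1 := hasSum_le (fun k => by
          have := mul_le_mul_of_nonneg_left (pw_ge hq (hA n) hy k) (p0 k)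
          linarith) ((hp.mean.mul_right (Mop lam (seq lam p n) (X2 : V q → ℝ))).sub
        (hm.mul_left (2 * Mop lam (seq lam p n) (X2 : V q → ℝ) ^ 2)))
        (summable_mix hp.prob (hA n).pw bd_X2).hasSum
      have h2 : seq lam p (n + 1) (X2 : V q → ℝ) ≤ seq lam p n X2 :=
        antitone_seq hl hp.prob convexOn_X2 n.le_succ
      have h3 := h1.trans h2
      rw [Mop_X2 hl (hL n)] at h3
      have h4 := pos n
      generalize seq lam p n (X2 : V q → ℝ) = s at h3 h4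
      rw [div_le_iff₀ (by positivity)]
      refine le_of_mul_le_mul_right ?_ h4
      nlinarith [mul_pos h4 h4]
    · refine (min_le_left _ _).trans ?_
      rw [Mop_X2 hl (hL n)] at hy
      rw [div_le_iff₀ (by positivity)]
      linarith
  obtain ⟨L, h1, -⟩ := exists_lim hl hp.prob (convexOn_tv (q := q))
  have hq0 := q_pos (q := q)
  refine ⟨L, lt_of_lt_of_le (div_pos e0 (by positivity : 0 < 2 * (q : ℝ)))
    (ge_of_tendsto' h1 fun n => ?_), h1⟩
  rw [div_le_iff₀ (by positivity)]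
  linarith [he n, X2_le_tv (hL n)]

end Vale.Agent.P154
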