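import Vale.Agent.P154.KronD

namespace Vale.Agent.P154

theorem ones_eq {B : ℕ} (hB : 1 ≤ B) (n : ℕ) :
    ones B n = ∑ i ∈ Finset.range n, 2 ^ (B * i) := by
  simp only [ones, pow_mul]
  exact (Nat.geomSum_eq (Nat.one_lt_two_pow (by omega)) n).symm

lemma kr_dg_zero (B N : ℕ) : dg B N 0 = N % 2 ^ B := by simp [dg]

lemma kr_dg_succ (B N k : ℕ) : dg B N (k + 1) = dg B (N / 2 ^ B) k := by
  simp only [dg, Nat.shiftRight_eq_div_pow, Nat.div_div_eq_div_mul, ← pow_add]
  rw [mul_add, mul_one, add_comm]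

lemma kr_sum_succ (B L : ℕ) (f : ℕ → ℕ) : ∑ i ∈ Finset.range (L + 1), f i * 2 ^ (B * i) =
    f 0 + 2 ^ B * ∑ i ∈ Finset.range L, f (i + 1) * 2 ^ (B * i) := by
  rw [Finset.sum_range_succ', Finset.mul_sum, mul_zero, pow_zero, mul_one, add_comm]
  congr 1
  refine Finset.sum_congr rfl fun i _ => ?_
  rw [mul_add, mul_one, pow_add]
  ring

theorem dg_sum {B L : ℕ} {f : ℕ → ℕ} (hf : ∀ i < L, f i < 2 ^ B) (k : ℕ) :
    dg B (∑ i ∈ Finset.range L, f i * 2 ^ (B * i)) k = if k < L then f k else 0 := by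
  induction k generalizing L f with
  | zero =>
    cases L with
    | zero => simp [dg]
    | succ L =>
      rw [kr_dg_zero, kr_sum_succ, Nat.add_mul_mod_self_left, Nat.mod_eq_of_lt (hf 0 (by omega)),
        if_pos (by omega)]
  | succ k ih =>
    cases L with
    | zero => simp [dg]
    | succ L =>
      rw [kr_dg_succ, kr_sum_succ, Nat.add_mul_div_left _ _ (by positivity),
        Nat.div_eq_of_lt (hf 0 (by omega)), zero_add,
        ih (f := fun i => f (i + 1)) fun i hi => hf _ (by omega)]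
      simp only [Nat.add_lt_add_iff_right]

theorem dg_lt (B N k : ℕ) : dg B N k < 2 ^ B := Nat.mod_lt _ (by positivity)

theorem eq_sum_dg {B L N : ℕ} (h : N < 2 ^ (B * L)) :
    N = ∑ i ∈ Finset.range L, dg B N i * 2 ^ (B * i) := by
  induction L generalizing N with
  | zero => simpa using h
  | succ L ih =>
    rw [kr_sum_succ, kr_dg_zero]
    simp only [kr_dg_succ]
    rw [← ih, Nat.mod_add_div]
    rw [Nat.div_lt_iff_lt_mul (by positivity), ← pow_add]
    exact h

theorem dg_land (B M N k : ℕ) : dg B (M &&& N) k = dg B M k &&& dg B N k := by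
  simp only [dg, Nat.shiftRight_and_distrib, Nat.and_mod_two_pow]

theorem allLt_iff {n : ℕ} {f : ℕ → Bool} : allLt n f = true ↔ ∀ i < n, f i = true := by
  induction n with
  | zero => simp [allLt]
  | succ n ih =>
    change (f n && allLt n f) = true ↔ _
    rw [Bool.and_eq_true, ih, Nat.forall_lt_succ_right, and_comm]

/-- digitwise comparison -/
theorem le_of_top {B L : ℕ} (hB : 1 ≤ B) {f g : ℕ → ℕ} (hf : ∀ i < L, f i < 2 ^ (B - 1))
    (hg : ∀ i < L, g i < 2 ^ (B - 1))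
    (h : ((∑ i ∈ Finset.range L, f i * 2 ^ (B * i)) + 2 ^ (B - 1) * ones B L -
      ∑ i ∈ Finset.range L, g i * 2 ^ (B * i)) &&& (2 ^ (B - 1) * ones B L) =
        2 ^ (B - 1) * ones B L) : ∀ i < L, g i ≤ f i := by
  have e2 : 2 ^ B = 2 ^ (B - 1) + 2 ^ (B - 1) := by
    rw [← two_mul, ← pow_succ', Nat.sub_add_cancel hB]
  have hp : 0 < 2 ^ (B - 1) := by positivity
  rw [ones_eq hB, Finset.mul_sum] at h
  have e : (∑ i ∈ Finset.range L, f i * 2 ^ (B * i)) +
      ∑ i ∈ Finset.range L, 2 ^ (B - 1) * 2 ^ (B * i) -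
      ∑ i ∈ Finset.range L, g i * 2 ^ (B * i) =
      ∑ i ∈ Finset.range L, (f i + 2 ^ (B - 1) - g i) * 2 ^ (B * i) := by
    refine Nat.sub_eq_of_eq_add ?_
    rw [← Finset.sum_add_distrib, ← Finset.sum_add_distrib]
    refine Finset.sum_congr rfl fun i hi => ?_
    have := hg i (Finset.mem_range.1 hi)
    rw [← add_mul, ← add_mul, Nat.sub_add_cancel (by omega)]
  intro i hi
  have h1 := congrArg (fun N => dg B N i) h
  simp only [e, dg_land] at h1
  rw [dg_sum (f := fun i => f i + 2 ^ (B - 1) - g i) fun j hj => by have := hf j hj; omega,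
    dg_sum (f := fun _ => 2 ^ (B - 1)) fun j hj => by omega, if_pos hi, if_pos hi] at h1
  have h2 : (f i + 2 ^ (B - 1) - g i) &&& 2 ^ (B - 1) ≤ f i + 2 ^ (B - 1) - g i := Nat.and_le_left
  have := hg i hi
  omega

/-- the monomial with index `i` -/
def krMon {R : Type} [CommSemiring R] (S n i : ℕ) (w : Fin 4 → R) : R :=
  w 0 ^ (n - (i % S + i / S % S + i / (S * S))) * w 1 ^ (i % S) * w 2 ^ (i / S % S) *
    w 3 ^ (i / (S * S))

lemma kr_idx {S a b d : ℕ} (ha : a < S) (hb : b < S) :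
    (a + S * b + S * S * d) % S = a ∧ (a + S * b + S * S * d) / S % S = b ∧
      (a + S * b + S * S * d) / (S * S) = d := by
  have e : a + S * b + S * S * d = a + S * (b + S * d) := by ring
  have hS : 0 < S := by omega
  have h1 : (a + S * (b + S * d)) / S = b + S * d := by
    rw [Nat.add_mul_div_left _ _ hS, Nat.div_eq_of_lt ha, zero_add]
  rw [e, ← Nat.div_div_eq_div_mul, h1, Nat.add_mul_mod_self_left, Nat.add_mul_mod_self_left,
    Nat.add_mul_div_left _ _ hS, Nat.div_eq_of_lt hb, zero_add]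
  exact ⟨Nat.mod_eq_of_lt ha, Nat.mod_eq_of_lt hb, rfl⟩

lemma kr_expand {S n : ℕ} (hn : n < S) {p : MvPolynomial (Fin 4) ℕ} (hp : p.IsHomogeneous n) :
    ∃ c : ℕ → ℕ, (∀ i, c i ≠ 0 → ∃ a b d, a + b + d ≤ n ∧ i = a + S * b + S * S * d) ∧
      ∀ (R : Type) [CommSemiring R] (w : Fin 4 → R), MvPolynomial.aeval w p =
        ∑ i ∈ Finset.range (S * S * S), (c i : R) * krMon S n i w := by
  have hd : ∀ e ∈ p.support, e 0 + e 1 + e 2 + e 3 = n := fun e he => by
    have := hp (MvPolynomial.mem_support_iff.1 he)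
    rw [Finsupp.weight_apply, Finsupp.sum_fintype _ _ (by simp)] at this
    simpa [Fin.sum_univ_four] using this
  refine ⟨fun i => ∑ e ∈ p.support with e 1 + S * e 2 + S * S * e 3 = i, p.coeff e,
    fun i hi => ?_, fun R _ w => ?_⟩
  · obtain ⟨e, he, -⟩ := Finset.exists_ne_zero_of_sum_ne_zero hi
    rw [Finset.mem_filter] at he
    exact ⟨e 1, e 2, e 3, by have := hd e he.1; omega, he.2.symm⟩
  · rw [MvPolynomial.aeval_def, MvPolynomial.eval₂_eq', ← Finset.sum_fiberwise_of_maps_to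
      (t := Finset.range (S * S * S)) (g := fun e => e 1 + S * e 2 + S * S * e 3)]
    · refine Finset.sum_congr rfl fun i _ => ?_
      rw [Nat.cast_sum, Finset.sum_mul]
      refine Finset.sum_congr rfl fun e he => ?_
      rw [Finset.mem_filter] at he
      have h1 := hd e he.1
      obtain ⟨a1, a2, a3⟩ := kr_idx (S := S) (a := e 1) (b := e 2) (d := e 3) (by omega) (by omega)
      rw [← he.2, krMon, a1, a2, a3, Fin.prod_univ_four, show n - (e 1 + e 2 + e 3) = e 0 by omega]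
      rfl
    · intro e he
      have h1 := hd e he
      have a1 : e 1 + 1 ≤ S := by omega
      have a2 : S * (e 2 + 1) ≤ S * S := Nat.mul_le_mul_left _ (by omega)
      have a3 : S * S * (e 3 + 1) ≤ S * S * S := Nat.mul_le_mul_left _ (by omega)
      rw [Finset.mem_range]
      nlinarith

lemma KR.digits {B S n N t : ℕ} {f : (Fin 4 → ℝ) → ℝ} (hn : n < S) (h : KR B S n N t f) :
    ∃ c : ℕ → ℕ, (∀ i, c i ≠ 0 → ∃ a b d, a + b + d ≤ n ∧ i = a + S * b + S * S * d) ∧
      N = ∑ i ∈ Finset.range (S * S * S), c i * 2 ^ (B * i) ∧ (∀ i < S * S * S, c i ≤ t) ∧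
      ∀ w, f w = ∑ i ∈ Finset.range (S * S * S), (c i : ℝ) * krMon S n i w := by
  obtain ⟨p, hp, h1, h2, h3⟩ := h
  obtain ⟨c, c1, c2⟩ := kr_expand hn hp
  refine ⟨c, c1, ?_, fun i hi => ?_, fun w => by rw [← h3, c2]⟩
  · rw [← h1, ← MvPolynomial.aeval_eq_eval, c2]
    refine Finset.sum_congr rfl fun i _ => ?_
    have e : i = i % S + S * (i / S % S) + S * S * (i / (S * S)) := by
      rw [← Nat.div_div_eq_div_mul, add_assoc, mul_assoc, ← mul_add, Nat.mod_add_div,
        Nat.mod_add_div]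
    have e2 : krMon S n i ![1, 2 ^ B, 2 ^ (B * S), 2 ^ (B * (S * S))] =
        2 ^ (B * (i % S + S * (i / S % S) + S * S * (i / (S * S)))) := by
      change 1 ^ _ * (2 ^ B) ^ _ * (2 ^ (B * S)) ^ _ * (2 ^ (B * (S * S))) ^ _ = _
      rw [one_pow, one_mul, ← pow_mul, ← pow_mul, ← pow_mul, ← pow_add, ← pow_add]
      congr 1
      ring
    rw [e2, ← e, Nat.cast_id]
  · rw [← h2, ← MvPolynomial.aeval_eq_eval, c2]
    refine le_trans ?_ (Finset.single_le_sum (fun _ _ => Nat.zero_le _) (Finset.mem_range.2 hi))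
    change _ ≤ c i * (1 ^ _ * 1 ^ _ * 1 ^ _ * 1 ^ _)
    simp

lemma krMon_nonneg (S n i : ℕ) {w : Fin 4 → ℝ} (hw : 0 ≤ w) : 0 ≤ krMon S n i w :=
  mul_nonneg (mul_nonneg (mul_nonneg (pow_nonneg (hw 0) _) (pow_nonneg (hw 1) _))
    (pow_nonneg (hw 2) _)) (pow_nonneg (hw 3) _)

/-- comparison of two forms -/
theorem KR.le {B S n N N' t t' : ℕ} {f f' : (Fin 4 → ℝ) → ℝ} (hB : 1 ≤ B) (hn : n < S)
    (h : KR B S n N t f) (h' : KR B S n N' t' f') (ht : t < 2 ^ (B - 1)) (ht' : t' < 2 ^ (B - 1))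
    (hc : (N + 2 ^ (B - 1) * ones B (S * S * S) - N') &&& (2 ^ (B - 1) * ones B (S * S * S)) =
      2 ^ (B - 1) * ones B (S * S * S)) (w : Fin 4 → ℝ) (hw : 0 ≤ w) : f' w ≤ f w := by
  obtain ⟨c, -, c1, c2, c3⟩ := h.digits hn
  obtain ⟨c', -, c1', c2', c3'⟩ := h'.digits hn
  rw [c1, c1'] at hc
  have := le_of_top hB (fun i hi => (c2 i hi).trans_lt ht) (fun i hi => (c2' i hi).trans_lt ht') hc
  rw [c3, c3']
  exact Finset.sum_le_sum fun i hi => mul_le_mul_of_nonneg_right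
    (Nat.cast_le.2 (this i (Finset.mem_range.1 hi))) (krMon_nonneg _ _ _ hw)

lemma KR.dg_eq {B S n N t : ℕ} {f : (Fin 4 → ℝ) → ℝ} (hn : n < S) (h : KR B S n N t f)
    (ht : t < 2 ^ B) : (∀ i, dg B N i ≤ t) ∧
      (∀ i, dg B N i ≠ 0 → ∃ a b d, a + b + d ≤ n ∧ i = a + S * b + S * S * d) ∧
      ∀ w, f w = ∑ i ∈ Finset.range (S * S * S), (dg B N i : ℝ) * krMon S n i w := by
  obtain ⟨c, c0, c1, c2, c3⟩ := h.digits hn
  have e : ∀ i, dg B N i = if i < S * S * S then c i else 0 := fun i => by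
    rw [c1, dg_sum fun j hj => (c2 j hj).trans_lt ht]
  refine ⟨fun i => ?_, fun i hi => ?_, fun w => ?_⟩
  · rw [e]
    split_ifs with h
    · exact c2 i h
    · exact Nat.zero_le _
  · rw [e] at hi
    split_ifs at hi with h
    · exact c0 i hi
    · exact absurd rfl hi
  · rw [c3]
    exact Finset.sum_congr rfl fun i hi => by rw [e, if_pos (Finset.mem_range.1 hi)]

lemma KR.zero (B S n : ℕ) : KR B S n 0 0 fun _ => 0 :=
  ⟨0, MvPolynomial.isHomogeneous_zero _ _ _, by simp, by simp, by simp⟩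

lemma KR.step {B S n N N' t t' : ℕ} {f f' : (Fin 4 → ℝ) → ℝ} (k : ℕ) (h : KR B S n N t f)
    (h' : KR B S n N' t' f') : KR B S n (k * N + N') (k * t + t') fun w => k * f w + f' w := by
  obtain ⟨p, hp, h1, h2, h3⟩ := h
  obtain ⟨p', hp', h1', h2', h3'⟩ := h'
  refine ⟨MvPolynomial.C k * p + p', (hp.C_mul k).add hp', ?_, ?_, fun w => ?_⟩
  · rw [map_add, map_mul, MvPolynomial.eval_C, h1, h1']
  · rw [map_add, map_mul, MvPolynomial.eval_C, h2, h2']
  · rw [map_add, map_mul, MvPolynomial.aeval_C, h3, h3']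
    rfl

lemma kr_row {τ : Type} {B S n : ℕ} (l : List τ) (mk : τ → Tm) (fb : τ → (Fin 4 → ℝ) → ℝ)
    (hb : ∀ x ∈ l, KR B S n (mk x).nb (mk x).tb (fb x)) (i : ℕ)
    (hd : ∀ x ∈ l, dg B (mk x).na i ≤ (mk x).ta) :
    ∃ (t t' : ℕ) (f f' : (Fin 4 → ℝ) → ℝ), KR B S n (rowSum B true i (l.map mk)) t f ∧
      KR B S n (rowSum B false i (l.map mk)) t' f' ∧
      t + t' ≤ (l.map mk).foldr (fun t acc => t.k * t.ta * t.tb + acc) 0 ∧
      ∀ w, f w - f' w =
        (l.map fun x => sg (mk x).pos * ((mk x).k : ℝ) * (dg B (mk x).na i : ℝ) * fb x w).sum := by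
  induction l with
  | nil => exact ⟨0, 0, _, _, KR.zero _ _ _, KR.zero _ _ _, le_rfl, fun w => by simp⟩
  | cons x l ih =>
    obtain ⟨t, t', f, f', k1, k2, k3, k4⟩ := ih (fun y hy => hb y (List.mem_cons_of_mem _ hy))
      fun y hy => hd y (List.mem_cons_of_mem _ hy)
    have h1 := hb x List.mem_cons_self
    have h2 : (mk x).k * dg B (mk x).na i * (mk x).tb ≤ (mk x).k * (mk x).ta * (mk x).tb :=
      Nat.mul_le_mul_right _ (Nat.mul_le_mul_left _ (hd x List.mem_cons_self))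
    have r : ∀ s, rowSum B s i ((x :: l).map mk) = cond ((mk x).pos == s)
        ((mk x).k * dg B (mk x).na i * (mk x).nb + rowSum B s i (l.map mk))
        (rowSum B s i (l.map mk)) := fun _ => rfl
    rw [r, r]
    simp only [List.map_cons, List.foldr_cons, List.sum_cons, ← k4]
    cases (mk x).pos with
    | true =>
      refine ⟨_, _, _, _, KR.step _ h1 k1, k2, by omega, fun w => ?_⟩
      simp only [sg, cond_true]
      push_cast
      ring
    | false =>
      refine ⟨_, _, _, _, k1, KR.step _ h1 k2, by omega, fun w => ?_⟩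
      simp only [sg, cond_false]
      push_cast
      ring

lemma kr_swap {τ : Type} (l : List τ) (s : Finset ℕ) (G : τ → ℕ → ℝ) :
    (l.map fun x => ∑ i ∈ s, G x i).sum = ∑ i ∈ s, (l.map fun x => G x i).sum := by
  induction l with
  | nil => simp
  | cons x l ih => simp [ih, Finset.sum_add_distrib]

/-- bilinear check; `SA` is the stride of the first factor, `rows` contains every index
of a monomial of the first factor with a nonzero digit -/
theorem bil_sound {τ : Type} {B SA SB nA nB : ℕ} (hB : 1 ≤ B) (hA : nA < SA) (hB' : nB < SB)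
    (l : List τ) (mk : τ → Tm) (fa fb : τ → (Fin 4 → ℝ) → ℝ)
    (ha : ∀ x ∈ l, KR B SA nA (mk x).na (mk x).ta (fa x))
    (hb : ∀ x ∈ l, KR B SB nB (mk x).nb (mk x).tb (fb x))
    (hs : sizeOK B (l.map mk) = true)
    (hr : ∀ i j k : ℕ, i + j + k ≤ nA →
      (∀ x ∈ l, dg B (mk x).na (i + SA * j + SA * SA * k) = 0) ∨
      rowOK B (2 ^ (B - 1) * ones B (SB * SB * SB)) (l.map mk) (i + SA * j + SA * SA * k) = true)
    (w w' : Fin 4 → ℝ) (hw : 0 ≤ w) (hw' : 0 ≤ w') :
    0 ≤ (l.map fun x => sg (mk x).pos * ((mk x).k : ℝ) * fa x w * fb x w').sum := by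
  rw [sizeOK, Bool.and_eq_true, List.all_eq_true, Nat.blt_eq] at hs
  have D := fun x hx => (ha x hx).dg_eq hA (Nat.blt_eq.mp (hs.1 _ (List.mem_map_of_mem hx)))
  have e : (l.map fun x => sg (mk x).pos * ((mk x).k : ℝ) * fa x w * fb x w') =
      l.map fun x => ∑ i ∈ Finset.range (SA * SA * SA), krMon SA nA i w *
        (sg (mk x).pos * ((mk x).k : ℝ) * (dg B (mk x).na i : ℝ) * fb x w') :=
    List.map_congr_left fun x hx => by
      rw [(D x hx).2.2, Finset.mul_sum, Finset.sum_mul]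
      exact Finset.sum_congr rfl fun i _ => by ring
  rw [e, kr_swap]
  refine Finset.sum_nonneg fun i _ => ?_
  rw [List.sum_map_mul_left]
  refine mul_nonneg (krMon_nonneg _ _ _ hw) ?_
  by_cases h0 : ∀ x ∈ l, dg B (mk x).na i = 0
  · refine List.sum_nonneg fun y hy => ?_
    obtain ⟨x, hx, rfl⟩ := List.mem_map.1 hy
    simp [h0 x hx]
  · have h1 := h0
    push Not at h1
    obtain ⟨x, hx, h1⟩ := h1
    obtain ⟨a, b, d, h2, rfl⟩ := (D x hx).2.1 i h1
    have h3 := (hr a b d h2).resolve_left h0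
    obtain ⟨t, t', f, f', k1, k2, k3, k4⟩ := kr_row l mk fb hb _ fun x hx => (D x hx).1 _
    rw [← k4, sub_nonneg]
    exact KR.le hB hB' k1 k2 (by omega) (by omega) (Nat.eq_of_beq_eq_true h3) w' hw'

end Vale.Agent.P154
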