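import Vale.Agent.P154.Base

namespace Vale.Agent.P154

/-- digit number `k` of `N` in base `2 ^ B` -/
def dg (B N k : ℕ) : ℕ := (N >>> (B * k)) % 2 ^ B

/-- the number with `n` digits equal to one in base `2 ^ B` -/
def ones (B n : ℕ) : ℕ := (2 ^ (B * n) - 1) / (2 ^ B - 1)

/-- `N` is the Kronecker value and `t` the coefficient sum of a form of degree `n` -/
def KR (B S n N t : ℕ) (f : (Fin 4 → ℝ) → ℝ) : Prop :=
  ∃ p : MvPolynomial (Fin 4) ℕ, p.IsHomogeneous n ∧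
    MvPolynomial.eval ![1, 2 ^ B, 2 ^ (B * S), 2 ^ (B * (S * S))] p = N ∧
    MvPolynomial.eval ![1, 1, 1, 1] p = t ∧ ∀ w : Fin 4 → ℝ, MvPolynomial.aeval w p = f w

structure Tm where
  pos : Bool
  k : ℕ
  na : ℕ
  ta : ℕ
  nb : ℕ
  tb : ℕ

def sg (b : Bool) : ℝ := cond b 1 (-1)

def rowSum (B : ℕ) (s : Bool) (idx : ℕ) (ts : List Tm) : ℕ :=
  List.rec (motive := fun _ => ℕ) 0
    (fun t _ acc => cond (t.pos == s) (t.k * dg B t.na idx * t.nb + acc) acc) ts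

def rowOK (B tp : ℕ) (ts : List Tm) (idx : ℕ) : Bool :=
  Nat.beq ((rowSum B true idx ts + tp - rowSum B false idx ts) &&& tp) tp

def allLt (n : ℕ) (f : ℕ → Bool) : Bool :=
  Nat.rec (motive := fun _ => Bool) true (fun i acc => f i && acc) n

/-- rows whose last exponent is `k` -/
def layerOK (B S nA : ℕ) (ts : List Tm) (k : ℕ) : Bool :=
  allLt (nA + 1 - k) fun j => allLt (nA + 1 - k - j) fun i =>
    rowOK B (2 ^ (B - 1) * ones B (S * S * S)) ts (i + S * j + S * S * k)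

def sizeOK (B : ℕ) (ts : List Tm) : Bool :=
  ts.all (fun t => Nat.blt t.ta (2 ^ B)) &&
    Nat.blt (ts.foldr (fun t acc => t.k * t.ta * t.tb + acc) 0) (2 ^ (B - 1))

abbrev Ex := ℕ × ℕ × ℕ × ℕ

abbrev NP := List (ℕ × Ex)

def Ex.deg (e : Ex) : ℕ := e.1 + e.2.1 + e.2.2.1 + e.2.2.2

section
variable {R : Type} [CommSemiring R]

def per2 (x y : R) (e f : ℕ) : R := x ^ e * y ^ f + y ^ e * x ^ f

def sy3 (a b c : R) (e : Ex) : R :=
  a ^ e.1 * per2 b c e.2.1 e.2.2.1 + b ^ e.1 * per2 a c e.2.1 e.2.2.1 +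
    c ^ e.1 * per2 a b e.2.1 e.2.2.1

def sy4 (a b c d : R) (e : Ex) : R :=
  per2 a b e.1 e.2.1 * per2 c d e.2.2.1 e.2.2.2 + per2 a c e.1 e.2.1 * per2 b d e.2.2.1 e.2.2.2 +
  per2 a d e.1 e.2.1 * per2 b c e.2.2.1 e.2.2.2 + per2 b c e.1 e.2.1 * per2 a d e.2.2.1 e.2.2.2 +
  per2 b d e.1 e.2.1 * per2 a c e.2.2.1 e.2.2.2 + per2 c d e.1 e.2.1 * per2 a b e.2.2.1 e.2.2.2

/-- homogenised symmetric monomial in chamber coordinates -/
def bas (four : Bool) (x y z u : R) (e : Ex) : R :=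
  cond four
    (sy4 (x + y + z + u) (x + z + u) (x + u) x e * (4 * x + y + 2 * z + 3 * u) ^ (10 - e.deg))
    (sy3 (x + y + z) (x + z) x e * (3 * x + y + 2 * z) ^ (10 - e.deg))

def npv (four : Bool) (x y z u : R) (l : NP) : R :=
  l.foldr (fun t acc => (t.1 : R) * bas four x y z u t.2 + acc) 0

def dpw (lo hi k : ℕ) (x y : R) : R := ((lo : R) * x + (hi : R) * y) ^ k * (2 * (x + y)) ^ (12 - k)

end

def kN (four : Bool) (B : ℕ) (l : NP) : ℕ :=
  npv four 1 (2 ^ B) (2 ^ (B * 11)) (2 ^ (B * (11 * 11))) l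

def kT (four : Bool) (l : NP) : ℕ := npv four 1 1 1 1 l

/-- a signed bilinear term -/
abbrev BT := Bool × ℕ × NP × NP

def mkB (four : Bool) (B : ℕ) (x : BT) : Tm :=
  ⟨x.1, x.2.1, kN four B x.2.2.1, kT four x.2.2.1, kN four B x.2.2.2, kT four x.2.2.2⟩

/-- a signed term: power of the normaliser times a form -/
abbrev DT := Bool × ℕ × ℕ × NP

def mkD (four : Bool) (B lo hi : ℕ) (x : DT) : Tm :=
  ⟨x.1, x.2.1, dpw lo hi x.2.2.1 1 (2 ^ B), dpw lo hi x.2.2.1 1 1,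
    kN four B x.2.2.2, kT four x.2.2.2⟩

def qq (four : Bool) : ℕ := cond four 4 3

abbrev KL := List (Bool × ℕ × Ex)

def mainTerms (K : KL) (ext : List BT) : List BT :=
  K.map (fun x => (x.1, x.2.1, [(1, x.2.2)], [(1, x.2.2)])) ++ ext

def radTerms (four : Bool) (K : KL) (m : ℕ) (fp fn : NP) : List DT :=
  (true, m, 1, fp) :: (false, m, 1, fn) ::
    K.map (fun x => (!x.1, x.2.1 * qq four ^ (10 - x.2.2.deg), x.2.2.deg, [(1, x.2.2)]))

def degOK (four : Bool) (l : NP) : Bool :=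
  l.all fun t => Nat.ble t.2.deg 10 && (four || Nat.beq t.2.2.2.2 0)

def btOK (four : Bool) (l : List BT) : Bool :=
  l.all fun x => degOK four x.2.2.1 && degOK four x.2.2.2

/-- layer `k` of the bilinear check -/
def mainOK (four : Bool) (B : ℕ) (l : List BT) (k : ℕ) : Bool :=
  layerOK B 11 10 (l.map (mkB four B)) k

def mainSz (four : Bool) (B : ℕ) (l : List BT) : Bool :=
  btOK four l && sizeOK B (l.map (mkB four B))

/-- the radial check on one interval: only the rows `0, …, 12` of the first factor occur -/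
def radOK (four : Bool) (B lo hi : ℕ) (l : List DT) : Bool :=
  l.all (fun x => degOK four x.2.2.2 && Nat.ble x.2.2.1 12) && sizeOK B (l.map (mkD four B lo hi)) &&
    allLt 13 (rowOK B (2 ^ (B - 1) * ones B (11 * 11 * 11)) (l.map (mkD four B lo hi)))

def posOK (four : Bool) (B : ℕ) (lp ln : NP) : Bool :=
  degOK four lp && degOK four ln && Nat.blt (kT four lp + kT four ln) (2 ^ (B - 1)) &&
    Nat.beq ((kN four B lp + 2 ^ (B - 1) * ones B (11 * 11 * 11) - kN four B ln) &&&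
      (2 ^ (B - 1) * ones B (11 * 11 * 11))) (2 ^ (B - 1) * ones B (11 * 11 * 11))

def Ex.get (e : Ex) (i : ℕ) : ℕ := [e.1, e.2.1, e.2.2.1, e.2.2.2].getD i 0

noncomputable def Sym {q : ℕ} (e : Ex) (a : V q) : ℝ :=
  ∑ σ : Equiv.Perm (Fin q), ∏ i : Fin q, a (σ i) ^ e.get i

noncomputable def hv {q : ℕ} (l : NP) (a : V q) : ℝ :=
  (l.map fun t => (t.1 : ℝ) * (Sym t.2 a * (q : ℝ) ^ (10 - t.2.deg))).sum

noncomputable def btv {q : ℕ} (l : List BT) (a b : V q) : ℝ :=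
  (l.map fun x => sg x.1 * (x.2.1 : ℝ) * hv x.2.2.1 a * hv x.2.2.2 b).sum

end Vale.Agent.P154
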