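import Vale.Agent.P154.Base

namespace Vale.Agent.P154

variable {q : ℕ} [NeZero q]

theorem qpos : (0 : ℝ) < q := Nat.cast_pos.2 (Nat.pos_of_ne_zero (NeZero.ne q))

theorem qne : (q : ℝ) ≠ 0 := (qpos (q := q)).ne'

theorem one_mem_Sx : (1 : V q) ∈ Sx q := ⟨fun _ => zero_le_one, by simp⟩

theorem Sx.le {a : V q} (ha : a ∈ Sx q) (i : Fin q) : a i ≤ q := by
  rw [← ha.2]
  exact Finset.single_le_sum (fun j _ => ha.1 j) (Finset.mem_univ i)

theorem Sx.av {a : V q} (ha : a ∈ Sx q) : av a = 1 := by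
  unfold P154.av; rw [ha.2]; exact div_self qne

theorem Sx.nn {a : V q} (ha : a ∈ Sx q) : 0 ≤ a := fun i => ha.1 i

theorem Sx.perm {a : V q} (ha : a ∈ Sx q) (σ : Equiv.Perm (Fin q)) : a ∘ σ ∈ Sx q :=
  ⟨fun i => ha.1 _, by rw [← ha.2]; exact Equiv.sum_comp σ a⟩

theorem Sx.single (i : Fin q) : (Pi.single i (q : ℝ) : V q) ∈ Sx q := by
  refine ⟨fun j => ?_, by simp⟩
  rw [Pi.single_apply]; split_ifs
  · exact qpos.le
  · exact le_rfl

theorem av_nonneg {a : V q} (ha : 0 ≤ a) : 0 ≤ av a :=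
  div_nonneg (Finset.sum_nonneg fun i _ => ha i) qpos.le

theorem le_av {a : V q} (ha : 0 ≤ a) (i : Fin q) : a i ≤ q * av a := by
  unfold av
  rw [mul_div_cancel₀ _ qne]
  exact Finset.single_le_sum (f := a) (fun j _ => ha j) (Finset.mem_univ i)

theorem av_smul (t : ℝ) (a : V q) : av (t • a) = t * av a := by
  unfold av
  simp only [Pi.smul_apply, smul_eq_mul, ← Finset.mul_sum]
  ring

theorem av_add (a b : V q) : av (a + b) = av a + av b := by
  unfold av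
  simp only [Pi.add_apply, Finset.sum_add_distrib]
  ring

theorem av_perm (a : V q) (σ : Equiv.Perm (Fin q)) : av (a ∘ σ) = av a := by
  unfold av
  congr 1
  exact Equiv.sum_comp σ a

theorem eq_zero_of_av {a : V q} (ha : 0 ≤ a) (h : av a = 0) : a = 0 := by
  funext i
  have := le_av ha i
  rw [h, mul_zero] at this
  exact le_antisymm this (ha i)

theorem norm_mem {a : V q} (ha : 0 ≤ a) (h : av a ≠ 0) : (av a)⁻¹ • a ∈ Sx q := by
  refine ⟨fun i => mul_nonneg (inv_nonneg.2 (av_nonneg ha)) (ha i), ?_⟩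
  have h2 : av ((av a)⁻¹ • a) = 1 := by rw [av_smul, inv_mul_cancel₀ h]
  unfold av at h2
  rw [div_eq_one_iff_eq qne] at h2
  exact h2

theorem Mv_nonneg {lam : ℝ} (h : Adm q lam) {a : V q} (ha : 0 ≤ a) : 0 ≤ Mv lam a := by
  intro i
  have h0 := av_nonneg ha
  have h1 := le_av ha i
  have h2 : 0 ≤ a i := ha i
  show 0 ≤ lam * a i + (1 - lam) * av a
  rcases le_total 0 lam with hl | hl
  · exact add_nonneg (mul_nonneg hl h2) (mul_nonneg (sub_nonneg.2 h.2) h0)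
  · have h3 : lam * (q * av a) ≤ lam * a i := mul_le_mul_of_nonpos_left h1 hl
    have h4 : 0 ≤ (((q : ℝ) - 1) * lam + 1) * av a := mul_nonneg (by linarith [h.1]) h0
    nlinarith

theorem av_Mv (lam : ℝ) (a : V q) : av (Mv lam a) = av a := by
  have h : (∑ i, a i) = q * av a := by unfold av; rw [mul_div_cancel₀ _ qne]
  have : av (Mv lam a) = (lam * (∑ i, a i) + q * ((1 - lam) * av a)) / q := by
    unfold Mv
    rw [av, Finset.sum_add_distrib, ← Finset.mul_sum]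
    simp
  rw [this, h]
  field_simp [qne (q := q)]
  ring

theorem Sx.Mv {lam : ℝ} (h : Adm q lam) {a : V q} (ha : a ∈ Sx q) : Mv lam a ∈ Sx q := by
  refine ⟨fun i => Mv_nonneg h (Sx.nn ha) i, ?_⟩
  have h2 := av_Mv lam a
  rw [Sx.av ha] at h2
  unfold P154.av at h2
  rw [div_eq_one_iff_eq qne] at h2
  exact h2

theorem isCompact_Sx : IsCompact (Sx q) := by
  have h1 : IsCompact (Set.Icc (0 : V q) (fun _ => (q : ℝ))) := isCompact_Icc
  refine h1.of_isClosed_subset ?_ (fun a ha => ⟨Sx.nn ha, fun i => Sx.le ha i⟩)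
  have : Sx q = (⋂ i, {a : V q | 0 ≤ a i}) ∩ {a : V q | ∑ i, a i = q} := by
    ext a; simp [Sx]
  rw [this]
  exact (isClosed_iInter fun i => isClosed_le continuous_const (continuous_apply i)).inter
    (isClosed_eq (by fun_prop) continuous_const)

theorem Bd.of_continuous {φ : V q → ℝ} (h : Continuous φ) : Bd φ := by
  obtain ⟨C, hC⟩ := isCompact_Sx.exists_bound_of_continuousOn h.continuousOn
  exact ⟨C, fun a ha => hC a ha⟩

theorem Bd.const (c : ℝ) : Bd (fun _ : V q => c) := ⟨|c|, fun _ _ => le_rfl⟩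

theorem Bd.add {φ ψ : V q → ℝ} (h : Bd φ) (h' : Bd ψ) : Bd (fun a => φ a + ψ a) := by
  obtain ⟨C, hC⟩ := h
  obtain ⟨D, hD⟩ := h'
  exact ⟨C + D, fun a ha => (abs_add_le _ _).trans (add_le_add (hC a ha) (hD a ha))⟩

theorem Bd.sub {φ ψ : V q → ℝ} (h : Bd φ) (h' : Bd ψ) : Bd (fun a => φ a - ψ a) := by
  obtain ⟨C, hC⟩ := h
  obtain ⟨D, hD⟩ := h'
  exact ⟨C + D, fun a ha => (abs_sub _ _).trans (add_le_add (hC a ha) (hD a ha))⟩

theorem Bd.mul {φ ψ : V q → ℝ} (h : Bd φ) (h' : Bd ψ) : Bd (fun a => φ a * ψ a) := by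
  obtain ⟨C, hC⟩ := h
  obtain ⟨D, hD⟩ := h'
  refine ⟨C * D, fun a ha => ?_⟩
  rw [abs_mul]
  exact mul_le_mul (hC a ha) (hD a ha) (abs_nonneg _) ((abs_nonneg _).trans (hC a ha))

theorem Bd.sum {ι : Type} (s : Finset ι) {φ : ι → V q → ℝ} (h : ∀ i ∈ s, Bd (φ i)) :
    Bd (fun a => ∑ i ∈ s, φ i a) := by
  classical
  induction s using Finset.induction_on with
  | empty => simpa using Bd.const (q := q) 0
  | insert i s hi ih =>
    simp only [Finset.sum_insert hi]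
    exact (h i (by simp)).add (ih fun j hj => h j (by simp [hj]))

theorem Bd.perm {φ : V q → ℝ} (h : Bd φ) (σ : Equiv.Perm (Fin q)) : Bd (fun a => φ (a ∘ σ)) := by
  obtain ⟨C, hC⟩ := h
  exact ⟨C, fun a ha => hC _ (Sx.perm ha σ)⟩

theorem Bd.Mv {lam : ℝ} (hl : Adm q lam) {φ : V q → ℝ} (h : Bd φ) :
    Bd (fun a => φ (Mv lam a)) := by
  obtain ⟨C, hC⟩ := h
  exact ⟨C, fun a ha => hC _ (Sx.Mv hl ha)⟩

theorem Sub.zero {G : V q → ℝ} (h : Sub G) : G 0 = 0 := by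
  have := h.2 0 0 le_rfl le_rfl
  simpa using this

theorem Sub.sum_le {G : V q → ℝ} (h : Sub G) {ι : Type} (s : Finset ι) (x : ι → V q)
    (hx : ∀ i ∈ s, 0 ≤ x i) : G (∑ i ∈ s, x i) ≤ ∑ i ∈ s, G (x i) := by
  classical
  induction s using Finset.induction_on with
  | empty => simp [h.zero]
  | insert i s hi ih =>
    rw [Finset.sum_insert hi, Finset.sum_insert hi]
    have h1 : ∀ j ∈ s, 0 ≤ x j := fun j hj => hx j (by simp [hj])
    exact (h.1 _ _ (hx i (by simp)) (Finset.sum_nonneg h1)).trans (add_le_add le_rfl (ih h1))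

theorem single_nn (i : Fin q) : (0 : V q) ≤ Pi.single i 1 := by
  intro j
  rw [Pi.single_apply]; split_ifs
  · exact zero_le_one
  · exact le_rfl

theorem Sub.le_coord {G : V q → ℝ} (h : Sub G) {a : V q} (ha : 0 ≤ a) :
    G a ≤ ∑ i, a i * G (Pi.single i 1) := by
  have e : a = ∑ i, a i • (Pi.single i 1 : V q) := by
    funext j
    simp [Finset.sum_apply, Pi.single_apply]
  calc G a = G (∑ i, a i • (Pi.single i 1 : V q)) := by rw [← e]
    _ ≤ ∑ i, G (a i • (Pi.single i 1 : V q)) :=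
      h.sum_le _ _ fun i _ => smul_nonneg (ha i) (single_nn i)
    _ = _ := Finset.sum_congr rfl fun i _ => h.2 _ _ (ha i) (single_nn i)

/-- a sublinear function is bounded on boxes -/
theorem Sub.box {G : V q → ℝ} (h : Sub G) (R : ℝ) :
    ∃ C, ∀ a : V q, 0 ≤ a → (∀ i, a i ≤ R) → |G a| ≤ C := by
  have up : ∀ a : V q, 0 ≤ a → (∀ i, a i ≤ R) → G a ≤ ∑ i, R * |G (Pi.single i 1)| := by
    intro a ha hR
    refine (h.le_coord ha).trans (Finset.sum_le_sum fun i _ => ?_)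
    exact (mul_le_mul_of_nonneg_left (le_abs_self _) (ha i)).trans
      (mul_le_mul_of_nonneg_right (hR i) (abs_nonneg _))
  refine ⟨(∑ i, R * |G (Pi.single i 1)|) + |G (fun _ => R)|, fun a ha hR => ?_⟩
  have h1 := up a ha hR
  have hb : (0 : V q) ≤ (fun _ => R) - a := fun i => sub_nonneg.2 (hR i)
  have h2 := up ((fun _ => R) - a) hb (fun i => sub_le_self _ (ha i))
  have h3 := h.1 a ((fun _ => R) - a) ha hb
  rw [add_sub_cancel] at h3
  have h4 := neg_abs_le (G fun _ => R)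
  have h5 := abs_nonneg (G fun _ => R)
  rw [abs_le]
  constructor <;> linarith

theorem Sub.bd {G : V q → ℝ} (h : Sub G) : Bd G := by
  obtain ⟨C, hC⟩ := h.box q
  exact ⟨C, fun a ha => hC a (Sx.nn ha) (Sx.le ha)⟩

theorem bd_X2 : Bd (X2 : V q → ℝ) := Bd.of_continuous (by unfold X2; fun_prop)
theorem bd_X3 : Bd (X3 : V q → ℝ) := Bd.of_continuous (by unfold X3; fun_prop)
theorem bd_X4 : Bd (X4 : V q → ℝ) := Bd.of_continuous (by unfold X4; fun_prop)
theorem bd_tv : Bd (tv : V q → ℝ) := Bd.of_continuous (by unfold tv; fun_prop)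

theorem hat_of_mem (φ : V q → ℝ) {a : V q} (ha : a ∈ Sx q) : hat φ a = φ a := by
  unfold hat; rw [Sx.av ha]; simp

theorem hat_smul (φ : V q → ℝ) {t : ℝ} (ht : 0 ≤ t) (w : V q) :
    hat φ (t • w) = t * hat φ w := by
  unfold hat
  rw [av_smul]
  rcases ht.eq_or_lt with rfl | ht
  · simp
  · rw [smul_smul, mul_inv, mul_right_comm t⁻¹, inv_mul_cancel₀ ht.ne', one_mul, mul_assoc]

theorem hat_perm (φ : V q → ℝ) (σ : Equiv.Perm (Fin q)) (w : V q) :
    hat (fun a => φ (a ∘ σ)) w = hat φ (w ∘ σ) := by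
  unfold hat
  rw [av_perm]
  rfl

theorem hat_sub {G : V q → ℝ} (h : Sub G) {w : V q} (hw : 0 ≤ w) : hat G w = G w := by
  unfold hat
  by_cases h0 : av w = 0
  · rw [h0, zero_mul, eq_zero_of_av hw h0, h.zero]
  · rw [h.2 _ _ (inv_nonneg.2 (av_nonneg hw)) hw, ← mul_assoc, mul_inv_cancel₀ h0, one_mul]

theorem hat_le {φ ψ : V q → ℝ} (h : ∀ a ∈ Sx q, φ a ≤ ψ a) {w : V q} (hw : 0 ≤ w) :
    hat φ w ≤ hat ψ w := by
  unfold hat
  by_cases h0 : av w = 0
  · rw [h0, zero_mul, zero_mul]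
  · exact mul_le_mul_of_nonneg_left (h _ (norm_mem hw h0)) (av_nonneg hw)

theorem abs_hat_le {φ : V q → ℝ} {C : ℝ} (h : ∀ a ∈ Sx q, |φ a| ≤ C) {w : V q} (hw : 0 ≤ w) :
    |hat φ w| ≤ C * av w := by
  unfold hat
  by_cases h0 : av w = 0
  · rw [h0, zero_mul, mul_zero, abs_zero]
  · rw [abs_mul, abs_of_nonneg (av_nonneg hw), mul_comm]
    exact mul_le_mul_of_nonneg_right (h _ (norm_mem hw h0)) (av_nonneg hw)

theorem mul_nn {a b : V q} (ha : 0 ≤ a) (hb : 0 ≤ b) : 0 ≤ a * b :=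
  fun i => mul_nonneg (ha i) (hb i)

theorem av_mul_le {a b : V q} (ha : a ∈ Sx q) (hb : b ∈ Sx q) : av (a * b) ≤ q := by
  unfold av
  rw [div_le_iff₀ qpos]
  calc ∑ i, (a * b) i ≤ ∑ i, q * b i := Finset.sum_le_sum fun i _ =>
        mul_le_mul_of_nonneg_right (Sx.le ha i) (hb.1 i)
    _ = q * q := by rw [← Finset.mul_sum, hb.2]

/-- uniform bound for the two-variable function of the product -/
theorem Bd.hat_mul {φ : V q → ℝ} (h : Bd φ) :
    ∃ C, ∀ a ∈ Sx q, ∀ b ∈ Sx q, |hat φ (a * b)| ≤ C := by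
  obtain ⟨C, hC⟩ := h
  have h0 : 0 ≤ C := (abs_nonneg _).trans (hC 1 one_mem_Sx)
  exact ⟨C * q, fun a ha b hb => (abs_hat_le hC (mul_nn (Sx.nn ha) (Sx.nn hb))).trans
    (mul_le_mul_of_nonneg_left (av_mul_le ha hb) h0)⟩

theorem Bd.SS {φ : V q → ℝ} (h : Bd φ) :
    ∃ C, ∀ a ∈ Sx q, ∀ b ∈ Sx q, |SS φ a b| ≤ C := by
  obtain ⟨C, hC⟩ := h.hat_mul
  refine ⟨(∑ _σ : Equiv.Perm (Fin q), C) / (q.factorial : ℝ), fun a ha b hb => ?_⟩
  unfold P154.SS
  rw [abs_div, abs_of_nonneg (Nat.cast_nonneg (α := ℝ) q.factorial)]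
  refine div_le_div_of_nonneg_right ?_ (Nat.cast_nonneg _)
  exact (Finset.abs_sum_le_sum_abs _ _).trans
    (Finset.sum_le_sum fun σ _ => hC a ha _ (Sx.perm hb σ))

theorem Sub.mul_left {G : V q → ℝ} (h : Sub G) {a : V q} (ha : 0 ≤ a) :
    Sub (fun b => G (a * b)) := by
  refine ⟨fun x y hx hy => ?_, fun t x ht hx => ?_⟩
  · show G (a * (x + y)) ≤ G (a * x) + G (a * y)
    rw [mul_add]
    exact h.1 _ _ (mul_nn ha hx) (mul_nn ha hy)
  · show G (a * (t • x)) = t * G (a * x)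
    rw [mul_smul_comm]
    exact h.2 _ _ ht (mul_nn ha hx)

theorem Mv_add (lam : ℝ) (x y : V q) : Mv lam (x + y) = Mv lam x + Mv lam y := by
  funext i
  simp only [Mv, av_add, Pi.add_apply]
  ring

theorem Mv_smul (lam t : ℝ) (x : V q) : Mv lam (t • x) = t • Mv lam x := by
  funext i
  simp only [Mv, av_smul, Pi.smul_apply, smul_eq_mul]
  ring

theorem Mv_perm (lam : ℝ) (x : V q) (σ : Equiv.Perm (Fin q)) :
    Mv lam (x ∘ σ) = Mv lam x ∘ σ := by
  funext i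
  simp only [Mv, av_perm, Function.comp_apply]

theorem Mv_one (lam : ℝ) : Mv lam (1 : V q) = 1 := by
  funext i
  simp only [Mv, Sx.av (one_mem_Sx (q := q)), Pi.one_apply]
  ring

theorem Sub.Mv {lam : ℝ} (hl : Adm q lam) {G : V q → ℝ} (h : Sub G) :
    Sub (fun a => G (Mv lam a)) := by
  refine ⟨fun x y hx hy => ?_, fun t x ht hx => ?_⟩
  · show G (P154.Mv lam (x + y)) ≤ G (P154.Mv lam x) + G (P154.Mv lam y)
    rw [Mv_add]
    exact h.1 _ _ (Mv_nonneg hl hx) (Mv_nonneg hl hy)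
  · show G (P154.Mv lam (t • x)) = t * G (P154.Mv lam x)
    rw [Mv_smul]
    exact h.2 _ _ ht (Mv_nonneg hl hx)

theorem Sub.perm {G : V q → ℝ} (h : Sub G) (σ : Equiv.Perm (Fin q)) :
    Sub (fun a => G (a ∘ σ)) :=
  ⟨fun x y hx hy => h.1 (x ∘ σ) (y ∘ σ) (fun i => hx (σ i)) (fun i => hy (σ i)),
    fun t x ht hx => h.2 t (x ∘ σ) ht (fun i => hx (σ i))⟩

theorem bd_coord (i : Fin q) : Bd (fun a : V q => a i) := Bd.of_continuous (continuous_apply i)

theorem hat_add (φ ψ : V q → ℝ) (w : V q) :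
    hat (fun a => φ a + ψ a) w = hat φ w + hat ψ w := by
  unfold hat; ring

theorem hat_cmul (c : ℝ) (φ : V q → ℝ) (w : V q) :
    hat (fun a => c * φ a) w = c * hat φ w := by
  unfold hat; ring

theorem hat_coord (i : Fin q) {w : V q} (hw : 0 ≤ w) : hat (fun a => a i) w = w i := by
  unfold hat
  by_cases h0 : av w = 0
  · rw [h0, zero_mul, eq_zero_of_av hw h0]; rfl
  · simp only [Pi.smul_apply, smul_eq_mul]
    rw [← mul_assoc, mul_inv_cancel₀ h0, one_mul]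

namespace IsLaw

variable {L A B : Fn q}

theorem congr (h : IsLaw L) {φ ψ : V q → ℝ} (hφ : Bd φ) (e : ∀ a ∈ Sx q, φ a = ψ a) :
    L φ = L ψ := by
  have hψ : Bd ψ := by
    obtain ⟨C, hC⟩ := hφ
    exact ⟨C, fun a ha => e a ha ▸ hC a ha⟩
  exact le_antisymm (h.mono _ _ hφ hψ fun a ha => (e a ha).le)
    (h.mono _ _ hψ hφ fun a ha => (e a ha).ge)

theorem sum (h : IsLaw L) {ι : Type} (s : Finset ι) {φ : ι → V q → ℝ} (hφ : ∀ i ∈ s, Bd (φ i)) :
    L (fun a => ∑ i ∈ s, φ i a) = ∑ i ∈ s, L (φ i) := by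
  classical
  induction s using Finset.induction_on with
  | empty =>
    have := h.smul 0 (fun _ => 0) (Bd.const 0)
    simpa using this
  | insert i s hi ih =>
    simp only [Finset.sum_insert hi]
    have h1 : ∀ j ∈ s, Bd (φ j) := fun j hj => hφ j (by simp [hj])
    rw [h.add _ _ (hφ i (by simp)) (Bd.sum s h1), ih h1]

theorem const (h : IsLaw L) (c : ℝ) : L (fun _ => c) = c := by
  have hb : Bd (fun a : V q => ∑ i, a i) := Bd.sum _ fun i _ => bd_coord i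
  have h1 : L (fun _ => c) = L (fun a => (c / q) * ∑ i, a i) :=
    h.congr (Bd.const c) fun a ha => by rw [ha.2, div_mul_cancel₀ _ qne]
  rw [h1, h.smul _ _ hb, h.sum _ fun i _ => bd_coord i]
  simp only [h.coord]
  simp [div_mul_cancel₀ _ (qne (q := q))]

theorem sub (h : IsLaw L) {φ ψ : V q → ℝ} (hφ : Bd φ) (hψ : Bd ψ) :
    L (fun a => φ a - ψ a) = L φ - L ψ := by
  have h1 := h.add φ (fun a => (-1) * ψ a) hφ ((Bd.const _).mul hψ)
  rw [h.smul _ _ hψ] at h1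
  simpa [sub_eq_add_neg] using h1

theorem nonneg (h : IsLaw L) {φ : V q → ℝ} (hφ : Bd φ) (h0 : ∀ a ∈ Sx q, 0 ≤ φ a) :
    0 ≤ L φ := by
  have := h.mono _ _ (Bd.const 0) hφ h0
  rwa [h.const] at this

theorem abs_le (h : IsLaw L) {φ : V q → ℝ} {C : ℝ} (hC : ∀ a ∈ Sx q, |φ a| ≤ C) :
    |L φ| ≤ C := by
  have h1 := h.mono _ _ ⟨C, hC⟩ (Bd.const C) fun a ha => (_root_.abs_le.1 (hC a ha)).2
  have h2 := h.mono _ _ (Bd.const (-C)) ⟨C, hC⟩ fun a ha => (_root_.abs_le.1 (hC a ha)).1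
  rw [h.const] at h1 h2
  exact _root_.abs_le.2 ⟨h2, h1⟩

theorem bd_inner (h : IsLaw L) {F : V q → V q → ℝ}
    (hF : ∃ C, ∀ a ∈ Sx q, ∀ b ∈ Sx q, |F a b| ≤ C) : Bd (fun a => L (F a)) := by
  obtain ⟨C, hC⟩ := hF
  exact ⟨C, fun a ha => h.abs_le (hC a ha)⟩

/-- integrating out one factor of the product keeps sublinearity -/
theorem sub_inner (h : IsLaw L) {G : V q → ℝ} (hG : Sub G) :
    Sub (fun a => L fun b => G (a * b)) := by
  refine ⟨fun x y hx hy => ?_, fun t x ht hx => ?_⟩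
  · have bx := (hG.mul_left hx).bd
    have by' := (hG.mul_left hy).bd
    show L (fun b => G ((x + y) * b)) ≤ L (fun b => G (x * b)) + L (fun b => G (y * b))
    rw [← h.add _ _ bx by']
    refine h.mono _ _ (hG.mul_left (add_nonneg hx hy)).bd (bx.add by') fun b hb => ?_
    rw [add_mul]
    exact hG.1 _ _ (mul_nn hx (Sx.nn hb)) (mul_nn hy (Sx.nn hb))
  · show L (fun b => G ((t • x) * b)) = t * L (fun b => G (x * b))
    rw [← h.smul _ _ (hG.mul_left hx).bd]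
    refine h.congr (hG.mul_left (smul_nonneg ht hx)).bd fun b hb => ?_
    rw [smul_mul_assoc]
    exact hG.2 _ _ ht (mul_nn hx (Sx.nn hb))

theorem bd_hat {φ : V q → ℝ} (hφ : Bd φ) {a : V q} (ha : a ∈ Sx q) :
    Bd (fun b => hat φ (a * b)) := by
  obtain ⟨C, hC⟩ := hφ.hat_mul
  exact ⟨C, hC a ha⟩

theorem star_sub (hA : IsLaw A) (hB : IsLaw B) {G : V q → ℝ} (hG : Sub G) :
    star A B G = A fun a => B fun b => G (a * b) := by
  refine hA.congr (hB.bd_inner hG.bd.hat_mul) fun a ha => ?_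
  exact hB.congr (bd_hat hG.bd ha) fun b hb => hat_sub hG (mul_nn (Sx.nn ha) (Sx.nn hb))

theorem star (hA : IsLaw A) (hB : IsLaw B) : IsLaw (star A B) := by
  refine ⟨fun φ ψ hφ hψ h => ?_, fun φ ψ hφ hψ => ?_, fun c φ hφ => ?_, fun i => ?_,
    fun σ φ hφ => ?_, fun G hG => ?_⟩
  · refine hA.mono _ _ (hB.bd_inner hφ.hat_mul) (hB.bd_inner hψ.hat_mul) fun a ha => ?_
    exact hB.mono _ _ (bd_hat hφ ha) (bd_hat hψ ha) fun b hb =>
      hat_le h (mul_nn (Sx.nn ha) (Sx.nn hb))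
  · unfold P154.star
    rw [← hA.add _ _ (hB.bd_inner hφ.hat_mul) (hB.bd_inner hψ.hat_mul)]
    refine hA.congr (hB.bd_inner (hφ.add hψ).hat_mul) fun a ha => ?_
    simp only [hat_add]
    exact hB.add _ _ (bd_hat hφ ha) (bd_hat hψ ha)
  · unfold P154.star
    rw [← hA.smul _ _ (hB.bd_inner hφ.hat_mul)]
    refine hA.congr (hB.bd_inner ((Bd.const c).mul hφ).hat_mul) fun a ha => ?_
    simp only [hat_cmul]
    exact hB.smul _ _ (bd_hat hφ ha)
  · unfold P154.star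
    rw [← hA.coord i]
    refine hA.congr (hB.bd_inner (bd_coord i).hat_mul) fun a ha => ?_
    have h1 : B (fun b => hat (fun c => c i) (a * b)) = B (fun b => a i * b i) :=
      hB.congr (bd_hat (bd_coord i) ha) fun b hb => hat_coord i (mul_nn (Sx.nn ha) (Sx.nn hb))
    rw [h1, hB.smul _ _ (bd_coord i), hB.coord, mul_one]
  · unfold P154.star
    rw [← hA.perm σ _ (hB.bd_inner hφ.hat_mul)]
    refine hA.congr (hB.bd_inner (hφ.perm σ).hat_mul) fun a ha => ?_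
    rw [← hB.perm σ _ (bd_hat hφ (Sx.perm ha σ))]
    simp only [hat_perm]
    rfl
  · rw [star_sub hA hB hG]
    refine le_trans ?_ (hA.jen _ (hB.sub_inner hG))
    have := hB.jen _ (hG.mul_left (a := 1) zero_le_one)
    simpa using this

theorem unit : IsLaw (unit : Fn q) :=
  ⟨fun _ _ _ _ h => h 1 one_mem_Sx, fun _ _ _ _ => rfl, fun _ _ _ => rfl, fun _ => rfl,
    fun _ _ _ => rfl, fun _ _ => le_rfl⟩

theorem Mop {lam : ℝ} (hl : Adm q lam) (hA : IsLaw A) : IsLaw (Mop lam A) := by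
  refine ⟨fun φ ψ hφ hψ h => ?_, fun φ ψ hφ hψ => ?_, fun c φ hφ => ?_, fun i => ?_,
    fun σ φ hφ => ?_, fun G hG => ?_⟩
  · exact hA.mono _ _ (hφ.Mv hl) (hψ.Mv hl) fun a ha => h _ (Sx.Mv hl ha)
  · exact hA.add _ _ (hφ.Mv hl) (hψ.Mv hl)
  · exact hA.smul _ _ (hφ.Mv hl)
  · have h1 : P154.Mop lam A (fun a => a i) = A (fun a => lam * a i + (1 - lam)) :=
      hA.congr ((bd_coord i).Mv hl) fun a ha => by simp only [Mv, Sx.av ha, mul_one]
    rw [h1, hA.add _ _ ((Bd.const _).mul (bd_coord i)) (Bd.const _), hA.smul _ _ (bd_coord i),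
      hA.coord, hA.const]
    ring
  · have := hA.perm σ _ (hφ.Mv hl)
    simp only [Mv_perm] at this
    exact this
  · have := hA.jen _ (hG.Mv hl)
    rw [Mv_one] at this
    exact this

theorem pw (hA : IsLaw A) (k : ℕ) : IsLaw (pw A k) := by
  induction k with
  | zero => exact unit
  | succ k ih => exact hA.star ih

theorem summ {p : ℕ → ℝ} (hp : Prob p) {F : ℕ → Fn q} (hF : ∀ k, IsLaw (F k))
    {φ : V q → ℝ} (hφ : Bd φ) : Summable fun k => p k * F k φ := by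
  obtain ⟨C, hC⟩ := hφ
  refine Summable.of_norm_bounded (hp.2.summable.mul_right C) fun k => ?_
  rw [Real.norm_eq_abs, abs_mul, abs_of_nonneg (hp.1 k)]
  exact mul_le_mul_of_nonneg_left ((hF k).abs_le hC) (hp.1 k)

theorem mix {p : ℕ → ℝ} (hp : Prob p) {F : ℕ → Fn q} (hF : ∀ k, IsLaw (F k)) :
    IsLaw (mix p F) := by
  refine ⟨fun φ ψ hφ hψ h => ?_, fun φ ψ hφ hψ => ?_, fun c φ hφ => ?_, fun i => ?_,
    fun σ φ hφ => ?_, fun G hG => ?_⟩
  · exact (summ hp hF hφ).tsum_le_tsum (fun k => mul_le_mul_of_nonneg_left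
      ((hF k).mono _ _ hφ hψ h) (hp.1 k)) (summ hp hF hψ)
  · unfold P154.mix
    rw [← (summ hp hF hφ).tsum_add (summ hp hF hψ)]
    exact tsum_congr fun k => by rw [(hF k).add _ _ hφ hψ, mul_add]
  · unfold P154.mix
    rw [← tsum_mul_left]
    exact tsum_congr fun k => by rw [(hF k).smul _ _ hφ]; ring
  · unfold P154.mix
    rw [← hp.2.tsum_eq]
    exact tsum_congr fun k => by rw [(hF k).coord, mul_one]
  · exact tsum_congr fun k => by rw [(hF k).perm _ _ hφ]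
  · have h1 : G 1 = ∑' k, p k * G 1 := by rw [tsum_mul_right, hp.2.tsum_eq, one_mul]
    rw [h1]
    exact (hp.2.summable.mul_right _).tsum_le_tsum (fun k => mul_le_mul_of_nonneg_left
      ((hF k).jen G hG) (hp.1 k)) (summ hp hF hG.bd)

theorem top : IsLaw (top : Fn q) := by
  refine ⟨fun φ ψ _ _ h => ?_, fun φ ψ _ _ => ?_, fun c φ _ => ?_, fun i => ?_,
    fun σ φ _ => ?_, fun G hG => ?_⟩
  · exact div_le_div_of_nonneg_right (Finset.sum_le_sum fun i _ => h _ (Sx.single i)) qpos.le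
  · unfold P154.top
    rw [Finset.sum_add_distrib, add_div]
  · unfold P154.top
    rw [← Finset.mul_sum, mul_div_assoc]
  · unfold P154.top
    simp [Pi.single_apply, qne (q := q)]
  · unfold P154.top
    congr 1
    rw [← Equiv.sum_comp σ]
    refine Finset.sum_congr rfl fun i _ => ?_
    refine congrArg φ ?_
    funext j
    simp [Pi.single_apply]
  · unfold P154.top
    have e : (∑ i, (Pi.single i (q : ℝ) : V q)) = (q : ℝ) • (1 : V q) := by
      funext j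
      simp [Finset.sum_apply, Pi.single_apply]
    have h1 := hG.sum_le Finset.univ (fun i => (Pi.single i (q : ℝ) : V q))
      fun i _ => Sx.nn (Sx.single i)
    rw [e, hG.2 _ _ qpos.le zero_le_one] at h1
    rw [le_div_iff₀ qpos, mul_comm]
    exact h1

theorem seq {lam : ℝ} (hl : Adm q lam) {p : ℕ → ℝ} (hp : Prob p) (n : ℕ) :
    IsLaw (seq lam p n : Fn q) := by
  induction n with
  | zero => exact top
  | succ n ih => exact mix hp fun k => (ih.Mop hl).pw k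

theorem star_unit (hA : IsLaw A) {φ : V q → ℝ} (hφ : Bd φ) :
    P154.star A P154.unit φ = A φ := by
  refine (hA.congr hφ fun a ha => ?_).symm
  show φ a = hat φ (a * 1)
  rw [mul_one, hat_of_mem φ ha]

/-- convex combination of two laws -/
theorem comb (hA : IsLaw A) (hB : IsLaw B) {w : ℝ} (h0 : 0 ≤ w) (h1 : w ≤ 1) :
    IsLaw (fun φ => w * A φ + (1 - w) * B φ) := by
  have h2 : 0 ≤ 1 - w := sub_nonneg.2 h1
  refine ⟨fun φ ψ hφ hψ h => ?_, fun φ ψ hφ hψ => ?_, fun c φ hφ => ?_, fun i => ?_,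
    fun σ φ hφ => ?_, fun G hG => ?_⟩
  · exact add_le_add (mul_le_mul_of_nonneg_left (hA.mono _ _ hφ hψ h) h0)
      (mul_le_mul_of_nonneg_left (hB.mono _ _ hφ hψ h) h2)
  · show w * A _ + (1 - w) * B _ = (w * A φ + (1 - w) * B φ) + (w * A ψ + (1 - w) * B ψ)
    rw [hA.add _ _ hφ hψ, hB.add _ _ hφ hψ]; ring
  · show w * A _ + (1 - w) * B _ = c * (w * A φ + (1 - w) * B φ)
    rw [hA.smul _ _ hφ, hB.smul _ _ hφ]; ring
  · show w * A _ + (1 - w) * B _ = 1
    rw [hA.coord, hB.coord]; ring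
  · show w * A _ + (1 - w) * B _ = w * A φ + (1 - w) * B φ
    rw [hA.perm _ _ hφ, hB.perm _ _ hφ]
  · show G 1 ≤ w * A G + (1 - w) * B G
    have a1 := mul_le_mul_of_nonneg_left (hA.jen G hG) h0
    have a2 := mul_le_mul_of_nonneg_left (hB.jen G hG) h2
    linarith

end IsLaw

theorem summable_mix {p : ℕ → ℝ} (hp : Prob p) {F : ℕ → Fn q} (hF : ∀ k, IsLaw (F k))
    {φ : V q → ℝ} (hφ : Bd φ) : Summable fun k => p k * F k φ := IsLaw.summ hp hF hφ

end Vale.Agent.P154
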