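import Vale.Agent.P154.Pat

namespace Vale.Agent.P154

open Finset

def mstE : V 3 := ![1, 0, 0]

theorem mstE_nn : (0 : V 3) ≤ mstE := by
  intro i; fin_cases i <;> simp [mstE]

theorem mst_ed0_nn : (0 : V 3) ≤ ed0 := by
  intro i; fin_cases i <;> simp [ed0]

theorem mst_adm {P : Par} (hP : parOK P = true) :
    Adm 3 (-((P.ln : ℝ) / P.ld)) ∧ Adm 3 (-((P.ln : ℝ) / P.ld / 2)) ∧
      0 ≤ (P.wn : ℝ) / P.wd ∧ (P.wn : ℝ) / P.wd ≤ 1 := by
  obtain ⟨-, -, -, -, -, -, -, -, -, -, h1, h2, h3, h4, -⟩ := parOK_iff.1 hP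
  have a0 : (0 : ℝ) ≤ (P.ln : ℝ) / P.ld := by positivity
  have a1 : (P.ln : ℝ) / P.ld ≤ 1 / 2 := by
    rw [div_le_div_iff₀ (Nat.cast_pos.2 h1) (by norm_num)]
    have : ((2 * P.ln : ℕ) : ℝ) ≤ P.ld := Nat.cast_le.2 h2
    push_cast at this
    linarith
  refine ⟨⟨by push_cast; linarith, by linarith⟩, ⟨by push_cast; linarith, by linarith⟩,
    by positivity, (div_le_one (Nat.cast_pos.2 h3)).2 (Nat.cast_le.2 h4)⟩

theorem km_Gm {P : Par} (hP : parOK P = true) {G : V 3 → ℝ} (hG : Km G) : Km (Gm P G) := by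
  obtain ⟨a1, a2, w0, w1⟩ := mst_adm hP
  have w2 := sub_nonneg.2 w1
  refine ⟨⟨fun x y hx hy => ?_, fun t x ht hx => ?_⟩, fun w hw => ?_⟩
  · have b1 := mul_le_mul_of_nonneg_left ((hG.1.Mv a1).1 x y hx hy) w0
    have b2 := mul_le_mul_of_nonneg_left ((hG.1.Mv a2).1 x y hx hy) w2
    unfold Gm
    linarith
  · have b1 := (hG.1.Mv a1).2 t x ht hx
    have b2 := (hG.1.Mv a2).2 t x ht hx
    unfold Gm
    simp only at b1 b2
    rw [b1, b2]
    ring
  · exact add_nonpos (mul_nonpos_of_nonneg_of_nonpos w0 (hG.2 _ (Mv_nonneg a1 hw)))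
      (mul_nonpos_of_nonneg_of_nonpos w2 (hG.2 _ (Mv_nonneg a2 hw)))

theorem sym_Gm (P : Par) {G : V 3 → ℝ} (hS : SymG G) : SymG (Gm P G) := by
  intro σ w
  unfold Gm
  rw [Mv_perm, Mv_perm, hS, hS]

theorem mixC_eq {P : Par} (hP : parOK P = true) {Q : Fn 3} (hQ : IsLaw Q) {G : V 3 → ℝ}
    (hG : Km G) : MixC P.ln P.ld P.wn P.wd Q G = Q (Gm P G) := by
  obtain ⟨a1, a2, -, -⟩ := mst_adm hP
  have b1 := hG.1.bd.Mv a1
  have b2 := hG.1.bd.Mv a2
  unfold MixC Mop Gm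
  rw [hQ.add _ _ ((Bd.const _).mul b1) ((Bd.const _).mul b2), hQ.smul _ _ b1, hQ.smul _ _ b2]

/-- the part of `F` below its values at the corners -/
noncomputable def mstH (F : V 3 → ℝ) (w : V 3) : ℝ := F w - (∑ i, w i) * F mstE

theorem km_mstH {F : V 3 → ℝ} (hF : Km F) (hS : SymG F) : Km (mstH F) := by
  refine ⟨⟨fun x y hx hy => ?_, fun t x ht hx => ?_⟩, fun w hw => ?_⟩
  · have := hF.1.1 x y hx hy
    simp only [mstH, Pi.add_apply, sum_add_distrib]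
    linarith
  · simp only [mstH, Pi.smul_apply, smul_eq_mul, ← mul_sum]
    rw [hF.1.2 t x ht hx]
    ring
  · have h := hF.1.le_coord hw
    have e : ∀ i : Fin 3, F (Pi.single i 1) = F mstE := by
      intro i
      rw [← hS (Equiv.swap 0 i) mstE]
      congr 1
      funext j
      fin_cases i <;> fin_cases j <;> rfl
    simp only [e, ← sum_mul] at h
    exact sub_nonpos.2 h

theorem sym_mstH {F : V 3 → ℝ} (hS : SymG F) : SymG (mstH F) := by
  intro σ w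
  unfold mstH
  rw [hS]
  congr 2
  exact Equiv.sum_comp σ w

theorem law_mstH {Q : Fn 3} (hQ : IsLaw Q) {F : V 3 → ℝ} (hF : Km F) (hS : SymG F) :
    Q F = Q (mstH F) + 3 * F mstE := by
  have hb := (km_mstH hF hS).1.bd
  rw [← hQ.const (3 * F mstE), ← hQ.add _ _ hb (Bd.const _)]
  refine hQ.congr hF.1.bd fun a ha => ?_
  unfold mstH
  rw [ha.2]
  push_cast
  ring

/-- a packed state with bounded weight whose integral against `τ` is at least `x` -/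
def Sr (S : ℕ) (τ : ℕ → ℕ → ℝ) (N t : ℕ) (x : ℝ) : Prop :=
  ∃ Θ, Rp 112 (S + 1) N S t Θ ∧ x ≤ Θ τ

section
variable {S N N' t t' : ℕ} {τ : ℕ → ℕ → ℝ} {x x' : ℝ}

theorem Sr.weaken (h : Sr S τ N t x) (ht : t ≤ t') (hx : x' ≤ x) : Sr S τ N t' x' := by
  obtain ⟨Θ, h1, h2⟩ := h
  exact ⟨Θ, h1.weaken le_rfl ht, hx.trans h2⟩

theorem Sr.add (h : Sr S τ N t x) (h' : Sr S τ N' t' x') : Sr S τ (N + N') (t + t') (x + x') := by
  obtain ⟨Θ, h1, h2⟩ := h
  obtain ⟨Θ', h1', h2'⟩ := h'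
  exact ⟨_, h1.add h1', add_le_add h2 h2'⟩

theorem Sr.smul (h : Sr S τ N t x) (c : ℕ) : Sr S τ (c * N) (c * t) (c * x) := by
  obtain ⟨Θ, h1, h2⟩ := h
  exact ⟨_, h1.smul c, mul_le_mul_of_nonneg_left h2 (Nat.cast_nonneg _)⟩

theorem Sr.sum {n : ℕ} {M w : ℕ → ℕ} {y : ℕ → ℝ} (h : ∀ i < n, Sr S τ (M i) (w i) (y i)) :
    Sr S τ (∑ i ∈ range n, M i) (∑ i ∈ range n, w i) (∑ i ∈ range n, y i) := by
  induction n with
  | zero => exact ⟨_, Rp.zero _ _ _ _, le_rfl⟩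
  | succ n ih =>
    rw [sum_range_succ, sum_range_succ, sum_range_succ]
    exact (ih fun i hi => h i (by omega)).add (h n (by omega))

end

theorem Rp.extract_inj {B S N cb tw : ℕ} {Θ : (ℕ → ℕ → ℝ) → ℝ} (h : Rp B S N cb tw Θ)
    (hc : cb < S) (ht : tw < 2 ^ B) {ι : Type} (s : Finset ι) (c : ι → ℕ × ℕ)
    (hi : Set.InjOn c s) (hs : ∀ x ∈ s, (c x).2 < S) {f : ℕ → ℕ → ℝ} (hf : ∀ a b, 0 ≤ f a b) :
    ∑ x ∈ s, (dg B N ((c x).1 * S + (c x).2) : ℝ) * f (c x).1 (c x).2 ≤ Θ f := by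
  have := h.extract hc ht (s.image c) (fun x hx => by
    obtain ⟨y, hy, rfl⟩ := mem_image.1 hx
    exact hs y hy) hf
  rwa [sum_image hi] at this

theorem Rp.extract_tri {B S N cb tw : ℕ} {Θ : (ℕ → ℕ → ℝ) → ℝ} (h : Rp B S N cb tw Θ)
    (hc : cb < S) (ht : tw < 2 ^ B) (n : ℕ) (c : ℕ → ℕ → ℕ × ℕ)
    (hi : ∀ i j i' j', j ≤ i → i < n → j' ≤ i' → i' < n → c i j = c i' j' → i = i' ∧ j = j')
    (hs : ∀ i j, j ≤ i → i < n → (c i j).2 < S) {f : ℕ → ℕ → ℝ} (hf : ∀ a b, 0 ≤ f a b) :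
    ∑ i ∈ range n, ∑ j ∈ range (i + 1),
      (dg B N ((c i j).1 * S + (c i j).2) : ℝ) * f (c i j).1 (c i j).2 ≤ Θ f := by
  rw [sum_sigma']
  refine h.extract_inj hc ht _ (fun x : (Σ _ : ℕ, ℕ) => c x.1 x.2) ?_ ?_ hf
  · rintro ⟨i, j⟩ hx ⟨i', j'⟩ hy e
    simp only [coe_sigma, Set.mem_sigma_iff, mem_coe, mem_range] at hx hy
    obtain ⟨rfl, rfl⟩ := hi i j i' j' (by omega) hx.1 (by omega) hy.1 e
    rfl
  · rintro ⟨i, j⟩ hx
    simp only [mem_sigma, mem_range] at hx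
    exact hs i j (by omega) hx.1

theorem cellv_nonpos {r : ℝ} (hr : 0 < r) (U : ℕ) {G : V 3 → ℝ} (hG : Km G) (u : ℕ) :
    cellv r U G u ≤ 0 := by
  unfold cellv
  split_ifs
  · exact le_rfl
  · exact hG.2 _ mst_ed0_nn
  · exact hG.2 _ (vec_nonneg hr _ _)

theorem rp_stv {r : ℝ} (hr : 0 < r) {U N cb tw : ℕ} {Θ : (ℕ → ℕ → ℝ) → ℝ}
    (h : Rp 112 ((U + 1) * (U + 1) + 2) N cb tw Θ) (hc : cb < (U + 1) * (U + 1) + 2)
    (ht : tw < 2 ^ 112) {G : V 3 → ℝ} (hG : Km G) :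
    -stv r U (dg 112 N) G ≤ Θ fun _ u => -cellv r U G u := by
  have hn := cellv_nonpos hr U hG
  have e : (fun (_ u : ℕ) => -cellv r U G u) = fun a u : ℕ =>
      (fun (_ u : ℕ) => if u = 1 then 0 else -cellv r U G u) a u +
      (fun (_ u : ℕ) => if u = 1 then -cellv r U G u else 0) a u := by
    funext a u
    by_cases hu : u = 1 <;> simp [hu]
  rw [e, h.map_add, stv, neg_add]
  refine add_le_add ?_ ?_
  · refine le_of_eq_of_le ?_ (h.extract_tri hc ht (U + 1) (fun i j => (0, i * (U + 1) + j + 2))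
      ?_ ?_ (f := fun (_ u : ℕ) => if u = 1 then 0 else -cellv r U G u) fun a b => ?_)
    · rw [← sum_neg_distrib]
      refine sum_congr rfl fun i hi => ?_
      rw [← sum_neg_distrib]
      refine sum_congr rfl fun j hj => ?_
      have hi' := mem_range.1 hi
      have hj' := mem_range.1 hj
      have e1 : (i * (U + 1) + j + 2 - 2) / (U + 1) = i := by
        rw [Nat.add_sub_cancel, mul_comm, Nat.mul_add_div (by omega), Nat.div_eq_of_lt (by omega)]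
        rfl
      have e2 : (i * (U + 1) + j + 2 - 2) % (U + 1) = j := by
        rw [Nat.add_sub_cancel, mul_comm, Nat.mul_add_mod, Nat.mod_eq_of_lt (by omega)]
      simp only [zero_mul, zero_add, cellv]
      rw [if_neg (by omega), if_neg (by omega), if_neg (by omega), e1, e2]
      ring
    · intro i j i' j' h1 h2 h3 h4 e
      have e0 : i * (U + 1) + j = i' * (U + 1) + j' := by
        have := (Prod.ext_iff.1 e).2
        simpa using this
      have e1 : (i * (U + 1) + j) / (U + 1) = i := by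
        rw [mul_comm, Nat.mul_add_div (by omega), Nat.div_eq_of_lt (by omega)]
        rfl
      have e2 : (i' * (U + 1) + j') / (U + 1) = i' := by
        rw [mul_comm, Nat.mul_add_div (by omega), Nat.div_eq_of_lt (by omega)]
        rfl
      have e3 : i = i' := by rw [← e1, e0, e2]
      subst e3
      exact ⟨rfl, by omega⟩
    · intro i j h1 h2
      have : i * (U + 1) ≤ U * (U + 1) := Nat.mul_le_mul_right _ (by omega)
      show i * (U + 1) + j + 2 < _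
      rw [add_mul U 1 (U + 1)]
      omega
    · have := hn b
      split_ifs <;> linarith
  · refine le_of_eq_of_le ?_ (h.extract hc ht {(0, 1)} (by simp)
      (f := fun (_ u : ℕ) => if u = 1 then -cellv r U G u else 0) fun a b => ?_)
    · simp [cellv]
    · have := hn b
      split_ifs <;> linarith

/-- test function with the mass correction in cell zero -/
noncomputable def mstT (P : Par) (G : V 3 → ℝ) (i u : ℕ) : ℝ :=
  cellv ((P.sa : ℝ) / P.sb) P.U G u + (-Gm P G mstE) * (if i = 0 ∧ u = 0 then 1 else 0)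

theorem fin_sound {P : Par} (hP : parOK P = true) {G : V 3 → ℝ} (hG : Km G) {acc t : ℕ}
    {x y : ℝ} (h : Sr ((P.U + 1) * (P.U + 1) + 1) (mstT P G) acc t x) (ht : t < 2 ^ 111)
    (hy : y ≤ 0) (hxy : 2 ^ 32 * y ≤ 3 * 2 ^ 72 * Gm P G mstE + x) :
    y ≤ stv ((P.sa : ℝ) / P.sb) P.U (dg 112 (finM P acc)) G := by
  obtain ⟨-, -, hb, hab, -, -, -, -, -, hU, -⟩ := parOK_iff.1 hP
  have hr : (0 : ℝ) < (P.sa : ℝ) / P.sb :=
    div_pos (Nat.cast_pos.2 (lt_trans hb hab)) (Nat.cast_pos.2 hb)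
  have hg : Gm P G mstE ≤ 0 := (km_Gm hP hG).2 _ mstE_nn
  rw [finM_eq]
  cases hc : Nat.ble (dgf 112 acc 0) (3 * 2 ^ 72) with
  | false =>
    refine hy.trans (le_of_eq ?_)
    simp [stv, dg]
  | true =>
    rw [Nat.ble_eq, dgf_eq] at hc
    rw [dgf_eq, cond_true]
    obtain ⟨Θ, h1, h2⟩ := h
    have hm := h1.dg_eq (by omega) (ht.trans (by norm_num)) (a := 0) (b := 0) (by omega)
    rw [zero_mul, zero_add] at hm
    unfold mstT at h2
    rw [h1.map_add, h1.map_smul, ← hm] at h2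
    obtain ⟨ΘE, e1, -, e3⟩ := src_sound hP (2 ^ 32) 0 0 0
    have e4 := e3 G hG mstE (by simp [mstE]; norm_num) (by simp [mstE]) (by simp [mstE])
    rw [← srcE_eq] at e1
    set ce := (3 * 2 ^ 72 - dg 112 acc 0) >>> 32 with hce
    have c1 : ce * 2 ^ 32 ≤ 3 * 2 ^ 72 - dg 112 acc 0 := by
      rw [hce, Nat.shiftRight_eq_div_pow]
      exact Nat.div_mul_le_self _ _
    have c2 : (ce : ℝ) * 2 ^ 32 ≤ 3 * 2 ^ 72 - (dg 112 acc 0 : ℝ) := by
      have : ce * 2 ^ 32 + dg 112 acc 0 ≤ 3 * 2 ^ 72 := (Nat.le_sub_iff_add_le hc).1 c1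
      have : ((ce * 2 ^ 32 + dg 112 acc 0 : ℕ) : ℝ) ≤ ((3 * 2 ^ 72 : ℕ) : ℝ) := Nat.cast_le.2 this
      push_cast at this
      linarith
    have h3 := h1.add (e1.smul ce)
    have hU2 : (P.U + 1) * (P.U + 1) ≤ 64 * 64 :=
      Nat.mul_le_mul (Nat.succ_le_succ hU) (Nat.succ_le_succ hU)
    have c3 : ce ≤ 2 ^ 42 := by
      refine Nat.le_of_mul_le_mul_right (c1.trans ((Nat.sub_le _ _).trans ?_))
        (by norm_num : 0 < 2 ^ 32)
      norm_num
    have c4 : t + ce * (2 ^ 47 + 0) < 2 ^ 112 := by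
      have : ce * (2 ^ 47 + 0) ≤ 2 ^ 42 * (2 ^ 47 + 0) := Nat.mul_le_mul_right _ c3
      calc t + ce * (2 ^ 47 + 0) < 2 ^ 111 + 2 ^ 42 * (2 ^ 47 + 0) :=
            Nat.add_lt_add_of_lt_of_le ht this
        _ ≤ 2 ^ 112 := by norm_num
    obtain ⟨Θ', t1, t2⟩ := h3.trunc (o1 := 0) (o2 := 0) (e := 32) (c := 41) (n1 := 1)
      (n2 := (P.U + 1) * (P.U + 1) + 2) (by norm_num) (by omega) c4 (by omega)
      (by norm_num)
    rw [ones_one (B := 112 * ((P.U + 1) * (P.U + 1) + 1 + 1)) (by omega), mul_one, zero_mul,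
      zero_add, mul_zero, zero_add] at t1
    have t3 := t2 (fun _ u => -cellv ((P.sa : ℝ) / P.sb) P.U G u)
      fun _ u => neg_nonneg.2 (cellv_nonpos hr _ hG u)
    have t4 := rp_stv hr t1 (by omega) (by omega) hG
    have n1 := h1.map_smul (-1) fun _ u => cellv ((P.sa : ℝ) / P.sb) P.U G u
    have n2 := e1.map_smul (-1) fun _ u => cellv ((P.sa : ℝ) / P.sb) P.U G u
    simp only [neg_one_mul] at n1 n2
    simp only [add_zero] at t3
    rw [n1, n2] at t3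
    have k1 := mul_le_mul_of_nonneg_left e4 (Nat.cast_nonneg (α := ℝ) ce)
    have k2 := mul_le_mul_of_nonpos_right c2 hg
    refine le_of_mul_le_mul_left ?_ (by positivity : (0 : ℝ) < 2 ^ 32)
    nlinarith

theorem sr_src3 {P : Par} (hP : parOK P = true) {G : V 3 → ℝ} (hG : Km G) {a b c : ℕ} {v : V 3}
    (ha : (a : ℝ) ≤ 2 ^ 32 * v 0) (hb : (b : ℝ) ≤ 2 ^ 32 * v 1) (hc : (c : ℝ) ≤ 2 ^ 32 * v 2)
    (ha' : 2 ^ 32 * v 0 ≤ a + 1) (hb' : 2 ^ 32 * v 1 ≤ b + 1) (hc' : 2 ^ 32 * v 2 ≤ c + 1)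
    (la : a < 2 ^ 46) (lb : b < 2 ^ 46) (lc : c < 2 ^ 46) :
    Sr ((P.U + 1) * (P.U + 1) + 1) (mstT P G) (src3 P a b c) (2 ^ 49)
      (2 ^ 32 * mstH (Gm P G) v) := by
  have hg : Gm P G mstE ≤ 0 := (km_Gm hP hG).2 _ mstE_nn
  rw [src3_eq]
  obtain ⟨Θ, h1, h2, h3⟩ := src_sound hP a b c (a + b + c + 3)
  refine ⟨Θ, h1.weaken le_rfl (by omega), ?_⟩
  unfold mstT mstH
  rw [h1.map_add, h1.map_smul, h2, Fin.sum_univ_three]
  have h4 := h3 G hG v ha hb hc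
  have h5 : 2 ^ 32 * (v 0 + v 1 + v 2) ≤ (a : ℝ) + b + c + 3 := by linarith
  have h6 := mul_le_mul_of_nonpos_right h5 hg
  push_cast
  linarith

theorem chi_vec {r : ℝ} (hr : 1 < r) {a b : ℕ} (h : b ≤ a) : chi (vec r a b) = orb a b := by
  have l1 : ∀ m n : ℤ, r ^ m ≤ r ^ n ↔ m ≤ n := fun m n => zpow_le_zpow_iff_right₀ hr
  have l2 : ∀ m n : ℤ, r ^ m = r ^ n ↔ m = n := fun m n =>
    zpow_right_inj₀ (by linarith) hr.ne'
  have v0 : vec r a b 0 = r ^ (2 * (a : ℤ) - b) := rfl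
  have v1 : vec r a b 1 = r ^ (2 * (b : ℤ) - a) := rfl
  have v2 : vec r a b 2 = r ^ (-(a : ℤ) - b) := rfl
  unfold chi
  simp only [v0, v1, v2, l1, l2]
  rw [orb_eq, if_pos (by omega)]
  by_cases h1 : a = 0
  · subst h1
    rw [if_pos (by omega)]
    simp
  · rw [if_neg (by omega)]
    have e1 : Nat.beq a 0 = false := by
      rw [← Bool.not_eq_true, Nat.beq_eq]; exact h1
    rw [e1, cond_false]
    by_cases h2 : b = 0 ∨ a = b
    · have e2 : (Nat.beq b 0 || Nat.beq a b) = true := by simpa using h2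
      rw [if_pos (by omega), e2]
      simp
    · have e2 : (Nat.beq b 0 || Nat.beq a b) = false := by
        rw [← Bool.not_eq_true, Bool.or_eq_true, Nat.beq_eq, Nat.beq_eq]; exact h2
      rw [if_neg (by omega), e2]
      simp

theorem chi_nonneg (w : V 3) : 0 ≤ chi w := by
  unfold chi
  split_ifs <;> norm_num

theorem orb_le (a b : ℕ) : orb a b ≤ 6 := by
  rw [orb_eq]
  cases Nat.beq a 0 <;> cases (Nat.beq b 0 || Nat.beq a b) <;> simp

theorem sr_srcI {P : Par} (hP : parOK P = true) {G : V 3 → ℝ} (hG : Km G) {a b : ℕ}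
    (hb : b ≤ a) (ha : a ≤ P.W) :
    Sr ((P.U + 1) * (P.U + 1) + 1) (mstT P G) (srcI P a b) (2 ^ 52)
      (orb a b * (2 ^ 32 * mstH (Gm P G) (vec ((P.ra : ℝ) / P.rb) a b))) := by
  obtain ⟨h1, h2, -, -, -, -, -, -, hlo, -⟩ := parOK_iff.1 hP
  have h0 : 0 < P.ra := by omega
  have v0 : vec ((P.ra : ℝ) / P.rb) a b 0 = ((P.ra : ℝ) / P.rb) ^ (((2 * a : ℕ) : ℤ) - b) := by
    push_cast; rfl
  have v1 : vec ((P.ra : ℝ) / P.rb) a b 1 = ((P.ra : ℝ) / P.rb) ^ (((2 * b : ℕ) : ℤ) - a) := by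
    push_cast; rfl
  have v2 : vec ((P.ra : ℝ) / P.rb) a b 2 =
      ((P.ra : ℝ) / P.rb) ^ (((0 : ℕ) : ℤ) - (a + b : ℕ)) := by
    rw [show (((0 : ℕ) : ℤ) - (a + b : ℕ)) = -(a : ℤ) - b by push_cast; ring]; rfl
  rw [srcI_eq]
  refine ((sr_src3 hP hG (v := vec ((P.ra : ℝ) / P.rb) a b) (v0 ▸ lo_le h1 h0 _ _)
    (v1 ▸ lo_le h1 h0 _ _) (v2 ▸ lo_le h1 h0 _ _) (v0 ▸ le_lo h1 h0 _ _) (v1 ▸ le_lo h1 h0 _ _)
    (v2 ▸ le_lo h1 h0 _ _) ((lo_mono h1 h2.le (by omega)).trans_lt hlo)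
    ((lo_mono h1 h2.le (by omega)).trans_lt hlo)
    ((lo_mono h1 h2.le (by omega)).trans_lt hlo)).smul (orb a b)).weaken ?_ le_rfl
  have := orb_le a b
  omega

theorem sr_srcJ {P : Par} (hP : parOK P = true) {G : V 3 → ℝ} (hG : Km G) (hS : SymG G) {t : ℕ}
    (ht : t ≤ 2 * P.W) :
    Sr ((P.U + 1) * (P.U + 1) + 1) (mstT P G) (srcJ P t) (2 ^ 52)
      (3 * (2 ^ 32 * mstH (Gm P G) (vec ((P.ra : ℝ) / P.rb) 0 ((t : ℤ) - P.W) * ed0))) := by
  obtain ⟨h1, h2, -, -, -, -, -, -, hlo, -⟩ := parOK_iff.1 hP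
  have h0 : 0 < P.ra := by omega
  have hH := sym_mstH (sym_Gm P hS)
  set x := ((P.ra : ℝ) / P.rb) ^ (((2 * t : ℕ) : ℤ) - (2 * P.W : ℕ)) with hx
  set y := ((P.ra : ℝ) / P.rb) ^ ((P.W : ℤ) - t) with hy
  have e : vec ((P.ra : ℝ) / P.rb) 0 ((t : ℤ) - P.W) * ed0 = ![0, x, y] := by
    rw [hx, hy, show (((2 * t : ℕ) : ℤ) - (2 * P.W : ℕ)) = 2 * ((t : ℤ) - P.W) - 0 by
      push_cast; ring, show (P.W : ℤ) - t = -0 - ((t : ℤ) - P.W) by ring]
    funext i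
    fin_cases i <;> simp [vec, ed0]
  have a1 := lo_le h1 h0 (2 * t) (2 * P.W)
  have a2 := le_lo h1 h0 (2 * t) (2 * P.W)
  have b1 := lo_le h1 h0 P.W t
  have b2 := le_lo h1 h0 P.W t
  have a3 : lo P.ra P.rb (2 * t) (2 * P.W) < 2 ^ 46 :=
    (lo_mono h1 h2.le (by omega)).trans_lt hlo
  have b3 : lo P.ra P.rb P.W t < 2 ^ 46 := (lo_mono h1 h2.le (by omega)).trans_lt hlo
  rw [← hx] at a1 a2
  rw [← hy] at b1 b2
  rw [srcJ_eq, e, mx_eq, mn_eq]
  cases Nat.ble (lo P.ra P.rb (2 * t) (2 * P.W)) (lo P.ra P.rb P.W t) with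
  | true =>
    have e2 : (![0, x, y] : V 3) = ![y, x, 0] ∘ Equiv.swap (0 : Fin 3) 2 := by
      funext i; fin_cases i <;> rfl
    rw [e2, hH]
    exact ((sr_src3 hP hG (v := ![y, x, 0]) (c := 0) b1 a1 (by simp) b2 a2 (by simp) b3 a3
      (by norm_num)).smul 3).weaken (by norm_num) (le_of_eq (by push_cast; rfl))
  | false =>
    have e2 : (![0, x, y] : V 3) = ![x, y, 0] ∘ (Equiv.swap (1 : Fin 3) 2 * Equiv.swap 0 1 :
        Equiv.Perm (Fin 3)) := by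
      funext i; fin_cases i <;> rfl
    rw [e2, hH]
    exact ((sr_src3 hP hG (v := ![x, y, 0]) (c := 0) a1 b1 (by simp) a2 b2 (by simp) a3 b3
      (by norm_num)).smul 3).weaken (by norm_num) (le_of_eq (by push_cast; rfl))

theorem mstep_sound {P : Par} (hP : parOK P = true) {Q Φ Ψ : Fn 3} (hQ : IsLaw Q)
    (hΦ : PosF Φ) (hΨ : PosF Ψ) (hs : SymF Φ) (hb : Bnd Q Φ Ψ) {I J : ℕ}
    (hI : Le2 ((P.ra : ℝ) / P.rb) P.S P.W I (2 * P.W) (2 ^ 58) Φ)
    (hJ : Le1 ((P.ra : ℝ) / P.rb) P.S P.W J (2 * P.W) (2 ^ 51) Ψ) :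
    St ((P.sa : ℝ) / P.sb) P.U (dg 112 (finM P (accM P I J))) (MixC P.ln P.ld P.wn P.wd Q) := by
  intro G hG hS
  obtain ⟨h1, h2, -, -, hSz, -⟩ := parOK_iff.1 hP
  have hr1 : (1 : ℝ) < (P.ra : ℝ) / P.rb :=
    (one_lt_div (Nat.cast_pos.2 h1)).2 (Nat.cast_lt.2 h2)
  have hr : (0 : ℝ) < (P.ra : ℝ) / P.rb := by linarith
  have kF := km_Gm hP hG
  have sF := sym_Gm P hS
  have kH := km_mstH kF sF
  have sH := sym_mstH sF
  rw [mixC_eq hP hQ hG]
  set H := mstH (Gm P G) with hH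
  obtain ⟨ΘI, i1, i2⟩ := hI
  obtain ⟨ΘJ, j1, j2⟩ := hJ
  have hK : ∀ w : V 3, 0 ≤ w → 0 ≤ -H w := fun w hw => neg_nonneg.2 (kH.2 w hw)
  have exI : ∀ f : ℕ → ℕ → ℝ, (∀ a b, 0 ≤ f a b) → ∑ a ∈ range (P.W + 1), ∑ b ∈ range (a + 1),
      (dg 104 I ((P.W + a) * P.S + P.W + b) : ℝ) * f (P.W + a) (P.W + b) ≤ ΘI f := by
    intro f hf
    have := i1.extract_tri (by omega) (by norm_num) (P.W + 1) (fun a b => (P.W + a, P.W + b))
      (fun i j i' j' _ _ _ _ e => by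
        have := Prod.ext_iff.1 e
        simp only at this
        omega) (fun i j _ _ => by show P.W + j < P.S; omega) hf
    simpa only [add_assoc] using this
  have exJ : ∀ f : ℕ → ℕ → ℝ, (∀ a b, 0 ≤ f a b) → ∑ t ∈ range (2 * P.W + 1),
      (dg 104 J t : ℝ) * f 0 t ≤ ΘJ f := by
    intro f hf
    have := j1.extract_inj (by omega) (by norm_num) (range (2 * P.W + 1)) (fun t => (0, t))
      (fun _ _ _ _ e => (Prod.ext_iff.1 e).2)
      (fun t ht => by have := mem_range.1 ht; show t < P.S; omega) hf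
    simpa only [zero_mul, zero_add] using this
  have wI : ∑ a ∈ range (P.W + 1), ∑ b ∈ range (a + 1),
      dg 104 I ((P.W + a) * P.S + P.W + b) ≤ 2 ^ 58 := by
    have := (exI (fun _ _ => 1) fun _ _ => zero_le_one).trans i1.total
    simp only [mul_one] at this
    exact_mod_cast this
  have wJ : ∑ t ∈ range (2 * P.W + 1), dg 104 J t ≤ 2 ^ 51 := by
    have := (exJ (fun _ _ => 1) fun _ _ => zero_le_one).trans j1.total
    simp only [mul_one] at this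
    exact_mod_cast this
  have acc : Sr ((P.U + 1) * (P.U + 1) + 1) (mstT P G) (accM P I J)
      (∑ a ∈ range (P.W + 1), ∑ b ∈ range (a + 1), dg 104 I ((P.W + a) * P.S + P.W + b) * 2 ^ 52 +
        ∑ t ∈ range (2 * P.W + 1), dg 104 J t * 2 ^ 52)
      (∑ a ∈ range (P.W + 1), ∑ b ∈ range (a + 1), (dg 104 I ((P.W + a) * P.S + P.W + b) : ℝ) *
        (orb a b * (2 ^ 32 * H (vec ((P.ra : ℝ) / P.rb) a b))) +
        ∑ t ∈ range (2 * P.W + 1), (dg 104 J t : ℝ) *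
          (3 * (2 ^ 32 * H (vec ((P.ra : ℝ) / P.rb) 0 ((t : ℤ) - P.W) * ed0)))) := by
    rw [accM_eq, sumLt_eq, sumLt_eq]
    refine Sr.add (Sr.sum fun a ha => ?_) (Sr.sum fun t ht => ?_)
    · rw [rowM_eq, sumLt_eq]
      refine Sr.sum fun b hb => ?_
      rw [dgf_eq, dg_row _ _ _ _ _ hb]
      exact (sr_srcI hP hG (by omega) (by omega)).smul _
    · rw [dgf_eq]
      exact (sr_srcJ hP hG hS (by omega)).smul _
  refine fin_sound hP hG acc ?_ ?_ ?_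
  · simp only [← sum_mul]
    omega
  · have : Q (Gm P G) ≤ 0 := by
      rw [← hQ.const 0]
      exact hQ.mono _ _ kF.1.bd (Bd.const _) fun a ha => kF.2 a ha.1
    exact mul_nonpos_of_nonneg_of_nonpos (by positivity) this
  · have b1 := hb H kH
    simp only [sH _ _, sum_const, card_univ, Fintype.card_fin, nsmul_eq_mul] at b1
    have b2 : Φ (fun w => chi w * -H w) ≤ -Φ H := by
      have := hΦ.smul (-1) H
      simp only [neg_one_mul] at this
      rw [← this]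
      exact fold_le hΦ hs (H := fun w => -H w) (fun σ w => by simp only [sH _ _]) hK
    have b3 : Ψ (fun w => -H (w * ed0)) ≤ -Ψ H := by
      have := hΨ.smul (-1) H
      simp only [neg_one_mul] at this
      rw [← this]
      refine hΨ.mono _ _ fun w hw => neg_le_neg ?_
      have p1 : 0 ≤ w * ed0 := mul_nn hw mst_ed0_nn
      have p2 : 0 ≤ w - w * ed0 := by
        intro i
        have := hw i
        fin_cases i <;> simp_all [ed0]
      have p3 := kH.1.1 _ _ p1 p2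
      rw [add_sub_cancel] at p3
      linarith [kH.2 _ p2]
    have c1 := (exI _ fun a b => mul_nonneg (chi_nonneg _) (hK _ (vec_nonneg hr _ _))).trans
      (i2 (fun w => chi w * -H w) fun w hw => mul_nonneg (chi_nonneg _) (hK w hw))
    have c2 := (exJ _ fun a b => hK _ (mul_nn (vec_nonneg hr _ _) mst_ed0_nn)).trans
      (j2 (fun w => -H w) (fun t w ht hw => by
        show -H (t • w) = t * -H w
        rw [kH.1.2 t w ht hw]; ring) hK)
    have d1 : ∑ a ∈ range (P.W + 1), ∑ b ∈ range (a + 1),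
        (dg 104 I ((P.W + a) * P.S + P.W + b) : ℝ) *
          (orb a b * (2 ^ 32 * H (vec ((P.ra : ℝ) / P.rb) a b))) =
        -(2 ^ 32) * ∑ a ∈ range (P.W + 1), ∑ b ∈ range (a + 1),
          (dg 104 I ((P.W + a) * P.S + P.W + b) : ℝ) *
            (chi (vec ((P.ra : ℝ) / P.rb) (((P.W + a : ℕ) : ℤ) - P.W)
              (((P.W + b : ℕ) : ℤ) - P.W)) * -H (vec ((P.ra : ℝ) / P.rb)
                (((P.W + a : ℕ) : ℤ) - P.W) (((P.W + b : ℕ) : ℤ) - P.W))) := by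
      rw [mul_sum]
      refine sum_congr rfl fun a _ => ?_
      rw [mul_sum]
      refine sum_congr rfl fun b hb => ?_
      rw [Nat.cast_add, Nat.cast_add, add_sub_cancel_left, add_sub_cancel_left,
        chi_vec hr1 (Nat.lt_succ_iff.1 (mem_range.1 hb))]
      ring
    have d2 : ∑ t ∈ range (2 * P.W + 1), (dg 104 J t : ℝ) *
          (3 * (2 ^ 32 * H (vec ((P.ra : ℝ) / P.rb) 0 ((t : ℤ) - P.W) * ed0))) =
        -(3 * 2 ^ 32) * ∑ t ∈ range (2 * P.W + 1), (dg 104 J t : ℝ) *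
          -H (vec ((P.ra : ℝ) / P.rb) 0 ((t : ℤ) - P.W) * ed0) := by
      rw [mul_sum]
      refine sum_congr rfl fun t _ => ?_
      ring
    rw [d1, d2, law_mstH hQ kF sF, ← hH]
    push_cast at b1
    linarith

theorem init_sound {P : Par} (hP : parOK P = true) {Q : Fn 3} (hQ : IsLaw Q) :
    St ((P.sa : ℝ) / P.sb) P.U (dg 112 (init P)) (MixC P.ln P.ld P.wn P.wd Q) := by
  have e : accM P 0 0 = 0 := by
    simp [accM_eq, sumLt_eq, rowM_eq, dgf_eq, dg]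
  rw [init_eq, ← e]
  refine mstep_sound hP hQ PosF.zero PosF.zero (fun _ _ => rfl) (fun G hG => ?_)
    ⟨_, Rp.zero _ _ _ _, fun _ _ => by simp⟩ ⟨_, Rp.zero _ _ _ _, fun _ _ _ => by simp⟩
  simp only [sum_const_zero, add_zero]
  rw [← hQ.const 0]
  exact hQ.mono _ _ hG.1.bd (Bd.const _) fun a ha => hG.2 a ha.1

end Vale.Agent.P154
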