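import Vale.Agent.P154.Rp
import Vale.Agent.P154.Fun

namespace Vale.Agent.P154

namespace PatX

theorem km_anti {G : V 3 → ℝ} (hG : Km G) {s v : V 3} (hs : 0 ≤ s) (h : s ≤ v) : G v ≤ G s := by
  have h1 := hG.1.1 s (v - s) hs (sub_nonneg.2 h)
  have h2 := hG.2 (v - s) (sub_nonneg.2 h)
  rw [add_sub_cancel] at h1
  linarith

theorem cellv_idx (r : ℝ) {U i j : ℕ} (hj : j ≤ U) (G : V 3 → ℝ) :
    cellv r U G (i * (U + 1) + j + 2) = G (vec r (-(i : ℤ)) (-(j : ℤ))) := by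
  have h1 : (i * (U + 1) + j) / (U + 1) = i := by
    rw [add_comm, Nat.add_mul_div_right _ _ (Nat.succ_pos U), Nat.div_eq_of_lt (by omega), zero_add]
  have h2 : (i * (U + 1) + j) % (U + 1) = j := by
    rw [Nat.mul_add_mod_self_right, Nat.mod_eq_of_lt (by omega)]
  unfold cellv
  rw [if_neg (by omega), if_neg (by omega), Nat.add_sub_cancel, h1, h2]

theorem vec0 (r : ℝ) (i j : ℕ) :
    vec r (-(i : ℤ)) (-(j : ℤ)) 0 = r ^ ((j : ℤ) - (2 * i : ℕ)) := by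
  show r ^ _ = _
  congr 1; push_cast; ring

theorem vec1 (r : ℝ) (i j : ℕ) :
    vec r (-(i : ℤ)) (-(j : ℤ)) 1 = r ^ ((i : ℤ) - (2 * j : ℕ)) := by
  show r ^ _ = _
  congr 1; push_cast; ring

theorem vec2 (r : ℝ) (i j : ℕ) :
    vec r (-(i : ℤ)) (-(j : ℤ)) 2 = r ^ (((i + j : ℕ) : ℤ) - (0 : ℕ)) := by
  show r ^ _ = _
  congr 1; push_cast; ring

variable {x y : ℕ}

theorem up_le (hy : 0 < y) (hx : 0 < x) (a i j : ℕ) :
    2 ^ 32 * ((a : ℝ) * ((x : ℝ) / y) ^ ((i : ℤ) - j)) ≤ ((a * (lo x y i j + 1) : ℕ) : ℝ) := by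
  push_cast
  rw [mul_left_comm]
  exact mul_le_mul_of_nonneg_left (le_lo hy hx i j) (Nat.cast_nonneg a)

def PS (x y U y0 y1 y2 N : ℕ) : Prop :=
  ∃ Θ, Rp 112 ((U + 1) * (U + 1) + 2) N ((U + 1) * (U + 1) + 1) (2 ^ 46) Θ ∧
    Θ (fun i u => if i = 0 ∧ u = 0 then 1 else 0) = 0 ∧
    ∀ G : V 3 → ℝ, Km G → ∀ v : V 3, (y0 : ℝ) ≤ v 0 → (y1 : ℝ) ≤ v 1 → (y2 : ℝ) ≤ v 2 →
      G v ≤ Θ fun _ u => cellv ((x : ℝ) / y) U G u

theorem nn3 {v : V 3} (h0 : 0 ≤ v 0) (h1 : 0 ≤ v 1) (h2 : 0 ≤ v 2) : 0 ≤ v := by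
  intro i
  fin_cases i
  exacts [h0, h1, h2]

theorem single0 (S c u : ℕ) : Rp 112 S (c <<< (112 * u)) u c (fun h => (c : ℝ) * h 0 u) := by
  simpa using Rp.single 112 S c 0 u

theorem idx_le {U i j : ℕ} (hi : i ≤ U) (hj : j ≤ i) :
    i * (U + 1) + j + 2 ≤ (U + 1) * (U + 1) + 1 := by
  have := Nat.mul_le_mul_right (U + 1) hi
  nlinarith

theorem fin3_sound (hy : 0 < y) (hx : 0 < x) (U y0 y1 y2 a1 i1 j1 a2 i2 j2 a3 i3 j3 o : ℕ) :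
    PS x y U y0 y1 y2 (fin3 x y U y0 y1 y2 a1 i1 j1 a2 i2 j2 a3 i3 j3 o) := by
  rw [fin3_eq]
  cases hc : chk3 x y U y0 y1 y2 a1 i1 j1 a2 i2 j2 a3 i3 j3 o with
  | false =>
    exact ⟨_, Rp.zero _ _ _ _, rfl, fun G hG v h0 h1 h2 => hG.2 v
      (nn3 ((Nat.cast_nonneg _).trans h0) ((Nat.cast_nonneg _).trans h1)
        ((Nat.cast_nonneg _).trans h2))⟩
  | true =>
    simp only [chk3_eq, Bool.and_eq_true, Nat.ble_eq, up0_eq, up1_eq, up2_eq,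
      Nat.shiftLeft_eq] at hc
    obtain ⟨⟨⟨⟨⟨⟨⟨⟨⟨c0, c1⟩, c2⟩, d1⟩, d2⟩, d3⟩, e1⟩, e2⟩, e3⟩, c4⟩ := hc
    have hR := (((((single0 _ a1 _).weaken (idx_le d1 e1) le_rfl).add
      ((single0 _ a2 _).weaken (idx_le d2 e2) le_rfl)).add
      ((single0 _ a3 _).weaken (idx_le d3 e3) le_rfl)).add
      ((single0 ((U + 1) * (U + 1) + 2) o 1).weaken (by omega) le_rfl)).weaken le_rfl c4
    refine ⟨_, hR, by simp, fun G hG v h0 h1 h2 => ?_⟩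
    have hr : (0 : ℝ) < (x : ℝ) / y := div_pos (Nat.cast_pos.2 hx) (Nat.cast_pos.2 hy)
    have he : (0 : V 3) ≤ ed0 := nn3 le_rfl zero_le_one zero_le_one
    have n1 := smul_nonneg (Nat.cast_nonneg (α := ℝ) a1) (vec_nonneg hr (-(i1 : ℤ)) (-(j1 : ℤ)))
    have n2 := smul_nonneg (Nat.cast_nonneg (α := ℝ) a2) (vec_nonneg hr (-(i2 : ℤ)) (-(j2 : ℤ)))
    have n3 := smul_nonneg (Nat.cast_nonneg (α := ℝ) a3) (vec_nonneg hr (-(i3 : ℤ)) (-(j3 : ℤ)))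
    have n4 := smul_nonneg (Nat.cast_nonneg (α := ℝ) o) he
    have k1 := km_anti hG (add_nonneg (add_nonneg (add_nonneg n1 n2) n3) n4) (v := v) (by
      intro t
      have c0' := (Nat.cast_le (α := ℝ)).2 c0
      have c1' := (Nat.cast_le (α := ℝ)).2 c1
      have c2' := (Nat.cast_le (α := ℝ)).2 c2
      simp only [Nat.cast_add, Nat.cast_mul y0, Nat.cast_mul y1, Nat.cast_mul y2, Nat.cast_mul o,
        Nat.cast_pow, Nat.cast_ofNat] at c0' c1' c2'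
      fin_cases t
      · have u1 := up_le hy hx a1 j1 (2 * i1)
        have u2 := up_le hy hx a2 j2 (2 * i2)
        have u3 := up_le hy hx a3 j3 (2 * i3)
        show a1 * vec _ _ _ 0 + a2 * vec _ _ _ 0 + a3 * vec _ _ _ 0 + (o : ℝ) * 0 ≤ v 0
        rw [vec0, vec0, vec0]
        linarith
      · have u1 := up_le hy hx a1 i1 (2 * j1)
        have u2 := up_le hy hx a2 i2 (2 * j2)
        have u3 := up_le hy hx a3 i3 (2 * j3)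
        show a1 * vec _ _ _ 1 + a2 * vec _ _ _ 1 + a3 * vec _ _ _ 1 + (o : ℝ) * 1 ≤ v 1
        rw [vec1, vec1, vec1]
        linarith
      · have u1 := up_le hy hx a1 (i1 + j1) 0
        have u2 := up_le hy hx a2 (i2 + j2) 0
        have u3 := up_le hy hx a3 (i3 + j3) 0
        show a1 * vec _ _ _ 2 + a2 * vec _ _ _ 2 + a3 * vec _ _ _ 2 + (o : ℝ) * 1 ≤ v 2
        rw [vec2, vec2, vec2]
        linarith)
    have k2 := hG.1.1 _ _ (add_nonneg (add_nonneg n1 n2) n3) n4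
    have k3 := hG.1.1 _ _ (add_nonneg n1 n2) n3
    have k4 := hG.1.1 _ _ n1 n2
    rw [hG.1.2 _ _ (Nat.cast_nonneg _) he] at k2
    rw [hG.1.2 _ _ (Nat.cast_nonneg _) (vec_nonneg hr _ _)] at k3
    rw [hG.1.2 _ _ (Nat.cast_nonneg _) (vec_nonneg hr _ _),
      hG.1.2 _ _ (Nat.cast_nonneg _) (vec_nonneg hr _ _)] at k4
    have k5 : cellv ((x : ℝ) / y) U G 1 = G ed0 := by simp [cellv]
    simp only [cellv_idx _ (e1.trans d1), cellv_idx _ (e2.trans d2), cellv_idx _ (e3.trans d3), k5]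
    linarith

theorem ps_cond {U y0 y1 y2 N N' : ℕ} (b : Bool) (h : PS x y U y0 y1 y2 N)
    (h' : PS x y U y0 y1 y2 N') : PS x y U y0 y1 y2 (cond b N N') := by
  cases b
  exacts [h', h]

theorem mc_le {n d wn wd a b c : ℕ} (hd : 0 < d) (hn : 2 * n ≤ d) (hw : 0 < wd) {s t u : ℝ}
    (ha : (a : ℝ) ≤ 2 ^ 32 * s) (hb : (b : ℝ) ≤ 2 ^ 32 * t) (hc : (c : ℝ) ≤ 2 ^ 32 * u) :
    (mc n d wn wd a b c : ℝ) ≤
      2 ^ 32 * ((wn : ℝ) / wd) * (-((n : ℝ) / d) * s + (1 - -((n : ℝ) / d)) * ((s + t + u) / 3)) := by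
  have d0 : (0 : ℝ) < d := Nat.cast_pos.2 hd
  have w0 : (0 : ℝ) < wd := Nat.cast_pos.2 hw
  have h1 : (0 : ℝ) ≤ (d : ℝ) - 2 * n := by
    have : ((2 * n : ℕ) : ℝ) ≤ d := Nat.cast_le.2 hn
    push_cast at this
    linarith
  rw [mc_eq]
  refine Nat.cast_div_le.trans ?_
  push_cast [Nat.cast_sub hn]
  have e : 2 ^ 32 * ((wn : ℝ) / wd) * (-((n : ℝ) / d) * s + (1 - -((n : ℝ) / d)) * ((s + t + u) / 3))
      = wn * (((d : ℝ) - 2 * n) * (2 ^ 32 * s) + (d + n) * (2 ^ 32 * t + 2 ^ 32 * u))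
        / (3 * d * wd) := by
    field_simp
    ring
  rw [e]
  gcongr

end PatX

open PatX

theorem pat1_sound {x y U : ℕ} (hy : 0 < y) (hx : 0 < x) (y0 y1 y2 : ℕ) :
    ∃ Θ, Rp 112 ((U + 1) * (U + 1) + 2) (pat1 x y U y0 y1 y2) ((U + 1) * (U + 1) + 1) (2 ^ 46) Θ ∧
      Θ (fun i u => if i = 0 ∧ u = 0 then 1 else 0) = 0 ∧
      ∀ G : V 3 → ℝ, Km G → ∀ v : V 3, (y0 : ℝ) ≤ v 0 → (y1 : ℝ) ≤ v 1 → (y2 : ℝ) ≤ v 2 →
        G v ≤ Θ fun _ u => cellv ((x : ℝ) / y) U G u := by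
  show PS x y U y0 y1 y2 _
  rw [pat1_eq, patI_eq, patA_eq, patC_eq, patB_eq]
  exact ps_cond _ (ps_cond _ (fin3_sound hy hx ..) (fin3_sound hy hx ..)) (fin3_sound hy hx ..)

theorem PatX.pat2_sound (P : Par) (hy : 0 < P.sb) (hx : 0 < P.sa) (hw : 0 < P.wd) {n d : ℕ}
    (hd : 0 < d) (hn : 2 * n ≤ d) (wn a b c : ℕ) :
    ∃ Θ, Rp 112 ((P.U + 1) * (P.U + 1) + 2) (pat2 P n d wn a b c) ((P.U + 1) * (P.U + 1) + 1)
        (2 ^ 46) Θ ∧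
      Θ (fun i u => if i = 0 ∧ u = 0 then 1 else 0) = 0 ∧
      ∀ G : V 3 → ℝ, Km G → ∀ v : V 3, (a : ℝ) ≤ 2 ^ 32 * v 0 → (b : ℝ) ≤ 2 ^ 32 * v 1 →
        (c : ℝ) ≤ 2 ^ 32 * v 2 →
        2 ^ 32 * ((wn : ℝ) / P.wd) * G (Mv (-((n : ℝ) / d)) v) ≤
          Θ fun _ u => cellv ((P.sa : ℝ) / P.sb) P.U G u := by
  rw [pat2_eq]
  cases h : Nat.beq wn 0 with
  | true =>
    obtain rfl := Nat.eq_of_beq_eq_true h
    exact ⟨_, Rp.zero _ _ _ _, rfl, fun G _ v _ _ _ => by simp⟩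
  | false =>
    rw [cond_false]
    obtain ⟨Θ, h1, h2, h3⟩ := pat1_sound (U := P.U) hy hx (mc n d wn P.wd a b c)
      (mc n d wn P.wd b a c) (mc n d wn P.wd c a b)
    refine ⟨Θ, h1, h2, fun G hG v h0 h1 h2 => ?_⟩
    have p : ∀ {k : ℕ} {s : ℝ}, (k : ℝ) ≤ 2 ^ 32 * s → 0 ≤ s := fun h =>
      nonneg_of_mul_nonneg_right ((Nat.cast_nonneg _).trans h) (by positivity)
    have a1 : (n : ℝ) / d ≤ 1 / 2 := by
      rw [div_le_div_iff₀ (Nat.cast_pos.2 hd) two_pos]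
      have : ((2 * n : ℕ) : ℝ) ≤ d := Nat.cast_le.2 hn
      push_cast at this
      linarith
    have a0 : (0 : ℝ) ≤ (n : ℝ) / d := by positivity
    have adm : Adm 3 (-((n : ℝ) / d)) := ⟨by push_cast; linarith, by linarith⟩
    rw [← hG.1.2 _ _ (by positivity) (Mv_nonneg adm (nn3 (p h0) (p h1) (p h2)))]
    have ea : av v = (v 0 + v 1 + v 2) / 3 := by simp [av, Fin.sum_univ_three]
    refine h3 G hG _ ?_ ?_ ?_
    · refine (mc_le hd hn hw h0 h1 h2).trans (le_of_eq ?_)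
      simp only [Pi.smul_apply, smul_eq_mul, Mv, ea]
    · refine (mc_le hd hn hw h1 h0 h2).trans (le_of_eq ?_)
      simp only [Pi.smul_apply, smul_eq_mul, Mv, ea]
      ring
    · refine (mc_le hd hn hw h2 h0 h1).trans (le_of_eq ?_)
      simp only [Pi.smul_apply, smul_eq_mul, Mv, ea]
      ring

theorem src_sound {P : Par} (hP : parOK P = true) (a b c m : ℕ) :
    ∃ Θ, Rp 112 ((P.U + 1) * (P.U + 1) + 2) (src P a b c m) ((P.U + 1) * (P.U + 1) + 1)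
        (2 ^ 47 + m) Θ ∧
      Θ (fun i u => if i = 0 ∧ u = 0 then 1 else 0) = m ∧
      ∀ G : V 3 → ℝ, Km G → ∀ v : V 3, (a : ℝ) ≤ 2 ^ 32 * v 0 → (b : ℝ) ≤ 2 ^ 32 * v 1 →
        (c : ℝ) ≤ 2 ^ 32 * v 2 →
        2 ^ 32 * Gm P G v ≤ Θ fun _ u => cellv ((P.sa : ℝ) / P.sb) P.U G u := by
  obtain ⟨-, -, h3, h4, -, -, -, -, -, -, h5, h6, h7, h8, -⟩ := parOK_iff.1 hP
  obtain ⟨Θ1, a1, a2, a3⟩ := pat2_sound P h3 (h3.trans h4) h7 h5 h6 P.wn a b c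
  obtain ⟨Θ2, b1, b2, b3⟩ := pat2_sound P h3 (h3.trans h4) h7 (n := P.ln) (d := 2 * P.ld)
    (by omega) (by omega) (P.wd - P.wn) a b c
  have c1 := (single0 ((P.U + 1) * (P.U + 1) + 2) m 0).weaken
    (cb' := (P.U + 1) * (P.U + 1) + 1) (Nat.zero_le _) le_rfl
  refine ⟨_, ((a1.add b1).add c1).weaken le_rfl (by norm_num), by simp [a2, b2],
    fun G hG v h0 h1 h2 => ?_⟩
  have a4 := a3 G hG v h0 h1 h2
  have b4 := b3 G hG v h0 h1 h2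
  have e1 : (P.ln : ℝ) / (2 * P.ld : ℕ) = (P.ln : ℝ) / P.ld / 2 := by
    push_cast; rw [div_div, mul_comm]
  have e2 : ((P.wd - P.wn : ℕ) : ℝ) / P.wd = 1 - (P.wn : ℝ) / P.wd := by
    rw [Nat.cast_sub h8, sub_div, div_self (Nat.cast_pos.2 h7).ne']
  rw [e1, e2] at b4
  have e3 : cellv ((P.sa : ℝ) / P.sb) P.U G 0 = 0 := by simp [cellv]
  simp only [Gm, e3]
  linarith

namespace PatX

noncomputable def G2 (w : V 3) : ℝ := hat X2 w - 2 * av w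

theorem km_G2 : Km G2 := by
  have h := sub_hat (convexOn_X2 (q := 3))
  refine ⟨⟨fun x y hx hy => ?_, fun t x ht hx => ?_⟩, fun w hw => ?_⟩
  · have := h.1 x y hx hy
    simp only [G2, av_add]
    linarith
  · simp only [G2, av_smul, hat_smul _ ht]
    ring
  · have := hat_le (φ := X2) (ψ := fun _ => 2) (fun a ha => (X2_le ha).trans (by norm_num)) hw
    have e : hat (fun _ => 2) w = 2 * av w := mul_comm _ _
    simp only [G2]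
    linarith

theorem sym_G2 : SymG G2 := by
  intro σ w
  have e : (fun a : V 3 => X2 (a ∘ σ)) = X2 := by
    funext a
    unfold X2
    congr 1
    exact Equiv.sum_comp σ fun i => (a i - 1) ^ 2
  simp only [G2, av_perm, ← hat_perm, e]

theorem G2_eq {v : V 3} (h : 0 < v 0 + v 1 + v 2) :
    G2 v = -(2 * (v 0 * v 1 + v 0 * v 2 + v 1 * v 2) / (v 0 + v 1 + v 2)) := by
  simp only [G2, hat, X2, av, Fin.sum_univ_three, Pi.smul_apply, smul_eq_mul, Nat.cast_ofNat]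
  field_simp
  ring

theorem gain3_le {a b c : ℕ} {v : V 3} (p0 : 0 < v 0) (p1 : 0 < v 1) (p2 : 0 < v 2)
    (a0 : (a : ℝ) ≤ 2 ^ 32 * v 0) (a1 : (b : ℝ) ≤ 2 ^ 32 * v 1) (a2 : (c : ℝ) ≤ 2 ^ 32 * v 2)
    (b0 : 2 ^ 32 * v 0 ≤ (a : ℝ) + 1) (b1 : 2 ^ 32 * v 1 ≤ (b : ℝ) + 1)
    (b2 : 2 ^ 32 * v 2 ≤ (c : ℝ) + 1) : 2 ^ 32 * G2 v ≤ -(gain3 a b c : ℝ) := by
  rw [G2_eq (by positivity), mul_neg, neg_le_neg_iff, gain3_eq]
  refine Nat.cast_div_le.trans ?_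
  push_cast
  have e : (2 : ℝ) ^ 32 * (2 * (v 0 * v 1 + v 0 * v 2 + v 1 * v 2) / (v 0 + v 1 + v 2)) =
      2 * ((2 ^ 32 * v 0) * (2 ^ 32 * v 1) + (2 ^ 32 * v 0) * (2 ^ 32 * v 2) +
        (2 ^ 32 * v 1) * (2 ^ 32 * v 2)) / (2 ^ 32 * v 0 + 2 ^ 32 * v 1 + 2 ^ 32 * v 2) := by
    field_simp
  rw [e]
  refine div_le_div₀ (by positivity) (by gcongr) (by positivity) (by linarith)

theorem gain_le {x y : ℕ} (hy : 0 < y) (hx : 0 < x) (i j : ℕ) :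
    2 ^ 32 * G2 (vec ((x : ℝ) / y) (-(i : ℤ)) (-(j : ℤ))) ≤ -(gain x y i j : ℝ) := by
  have hr : (0 : ℝ) < (x : ℝ) / y := div_pos (Nat.cast_pos.2 hx) (Nat.cast_pos.2 hy)
  rw [gain_eq]
  refine gain3_le ?_ ?_ ?_ ?_ ?_ ?_ ?_ ?_ ?_ <;> simp only [vec0, vec1, vec2]
  exacts [zpow_pos hr _, zpow_pos hr _, zpow_pos hr _, lo_le hy hx _ _, lo_le hy hx _ _,
    lo_le hy hx _ _, le_lo hy hx _ _, le_lo hy hx _ _, le_lo hy hx _ _]

theorem stv_le {x y : ℕ} (hy : 0 < y) (hx : 0 < x) (U g : ℕ) :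
    2 ^ 32 * stv ((x : ℝ) / y) U (dg 41 g) G2 ≤ -(gainT x y U 41 g : ℝ) := by
  have e : G2 ed0 = -1 := by
    rw [G2_eq (by simp [ed0])]
    simp [ed0]
    norm_num
  simp only [gainT_eq, sumLt_eq, dgf_eq, stv, e]
  push_cast
  rw [mul_add, neg_add, Finset.mul_sum, ← Finset.sum_neg_distrib]
  refine add_le_add (Finset.sum_le_sum fun i _ => ?_) (le_of_eq (by ring))
  rw [Finset.mul_sum, ← Finset.sum_neg_distrib]
  refine Finset.sum_le_sum fun j _ => ?_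
  rw [mul_left_comm, ← mul_neg]
  exact mul_le_mul_of_nonneg_left (gain_le hy hx i j) (Nat.cast_nonneg _)

end PatX

theorem gain_sound {P : Par} (hP : parOK P = true) {Q : Fn 3} (hQ : IsLaw Q) {g sn sd : ℕ}
    (hl : 0 < P.ln) (hs : 0 < sd)
    (h : St ((P.sa : ℝ) / P.sb) P.U (dg 41 g) (MixC P.ln P.ld P.wn P.wd Q))
    (hf : finOK P g sn sd = true) : Q X2 ≤ (sn : ℝ) / sd := by
  obtain ⟨-, -, h3, h4, -, -, -, -, -, -, h5, h6, h7, h8, -⟩ := parOK_iff.1 hP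
  have hM := isLaw_MixC h5 h6 h7 h8 hQ
  have k1 := h G2 km_G2 sym_G2
  have k2 := stv_le h3 (h3.trans h4) P.U g
  have k3 : MixC P.ln P.ld P.wn P.wd Q G2 = MixC P.ln P.ld P.wn P.wd Q X2 - 2 := by
    rw [← hM.const 2, ← hM.sub bd_X2 (Bd.const 2)]
    exact hM.congr km_G2.1.bd fun a ha => by
      rw [G2, hat_of_mem _ ha, Sx.av ha, mul_one]
  have a1 : (P.ln : ℝ) / P.ld ≤ 1 / 2 := by
    rw [div_le_div_iff₀ (Nat.cast_pos.2 h5) two_pos]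
    have : ((2 * P.ln : ℕ) : ℝ) ≤ P.ld := Nat.cast_le.2 h6
    push_cast at this
    linarith
  have a0 : (0 : ℝ) ≤ (P.ln : ℝ) / P.ld := by positivity
  have d0 : (0 : ℝ) < P.ld := Nat.cast_pos.2 h5
  have w0 : (0 : ℝ) < P.wd := Nat.cast_pos.2 h7
  have l0 : (0 : ℝ) < P.ln := Nat.cast_pos.2 hl
  have s0 : (0 : ℝ) < sd := Nat.cast_pos.2 hs
  have k4 : MixC P.ln P.ld P.wn P.wd Q X2 =
      (3 * P.wn + P.wd) * P.ln ^ 2 / (4 * P.wd * P.ld ^ 2) * Q X2 := by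
    unfold MixC
    rw [Mop_X2 ⟨by push_cast; linarith, by linarith⟩ hQ,
      Mop_X2 ⟨by push_cast; linarith, by linarith⟩ hQ]
    field_simp
    ring
  have k5 := (Nat.cast_le (α := ℝ)).2 (Nat.le_of_ble_eq_true hf)
  have k6 : (2 * 2 ^ 72 - gainT P.sa P.sb P.U 41 g : ℝ) ≤
      ((2 * 2 ^ 72 - gainT P.sa P.sb P.U 41 g : ℕ) : ℝ) := by
    rw [sub_le_iff_le_add]
    exact_mod_cast le_tsub_add
  rw [Nat.cast_mul] at k5
  generalize ((2 * 2 ^ 72 - gainT P.sa P.sb P.U 41 g : ℕ) : ℝ) = T at k5 k6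
  push_cast at k5
  have k7 : 2 ^ 72 * ((3 * P.wn + P.wd) * P.ln ^ 2 / (4 * P.wd * P.ld ^ 2) * Q X2) ≤ T := by
    rw [← k4]
    rw [k3] at k1
    linarith
  have k8 := (mul_le_mul_of_nonneg_right k7 (show (0 : ℝ) ≤ 4 * P.wd * P.ld ^ 2 * sd by
    positivity)).trans k5
  have e : (2 : ℝ) ^ 72 * ((3 * P.wn + P.wd) * P.ln ^ 2 / (4 * P.wd * P.ld ^ 2) * Q X2) *
      (4 * P.wd * P.ld ^ 2 * sd) = 2 ^ 72 * ((3 * P.wn + P.wd) * P.ln ^ 2) * (Q X2 * sd) := by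
    field_simp
  rw [e] at k8
  rw [le_div_iff₀ s0]
  refine le_of_mul_le_mul_left (k8.trans (le_of_eq ?_))
    (show (0 : ℝ) < 2 ^ 72 * ((3 * P.wn + P.wd) * P.ln ^ 2) by positivity)
  ring

end Vale.Agent.P154
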