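import Vale.Agent.P154.SymC

namespace Vale.Agent.P154

/-- a sub-simplex of the chamber, given by its four vertices -/
abbrev Pc := Ex × Ex × Ex × Ex

section
variable {R : Type} [CommSemiring R]

def lin4 (a b c d : ℕ) (x y z u : R) : R := (a : R) * x + (b : R) * y + (c : R) * z + (d : R) * u

def npT (T : Pc) (x y z u : R) (l : NP) : R :=
  npv true (lin4 T.1.1 T.2.1.1 T.2.2.1.1 T.2.2.2.1 x y z u)
    (lin4 T.1.2.1 T.2.1.2.1 T.2.2.1.2.1 T.2.2.2.2.1 x y z u)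
    (lin4 T.1.2.2.1 T.2.1.2.2.1 T.2.2.1.2.2.1 T.2.2.2.2.2.1 x y z u)
    (lin4 T.1.2.2.2 T.2.1.2.2.2 T.2.2.1.2.2.2 T.2.2.2.2.2.2 x y z u) l

def dq4 (lo hi k : ℕ) (x y : R) : R := ((lo : R) * x + (hi : R) * y) ^ k * (4 * (x + y)) ^ (12 - k)

end

def pc (i : ℕ) : Pc :=
  [((1, 0, 0, 0), (1, 4, 0, 0), (0, 0, 1, 0), (0, 0, 0, 1)),
   ((1, 4, 0, 0), (0, 2, 1, 0), (0, 0, 1, 0), (0, 0, 0, 1)),
   ((1, 4, 0, 0), (0, 3, 0, 1), (0, 2, 1, 0), (0, 0, 0, 1)),
   ((1, 4, 0, 0), (0, 1, 0, 0), (0, 2, 1, 0), (0, 3, 0, 1))].getD i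
    ((1, 0, 0, 0), (0, 1, 0, 0), (0, 0, 1, 0), (0, 0, 0, 1))

def kNT (T : Pc) (B : ℕ) (l : NP) : ℕ :=
  npT T 1 (2 ^ B) (2 ^ (B * 11)) (2 ^ (B * (11 * 11))) l

def kTT (T : Pc) (l : NP) : ℕ := npT T 1 1 1 1 l

def mkBT (T T' : Pc) (B : ℕ) (x : BT) : Tm :=
  ⟨x.1, x.2.1, kNT T B x.2.2.1, kTT T x.2.2.1, kNT T' B x.2.2.2, kTT T' x.2.2.2⟩

def mkDT (T : Pc) (B lo hi : ℕ) (x : DT) : Tm :=
  ⟨x.1, x.2.1, dq4 lo hi x.2.2.1 1 (2 ^ B), dq4 lo hi x.2.2.1 1 1,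
    kNT T B x.2.2.2, kTT T x.2.2.2⟩

def mainT (T T' : Pc) (B : ℕ) (l : List BT) : Bool :=
  btOK true l && sizeOK B (l.map (mkBT T T' B)) &&
    allLt 11 (layerOK B 11 10 (l.map (mkBT T T' B)))

def radT1 (T : Pc) (B lo hi : ℕ) (l : List DT) : Bool :=
  l.all (fun x => degOK true x.2.2.2 && Nat.ble x.2.2.1 12) && sizeOK B (l.map (mkDT T B lo hi)) &&
    allLt 13 (rowOK B (2 ^ (B - 1) * ones B (11 * 11 * 11)) (l.map (mkDT T B lo hi)))

def radT (T : Pc) (B : ℕ) (l : List DT) : Bool :=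
  radT1 T B 0 2 l && radT1 T B 2 3 l && radT1 T B 3 4 l && radT1 T B 4 6 l && radT1 T B 6 8 l &&
    radT1 T B 8 12 l && radT1 T B 12 16 l

def posT (T : Pc) (B : ℕ) (lp ln : NP) : Bool :=
  degOK true lp && degOK true ln && Nat.blt (kTT T lp + kTT T ln) (2 ^ (B - 1)) &&
    Nat.beq ((kNT T B lp + 2 ^ (B - 1) * ones B (11 * 11 * 11) - kNT T B ln) &&&
      (2 ^ (B - 1) * ones B (11 * 11 * 11))) (2 ^ (B - 1) * ones B (11 * 11 * 11))

section
variable {R R' : Type} [CommSemiring R] [CommSemiring R']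

lemma pc_map_npT (f : R →+* R') (T : Pc) (x y z u : R) (l : NP) :
    f (npT T x y z u l) = npT T (f x) (f y) (f z) (f u) l := by
  simp [npT, sy_map_npv, lin4]

lemma pc_map_dq4 (f : R →+* R') (lo hi k : ℕ) (x y : R) :
    f (dq4 lo hi k x y) = dq4 lo hi k (f x) (f y) := by
  simp [dq4, map_ofNat]

end

section
open MvPolynomial

lemma pc_hom_lin (a b c d : ℕ) :
    (lin4 a b c d (X 0) (X 1) (X 2) (X 3) : MvPolynomial (Fin 4) ℕ).IsHomogeneous 1 :=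
  (((sy_hom_nat a (isHomogeneous_X _ _)).add (sy_hom_nat b (isHomogeneous_X _ _))).add
    (sy_hom_nat c (isHomogeneous_X _ _))).add (sy_hom_nat d (isHomogeneous_X _ _))

lemma pc_KR_npT (T : Pc) (B : ℕ) {l : NP} (h : degOK true l = true) :
    KR B 11 10 (kNT T B l) (kTT T l) fun w => npT T (w 0) (w 1) (w 2) (w 3) l := by
  refine ⟨npT T (X 0) (X 1) (X 2) (X 3) l, ?_, ?_, ?_, fun w => ?_⟩
  · have h1 := sy_degOK h
    clear h
    unfold npT
    induction l with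
    | nil => exact isHomogeneous_zero _ _ _
    | cons t l ih =>
      exact (sy_hom_nat _ (sy_hom_bas true (pc_hom_lin _ _ _ _) (pc_hom_lin _ _ _ _)
        (pc_hom_lin _ _ _ _) (pc_hom_lin _ _ _ _) (h1 t List.mem_cons_self).1
        (h1 t List.mem_cons_self).2)).add (ih fun y hy => h1 y (List.mem_cons_of_mem _ hy))
  · rw [pc_map_npT, eval_X, eval_X, eval_X, eval_X]
    rfl
  · rw [pc_map_npT, eval_X, eval_X, eval_X, eval_X]
    rfl
  · have := pc_map_npT (aeval w : MvPolynomial (Fin 4) ℕ →ₐ[ℕ] ℝ).toRingHom T (X 0) (X 1) (X 2)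
      (X 3) l
    simpa using this

lemma pc_KR_dq4 (B lo hi : ℕ) {k : ℕ} (h : k ≤ 12) :
    KR B 13 12 (dq4 lo hi k 1 (2 ^ B)) (dq4 lo hi k 1 1) fun w => dq4 lo hi k (w 0) (w 1) := by
  refine ⟨dq4 lo hi k (X 0) (X 1), ?_, ?_, ?_, fun w => ?_⟩
  · have hx : (X 0 : MvPolynomial (Fin 4) ℕ).IsHomogeneous 1 := isHomogeneous_X _ _
    have hy : (X 1 : MvPolynomial (Fin 4) ℕ).IsHomogeneous 1 := isHomogeneous_X _ _
    have k1 := (sy_hom_pow ((sy_hom_nat lo hx).add (sy_hom_nat hi hy)) k).mul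
      (sy_hom_pow (sy_hom_nat 4 (hx.add hy)) (12 - k))
    rw [Nat.add_sub_cancel' h] at k1
    exact k1
  · rw [pc_map_dq4, eval_X, eval_X]
    rfl
  · rw [pc_map_dq4, eval_X, eval_X]
    rfl
  · have := pc_map_dq4 (aeval w : MvPolynomial (Fin 4) ℕ →ₐ[ℕ] ℝ).toRingHom lo hi k (X 0) (X 1)
    simpa using this

end

lemma pc_cover {a : V 4} (ha : a ∈ Sx 4) : ∃ i < 4, ∃ w : Fin 4 → ℝ, 0 ≤ w ∧
    ∀ l, npT (pc i) (w 0) (w 1) (w 2) (w 3) l = hv l a := by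
  obtain ⟨w, hw, e⟩ := sy_chamber true ha
  have h0 : 0 ≤ w 0 := hw 0
  have h1 : 0 ≤ w 1 := hw 1
  have h2 : 0 ≤ w 2 := hw 2
  have h3 : 0 ≤ w 3 := hw 3
  have fin : ∀ i < 4, ∀ x y z u : ℝ, 0 ≤ x → 0 ≤ y → 0 ≤ z → 0 ≤ u →
      (∀ l, npT (pc i) x y z u l = npv true (w 0) (w 1) (w 2) (w 3) l) →
      ∃ i < 4, ∃ w : Fin 4 → ℝ, 0 ≤ w ∧
        ∀ l, npT (pc i) (w 0) (w 1) (w 2) (w 3) l = hv l a := fun i hi x y z u a0 a1 a2 a3 h =>
    ⟨i, hi, ![x, y, z, u], fun j => by fin_cases j <;> assumption, fun l => (h l).trans (e l)⟩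
  rcases le_total (w 1) (4 * w 0) with c1 | c1
  · refine fin 0 (by norm_num) (w 0 - w 1 / 4) (w 1 / 4) (w 2) (w 3) (by linarith) (by linarith)
      h2 h3 fun l => ?_
    simp only [npT, pc, List.getD_cons_zero, lin4]
    congr 1 <;> push_cast <;> ring
  rcases le_total (w 1 - 4 * w 0) (2 * w 2) with c2 | c2
  · refine fin 1 (by norm_num) (w 0) ((w 1 - 4 * w 0) / 2) (w 2 - (w 1 - 4 * w 0) / 2) (w 3) h0
      (by linarith) (by linarith) h3 fun l => ?_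
    simp only [npT, pc, List.getD_cons_zero, List.getD_cons_succ, lin4]
    congr 1 <;> push_cast <;> ring
  rcases le_total (w 1 - 4 * w 0 - 2 * w 2) (3 * w 3) with c3 | c3
  · refine fin 2 (by norm_num) (w 0) ((w 1 - 4 * w 0 - 2 * w 2) / 3) (w 2)
      (w 3 - (w 1 - 4 * w 0 - 2 * w 2) / 3) h0 (by linarith) h2 (by linarith) fun l => ?_
    simp only [npT, pc, List.getD_cons_zero, List.getD_cons_succ, lin4]
    congr 1 <;> push_cast <;> ring
  · refine fin 3 (by norm_num) (w 0) (w 1 - 4 * w 0 - 2 * w 2 - 3 * w 3) (w 2) (w 3) h0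
      (by linarith) h2 h3 fun l => ?_
    simp only [npT, pc, List.getD_cons_zero, List.getD_cons_succ, lin4]
    congr 1 <;> push_cast <;> ring

theorem posT_sound {B : ℕ} (hB : 1 ≤ B) {lp ln : NP} (h : ∀ i < 4, posT (pc i) B lp ln = true)
    {a : V 4} (ha : a ∈ Sx 4) : hv ln a ≤ hv lp a := by
  obtain ⟨i, hi, w, hw, e⟩ := pc_cover ha
  have h := h i hi
  simp only [posT, Bool.and_eq_true, Nat.blt_eq, Nat.beq_eq] at h
  obtain ⟨⟨⟨h1, h2⟩, h3⟩, h4⟩ := h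
  rw [← e, ← e]
  exact KR.le hB (by norm_num) (pc_KR_npT _ B h1) (pc_KR_npT _ B h2) (by omega) (by omega)
    h4 w hw

def chk (T T' : Pc) (B : ℕ) (l : List BT) (ks : List ℕ) : Bool :=
  ks.all (layerOK B 11 10 (l.map (mkBT T T' B)))

lemma mainT_of {T T' : Pc} {B : ℕ} {l : List BT}
    (h0 : (btOK true l && sizeOK B (l.map (mkBT T T' B))) = true)
    (h1 : chk T T' B l [0, 1, 5, 10] = true) (h2 : chk T T' B l [2, 3, 4, 6, 7, 8, 9] = true) :
    mainT T T' B l = true := by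
  rw [mainT, h0, Bool.true_and, allLt_iff]
  rw [chk, List.all_eq_true] at h1 h2
  intro i hi
  have : i ∈ [0, 1, 5, 10] ∨ i ∈ [2, 3, 4, 6, 7, 8, 9] := by interval_cases i <;> simp
  exact this.elim (h1 i) (h2 i)

lemma mainT_one {B : ℕ} (hB : 1 ≤ B) {l : List BT} {T T' : Pc} (h : mainT T T' B l = true)
    {a b : V 4} {w w' : Fin 4 → ℝ} (hw : 0 ≤ w) (hw' : 0 ≤ w')
    (e : ∀ l, npT T (w 0) (w 1) (w 2) (w 3) l = hv l a)
    (e' : ∀ l, npT T' (w' 0) (w' 1) (w' 2) (w' 3) l = hv l b) : 0 ≤ btv l a b := by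
  simp only [mainT, btOK, Bool.and_eq_true, List.all_eq_true] at h
  obtain ⟨⟨h1, h2⟩, h3⟩ := h
  have := bil_sound (SA := 11) (SB := 11) (nA := 10) (nB := 10) hB (by norm_num) (by norm_num) l
    (mkBT T T' B) (fun x w => npT T (w 0) (w 1) (w 2) (w 3) x.2.2.1)
    (fun x w => npT T' (w 0) (w 1) (w 2) (w 3) x.2.2.2)
    (fun x hx => pc_KR_npT _ B (h1 x hx).1) (fun x hx => pc_KR_npT _ B (h1 x hx).2) h2
    (fun i j k hk => Or.inr (allLt_iff.1 (allLt_iff.1 (allLt_iff.1 h3 k (by omega)) j (by omega))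
      i (by omega))) w w' hw hw'
  simp only [e, e'] at this
  exact this

theorem mainT_sound {B : ℕ} (hB : 1 ≤ B) {l : List BT} (hs : ∀ a b : V 4, btv l a b = btv l b a)
    (h : ∀ i < 4, ∀ j < 4, i ≤ j → mainT (pc i) (pc j) B l = true)
    {a b : V 4} (ha : a ∈ Sx 4) (hb : b ∈ Sx 4) : 0 ≤ btv l a b := by
  obtain ⟨i, hi, w, hw, e⟩ := pc_cover ha
  obtain ⟨j, hj, w', hw', e'⟩ := pc_cover hb
  rcases le_total i j with c | c
  · exact mainT_one hB (h i hi j hj c) hw hw' e e'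
  · rw [hs]
    exact mainT_one hB (h j hj i hi c) hw' hw e' e

lemma btv_main_sym {K : KL} {ext : List BT} (h : ∀ a b : V 4, btv ext a b = btv ext b a)
    (a b : V 4) : btv (mainTerms K ext) a b = btv (mainTerms K ext) b a := by
  have := h a b
  simp only [btv] at this
  simp only [btv, mainTerms, List.map_append, List.sum_append, List.map_map, this]
  congr 2
  exact List.map_congr_left fun x _ => by simp only [Function.comp]; ring

lemma pc_dq4_dg {B lo hi k i : ℕ} (hk : k ≤ 12) (h : dq4 lo hi k 1 1 < 2 ^ B) (hi' : 13 ≤ i) :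
    dg B (dq4 lo hi k 1 (2 ^ B)) i = 0 := by
  have hb : 1 ≤ 2 ^ B := Nat.one_le_two_pow
  have h1 : dq4 lo hi k 1 (2 ^ B) ≤ dq4 lo hi k 1 1 * (2 ^ B) ^ 12 := by
    have e : dq4 lo hi k 1 1 * (2 ^ B) ^ 12 = dq4 lo hi k (2 ^ B) (2 ^ B) := by
      simp only [dq4, Nat.cast_id]
      nth_rw 2 [← Nat.add_sub_cancel' hk]
      rw [pow_add, mul_mul_mul_comm, ← mul_pow, ← mul_pow]
      congr 2 <;> ring
    rw [e]
    simp only [dq4, Nat.cast_id]
    gcongr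
  have h2 : dq4 lo hi k 1 (2 ^ B) < 2 ^ (B * i) :=
    calc _ ≤ _ := h1
      _ < 2 ^ B * (2 ^ B) ^ 12 := Nat.mul_lt_mul_of_pos_right h (by positivity)
      _ = (2 ^ B) ^ 13 := by ring
      _ ≤ (2 ^ B) ^ i := Nat.pow_le_pow_right hb hi'
      _ = _ := (pow_mul _ _ _).symm
  rw [dg, Nat.shiftRight_eq_div_pow, Nat.div_eq_of_lt h2, Nat.zero_mod]

lemma pc_rad {T : Pc} {B lo hi : ℕ} (hB : 1 ≤ B) {l : List DT}
    (h : radT1 T B lo hi l = true) (hlt : lo < hi) {D : ℝ} (h1 : (lo : ℝ) ≤ 4 * D)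
    (h2 : 4 * D ≤ hi) {a : V 4} {w' : Fin 4 → ℝ} (hw' : 0 ≤ w')
    (e' : ∀ l, npT T (w' 0) (w' 1) (w' 2) (w' 3) l = hv l a) :
    0 ≤ (l.map fun x => sg x.1 * (x.2.1 : ℝ) * D ^ x.2.2.1 * hv x.2.2.2 a).sum := by
  simp only [radT1, Bool.and_eq_true, List.all_eq_true, Nat.ble_eq] at h
  obtain ⟨⟨k1, k2⟩, k3⟩ := h
  have hp : (0 : ℝ) < hi - lo := sub_pos.2 (Nat.cast_lt.2 hlt)
  have k4 := k2
  rw [sizeOK, Bool.and_eq_true, List.all_eq_true] at k4
  have := bil_sound (SA := 13) (SB := 11) (nA := 12) (nB := 10) hB (by norm_num) (by norm_num) l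
    (mkDT T B lo hi) (fun x w => dq4 lo hi x.2.2.1 (w 0) (w 1))
    (fun x w => npT T (w 0) (w 1) (w 2) (w 3) x.2.2.2)
    (fun x hx => pc_KR_dq4 B lo hi (k1 x hx).2) (fun x hx => pc_KR_npT T B (k1 x hx).1) k2
    (fun i j k hk => by
      rcases lt_or_ge (i + 13 * j + 13 * 13 * k) 13 with h | h
      · exact Or.inr (allLt_iff.1 k3 _ h)
      · exact Or.inl fun x hx => pc_dq4_dg (k1 x hx).2
          (Nat.blt_eq.mp (k4.1 _ (List.mem_map_of_mem hx))) h)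
    ![(hi - 4 * D) / (hi - lo), (4 * D - lo) / (hi - lo), 0, 0] w' (fun i => by
      fin_cases i
      · exact div_nonneg (sub_nonneg.2 h2) hp.le
      · exact div_nonneg (sub_nonneg.2 h1) hp.le
      · exact le_rfl
      · exact le_rfl) hw'
  have e : (l.map fun x => sg (mkDT T B lo hi x).pos * ((mkDT T B lo hi x).k : ℝ) *
      dq4 lo hi x.2.2.1 ((hi - 4 * D) / (hi - lo)) ((4 * D - lo) / (hi - lo)) *
      npT T (w' 0) (w' 1) (w' 2) (w' 3) x.2.2.2) =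
      l.map fun x => 4 ^ 12 * (sg x.1 * (x.2.1 : ℝ) * D ^ x.2.2.1 * hv x.2.2.2 a) :=
    List.map_congr_left fun x hx => by
      have a1 : (lo : ℝ) * ((hi - 4 * D) / (hi - lo)) + hi * ((4 * D - lo) / (hi - lo)) = 4 * D := by
        field_simp; ring
      have a2 : ((hi : ℝ) - 4 * D) / (hi - lo) + (4 * D - lo) / (hi - lo) = 1 := by
        field_simp; ring
      rw [e', dq4, a1, a2, mul_one, mul_pow]
      nth_rw 2 [← Nat.add_sub_cancel' (k1 x hx).2]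
      rw [pow_add]
      change sg x.1 * (x.2.1 : ℝ) * _ * _ = _
      ring
  have h3 := this.trans_eq (congrArg List.sum e)
  rw [List.sum_map_mul_left] at h3
  exact nonneg_of_mul_nonneg_right h3 (by positivity)

theorem certT_sound {B : ℕ} (hB : 1 ≤ B) {φ : V 4 → ℝ} {fp fn : NP} {Z m : ℕ}
    (hφ : ∀ a ∈ Sx 4, (Z : ℝ) * φ a = hv fp a - hv fn a) {K : KL} {ext : List BT}
    (hr : ∀ i < 4, radT (pc i) B (radTerms true K m fp fn) = true)
    (hs : ∀ a b : V 4, btv ext a b = btv ext b a)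
    (h : ∀ i < 4, ∀ j < 4, i ≤ j → mainT (pc i) (pc j) B (mainTerms K ext) = true)
    {a b : V 4} (ha : a ∈ Sx 4) (hb : b ∈ Sx 4) :
    0 ≤ 24 * ((Z : ℝ) * m) * SS φ a b + btv ext a b := by
  have h1 : ∀ e : Ex, ∀ c : V 4,
      hv [(1, e)] c = Sym e c * ((4 : ℕ) : ℝ) ^ (10 - e.deg) := fun e c => by simp [hv]
  have key : ∀ b ∈ Sx 4, (K.map fun x => sg x.1 * (x.2.1 : ℝ) *
      (((4 : ℕ) : ℝ) ^ (10 - x.2.2.deg)) ^ 2 * Sym x.2.2 (a * b)).sum ≤
      Z * m * hat φ (a * b) := fun b hb => by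
    obtain ⟨D, c, hc, d0, d1, e⟩ := sy_polar ha hb
    obtain ⟨i, hi, w, hw, ew⟩ := pc_cover hc
    have hr := hr i hi
    simp only [radT, Bool.and_eq_true] at hr
    obtain ⟨⟨⟨⟨⟨⟨r1, r2⟩, r3⟩, r4⟩, r5⟩, r6⟩, r7⟩ := hr
    have d1' : D ≤ 4 := by exact_mod_cast d1
    have r : 0 ≤ ((radTerms true K m fp fn).map fun x =>
        sg x.1 * (x.2.1 : ℝ) * D ^ x.2.2.1 * hv x.2.2.2 c).sum := by
      rcases le_total (4 * D) 2 with c1 | c1
      · exact pc_rad hB r1 (by norm_num) (by simpa using d0) (by exact_mod_cast c1) hw ew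
      rcases le_total (4 * D) 3 with c2 | c2
      · exact pc_rad hB r2 (by norm_num) (by exact_mod_cast c1) (by exact_mod_cast c2) hw ew
      rcases le_total (4 * D) 4 with c3 | c3
      · exact pc_rad hB r3 (by norm_num) (by exact_mod_cast c2) (by exact_mod_cast c3) hw ew
      rcases le_total (4 * D) 6 with c4 | c4
      · exact pc_rad hB r4 (by norm_num) (by exact_mod_cast c3) (by exact_mod_cast c4) hw ew
      rcases le_total (4 * D) 8 with c5 | c5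
      · exact pc_rad hB r5 (by norm_num) (by exact_mod_cast c4) (by exact_mod_cast c5) hw ew
      rcases le_total (4 * D) 12 with c6 | c6
      · exact pc_rad hB r6 (by norm_num) (by exact_mod_cast c5) (by exact_mod_cast c6) hw ew
      · exact pc_rad hB r7 (by norm_num) (by exact_mod_cast c6) (by push_cast; linarith) hw ew
    rw [radTerms, List.map_cons, List.map_cons, List.sum_cons, List.sum_cons, List.map_map] at r
    have e2 : (K.map ((fun x : DT => sg x.1 * (x.2.1 : ℝ) * D ^ x.2.2.1 * hv x.2.2.2 c) ∘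
        fun x => (!x.1, x.2.1 * qq true ^ (10 - x.2.2.deg), x.2.2.deg, [(1, x.2.2)]))) =
        K.map fun x => -1 * (sg x.1 * (x.2.1 : ℝ) * (((4 : ℕ) : ℝ) ^ (10 - x.2.2.deg)) ^ 2 *
          Sym x.2.2 (D • c)) := List.map_congr_left fun x hx => by
      have : sg (!x.1) = -sg x.1 := by cases x.1 <;> simp [sg]
      have s2 : Sym x.2.2 (D • c) = D ^ x.2.2.deg * Sym x.2.2 c := sy_smul true (Or.inl rfl) D c
      have s3 : qq true = 4 := rfl
      simp only [Function.comp, h1, s2, s3, this]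
      push_cast
      ring
    rw [e2, List.sum_map_mul_left] at r
    rw [e, hat_smul φ d0, hat_of_mem φ hc]
    have e3 : (Z : ℝ) * m * (D * φ c) = m * D * (hv fp c - hv fn c) := by rw [← hφ c hc]; ring
    simp only [sg, cond_true, cond_false, pow_one] at r ⊢
    linarith
  have m1 := mainT_sound hB (btv_main_sym hs) h ha hb
  rw [btv, mainTerms, List.map_append, List.sum_append, List.map_map] at m1
  have s1 := Finset.sum_le_sum fun (σ : Equiv.Perm (Fin 4)) (_ : σ ∈ Finset.univ) =>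
    key _ (Sx.perm hb σ)
  rw [sy_swap, ← Finset.mul_sum] at s1
  have e4 : 24 * ((Z : ℝ) * m) * SS φ a b =
      Z * m * ∑ σ : Equiv.Perm (Fin 4), hat φ (a * (b ∘ σ)) := by
    rw [SS]
    simp only [Nat.factorial]
    push_cast
    field_simp
  rw [e4]
  refine m1.trans (add_le_add (le_of_eq_of_le (congrArg List.sum (List.map_congr_left
    fun x _ => ?_)) s1) le_rfl)
  simp only [Function.comp, h1, ← Finset.mul_sum, sy_prod]
  ring

end Vale.Agent.P154
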