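import Vale.Agent.P154.DeS
import Vale.Agent.P154.Kron

namespace Vale.Agent.P154

open Finset

variable {B S N N' cb cb' tw tw' : ℕ} {Θ Θ' : (ℕ → ℕ → ℝ) → ℝ}

theorem Rp.zero (B S cb tw : ℕ) : Rp B S 0 cb tw (fun _ => 0) :=
  ⟨[], rfl, by simp, by simp, fun _ => rfl⟩

theorem Rp.single (B S c i j : ℕ) :
    Rp B S (c <<< (B * (i * S + j))) j c (fun h => (c : ℝ) * h i j) :=
  ⟨[(c, i, j)], by simp [Nat.shiftLeft_eq], by simp, by simp, fun _ => by simp⟩

theorem Rp.weaken (h : Rp B S N cb tw Θ) (h1 : cb ≤ cb') (h2 : tw ≤ tw') :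
    Rp B S N cb' tw' Θ := by
  obtain ⟨l, a, b, c, d⟩ := h
  exact ⟨l, a, fun x hx => (b x hx).trans h1, c.trans h2, d⟩

theorem Rp.add (h : Rp B S N cb tw Θ) (h' : Rp B S N' cb tw' Θ') :
    Rp B S (N + N') cb (tw + tw') (fun f => Θ f + Θ' f) := by
  obtain ⟨l, a, b, c, d⟩ := h
  obtain ⟨l', a', b', c', d'⟩ := h'
  refine ⟨l ++ l', by simp [a, a'], fun x hx => ?_, ?_, fun f => by simp [d, d']⟩
  · rcases List.mem_append.1 hx with h | h
    · exact b x h
    · exact b' x h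
  · simpa using Nat.add_le_add c c'

theorem Rp.smul (h : Rp B S N cb tw Θ) (c : ℕ) :
    Rp B S (c * N) cb (c * tw) (fun f => (c : ℝ) * Θ f) := by
  obtain ⟨l, a, b, e, d⟩ := h
  refine ⟨l.map fun x => (c * x.1, x.2), ?_, fun x hx => ?_, ?_, fun f => ?_⟩
  · rw [a, ← List.sum_map_mul_left, List.map_map]
    simp [Function.comp_def, mul_assoc]
  · obtain ⟨y, hy, rfl⟩ := List.mem_map.1 hx
    exact b y hy
  · rw [List.map_map]
    simpa [Function.comp_def, List.sum_map_mul_left] using Nat.mul_le_mul_left c e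
  · show (c : ℝ) * Θ f = _
    rw [d, ← List.sum_map_mul_left, List.map_map]
    simp [Function.comp_def, mul_assoc]

theorem Rp.shift (h : Rp B S N cb tw Θ) (i j : ℕ) :
    Rp B S (N <<< (B * (i * S + j))) (cb + j) tw
      (fun f => Θ fun a b => f (a + i) (b + j)) := by
  obtain ⟨l, a, b, e, d⟩ := h
  refine ⟨l.map fun x => (x.1, x.2.1 + i, x.2.2 + j), ?_, fun x hx => ?_, ?_, fun f => ?_⟩
  · rw [a, Nat.shiftLeft_eq, ← List.sum_map_mul_right, List.map_map]
    congr 1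
    refine List.map_congr_left fun x _ => ?_
    simp only [Function.comp_apply, mul_assoc, ← pow_add]
    congr 2
    ring
  · obtain ⟨y, hy, rfl⟩ := List.mem_map.1 hx
    exact Nat.add_le_add_right (b y hy) j
  · rw [List.map_map]
    exact e
  · show Θ _ = _
    rw [d, List.map_map]
    rfl

theorem Rp.mul (h : Rp B S N cb tw Θ) (h' : Rp B S N' cb' tw' Θ') :
    Rp B S (N * N') (cb + cb') (tw * tw')
      (fun f => Θ fun a b => Θ' fun a' b' => f (a + a') (b + b')) := by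
  obtain ⟨l, rfl, b, e, d⟩ := h
  have key : Rp B S ((l.map fun x => x.1 * 2 ^ (B * (x.2.1 * S + x.2.2))).sum * N') (cb + cb')
      ((l.map fun x => x.1).sum * tw')
      (fun f => (l.map fun x => (x.1 : ℝ) * Θ' fun a' b' => f (x.2.1 + a') (x.2.2 + b')).sum) := by
    clear e d
    induction l with
    | nil => simpa using Rp.zero B S (cb + cb') 0
    | cons x l ih =>
      have h1 := (((h'.shift x.2.1 x.2.2).smul x.1).weaken (cb' := cb + cb')
        (by have := b x (by simp); omega) le_rfl).add (ih fun y hy => b y (by simp [hy]))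
      simp only [List.map_cons, List.sum_cons, add_mul]
      simp only [Nat.shiftLeft_eq, add_comm _ x.2.1, add_comm _ x.2.2] at h1
      rw [mul_assoc, mul_comm (2 ^ _) N', add_comm (x.2.1 * S)]
      exact h1
  simp only [d]
  exact key.weaken le_rfl (Nat.mul_le_mul_right _ e)

theorem Rp.sum {n : ℕ} {M t : ℕ → ℕ} {T : ℕ → (ℕ → ℕ → ℝ) → ℝ}
    (h : ∀ i < n, Rp B S (M i) cb (t i) (T i)) :
    Rp B S (∑ i ∈ range n, M i) cb (∑ i ∈ range n, t i)
      (fun f => ∑ i ∈ range n, T i f) := by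
  induction n with
  | zero => simpa using Rp.zero B S cb 0
  | succ n ih =>
    simp only [sum_range_succ]
    exact (ih fun i hi => h i (by omega)).add (h n (by omega))

theorem Rp.mono (h : Rp B S N cb tw Θ) {f f' : ℕ → ℕ → ℝ} (hf : ∀ a b, f a b ≤ f' a b) :
    Θ f ≤ Θ f' := by
  obtain ⟨l, _, _, _, d⟩ := h
  rw [d, d]
  exact List.sum_le_sum fun x _ => mul_le_mul_of_nonneg_left (hf _ _) (Nat.cast_nonneg _)

theorem Rp.map_add (h : Rp B S N cb tw Θ) (f f' : ℕ → ℕ → ℝ) :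
    Θ (fun a b => f a b + f' a b) = Θ f + Θ f' := by
  obtain ⟨l, _, _, _, d⟩ := h
  simp only [d, mul_add, List.sum_map_add]

theorem Rp.map_smul (h : Rp B S N cb tw Θ) (c : ℝ) (f : ℕ → ℕ → ℝ) :
    Θ (fun a b => c * f a b) = c * Θ f := by
  obtain ⟨l, _, _, _, d⟩ := h
  simp only [d, ← List.sum_map_mul_left, mul_left_comm c]

theorem Rp.map_sum (h : Rp B S N cb tw Θ) {ι : Type} (s : Finset ι) (f : ι → ℕ → ℕ → ℝ) :
    Θ (fun a b => ∑ i ∈ s, f i a b) = ∑ i ∈ s, Θ (f i) := by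
  classical
  induction s using Finset.induction_on with
  | empty => simpa using h.map_smul 0 fun _ _ => 0
  | insert i s hi ih => simp only [sum_insert hi, h.map_add, ih]

theorem Rp.total (h : Rp B S N cb tw Θ) : Θ (fun _ _ => 1) ≤ tw := by
  obtain ⟨l, _, _, e, d⟩ := h
  have e' : (((l.map fun x => x.1).sum : ℕ) : ℝ) ≤ tw := Nat.cast_le.2 e
  rw [d]
  simpa [Function.comp_def] using e'

theorem RpX.list_digits (B L : ℕ) (l : List (ℕ × ℕ)) (hl : ∀ x ∈ l, x.2 < L) :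
    (l.map fun x => x.1 * 2 ^ (B * x.2)).sum =
      ∑ k ∈ range L, (l.map fun x => if x.2 = k then x.1 else 0).sum * 2 ^ (B * k) := by
  induction l with
  | nil => simp
  | cons x l ih =>
    simp only [List.map_cons, List.sum_cons, add_mul, sum_add_distrib]
    rw [ih fun y hy => hl y (by simp [hy])]
    simp [hl x (by simp)]

theorem RpX.idx_inj {S a b i j : ℕ} (hb : b < S) (hj : j < S) :
    i * S + j = a * S + b ↔ i = a ∧ j = b := by
  refine ⟨fun h => ?_, fun h => by rw [h.1, h.2]⟩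
  have h1 := congrArg (· % S) h
  simp only [Nat.mul_add_mod_self_right, Nat.mod_eq_of_lt hb, Nat.mod_eq_of_lt hj] at h1
  subst h1
  exact ⟨Nat.eq_of_mul_eq_mul_right (by omega) (Nat.add_right_cancel h), rfl⟩

/-- a digit is the total weight of its cell -/
theorem Rp.dg_eq (h : Rp B S N cb tw Θ) (hc : cb < S) (ht : tw < 2 ^ B) {a b : ℕ} (hb : b < S) :
    (dg B N (a * S + b) : ℝ) = Θ fun i j => if i = a ∧ j = b then 1 else 0 := by
  obtain ⟨l, rfl, hl, e, d⟩ := h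
  have h1 := RpX.list_digits B ((l.map fun x => x.2.1 * S + x.2.2).sum + (a * S + b) + 1)
    (l.map fun x => (x.1, x.2.1 * S + x.2.2)) (by
      intro x hx
      obtain ⟨y, hy, rfl⟩ := List.mem_map.1 hx
      have := List.single_le_sum (l := l.map fun x => x.2.1 * S + x.2.2) (fun _ _ => Nat.zero_le _)
        _ (List.mem_map_of_mem hy)
      exact Nat.lt_succ_of_le (this.trans (Nat.le_add_right _ _)))
  simp only [List.map_map, Function.comp_def] at h1
  rw [h1, dg_sum, if_pos (by omega), d, Nat.cast_list_sum, List.map_map]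
  · congr 1
    refine List.map_congr_left fun x hx => ?_
    simp only [Function.comp_apply, RpX.idx_inj hb ((hl x hx).trans_lt hc)]
    split_ifs <;> simp
  · intro k _
    refine lt_of_le_of_lt (le_trans (List.sum_le_sum fun x _ => ?_) e) ht
    split_ifs <;> simp

/-- reading digits on any finite set of cells -/
theorem Rp.extract (h : Rp B S N cb tw Θ) (hc : cb < S) (ht : tw < 2 ^ B) (s : Finset (ℕ × ℕ))
    (hs : ∀ x ∈ s, x.2 < S) {f : ℕ → ℕ → ℝ} (hf : ∀ a b, 0 ≤ f a b) :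
    ∑ x ∈ s, (dg B N (x.1 * S + x.2) : ℝ) * f x.1 x.2 ≤ Θ f := by
  have h1 : ∑ x ∈ s, (dg B N (x.1 * S + x.2) : ℝ) * f x.1 x.2 =
      Θ fun i j => ∑ x ∈ s, f x.1 x.2 * if i = x.1 ∧ j = x.2 then 1 else 0 := by
    rw [h.map_sum]
    refine sum_congr rfl fun x hx => ?_
    rw [h.map_smul, h.dg_eq hc ht (hs x hx), mul_comm]
  rw [h1]
  refine h.mono fun i j => ?_
  have h2 : ∀ x : ℕ × ℕ, (i = x.1 ∧ j = x.2) ↔ (i, j) = x := fun x => by rw [Prod.ext_iff]
  simp only [h2, mul_ite, mul_one, mul_zero, sum_ite_eq]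
  split_ifs
  · exact le_rfl
  · exact hf i j

theorem RpX.sum_mul {M : Type} [AddCommMonoid M] (n S : ℕ) (F : ℕ → M) :
    ∑ k ∈ range (n * S), F k = ∑ a ∈ range n, ∑ b ∈ range S, F (a * S + b) := by
  induction n with
  | zero => simp
  | succ n ih => rw [Nat.succ_mul, sum_range_add, ih, sum_range_succ]

theorem RpX.sum_lt {B L : ℕ} {g : ℕ → ℕ} (hg : ∀ k < L, g k < 2 ^ B) :
    ∑ k ∈ range L, g k * 2 ^ (B * k) < 2 ^ (B * L) := by
  induction L with
  | zero => simp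
  | succ L ih =>
    have h1 := ih fun k hk => hg k (by omega)
    have h2 : (g L + 1) * 2 ^ (B * L) ≤ 2 ^ B * 2 ^ (B * L) :=
      Nat.mul_le_mul_right _ (hg L (by omega))
    rw [sum_range_succ, Nat.mul_succ, pow_add, mul_comm (2 ^ (B * L))]
    rw [add_mul, one_mul] at h2
    omega

theorem RpX.land_sum {B L : ℕ} {g : ℕ → ℕ} (hg : ∀ k < L, g k < 2 ^ B) (M : ℕ) :
    M &&& ∑ k ∈ range L, g k * 2 ^ (B * k) =
      ∑ k ∈ range L, (dg B M k &&& g k) * 2 ^ (B * k) := by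
  rw [eq_sum_dg (lt_of_le_of_lt Nat.and_le_right (RpX.sum_lt hg))]
  refine sum_congr rfl fun k hk => ?_
  rw [dg_land, dg_sum hg, if_pos (mem_range.1 hk)]

theorem RpX.low_le {B N k0 k e c : ℕ} (he : c + e ≤ B) :
    2 ^ e * (dg B (N >>> (B * k0 + e)) k &&& (2 ^ c - 1)) ≤ dg B N (k + k0) := by
  rw [Nat.and_two_pow_sub_one_eq_mod, dg, dg, Nat.mod_mod_of_dvd _ (pow_dvd_pow 2 (by omega)),
    ← Nat.shiftRight_add, show B * k0 + e + B * k = B * (k + k0) + e by ring, Nat.shiftRight_add,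
    Nat.shiftRight_eq_div_pow _ e, ← Nat.mod_mul_right_div_self, ← pow_add]
  refine (Nat.mul_div_le _ _).trans ?_
  rw [← Nat.mod_mod_of_dvd _ (pow_dvd_pow 2 (show e + c ≤ B by omega))]
  exact Nat.mod_le _ _

/-- shift, divide the digits by `2 ^ e` and keep a window -/
theorem Rp.trunc (h : Rp B S N cb tw Θ) (hB : 1 ≤ B) (hc : cb < S) (ht : tw < 2 ^ B)
    {o1 o2 e c n1 n2 : ℕ} (hn : n2 + o2 ≤ S) (he : c + e ≤ B) :
    ∃ Θ', Rp B S ((N >>> (B * (o1 * S + o2) + e)) &&&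
        ((2 ^ c - 1) * ones B n2 * ones (B * S) n1)) (n2 - 1) (n1 * n2 * 2 ^ c) Θ' ∧
      ∀ f : ℕ → ℕ → ℝ, (∀ a b, 0 ≤ f a b) →
        2 ^ e * Θ' (fun a b => f (a + o1) (b + o2)) ≤ Θ f := by
  have hS : 1 ≤ S := by omega
  have cut : ∀ (a : ℕ) (F : ℕ → ℕ), (∀ b, n2 ≤ b → b < S → F b = 0) →
      ∑ b ∈ range S, F b = ∑ b ∈ range n2, F b := by
    intro a F hF
    refine (sum_subset (range_subset_range.2 (by omega)) fun b h1 h2 => ?_).symm
    exact hF b (by simpa using h2) (mem_range.1 h1)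
  have md : ∀ a b, b < S → (a * S + b) % S = b := fun a b hb => by
    rw [Nat.mul_add_mod_self_right, Nat.mod_eq_of_lt hb]
  have hm : (2 ^ c - 1) * ones B n2 * ones (B * S) n1 =
      ∑ k ∈ range (n1 * S), (if k % S < n2 then 2 ^ c - 1 else 0) * 2 ^ (B * k) := by
    rw [RpX.sum_mul, ones_eq hB, ones_eq (Nat.mul_pos hB hS), mul_sum]
    refine sum_congr rfl fun a _ => ?_
    rw [cut a _ fun b h1 h2 => by rw [md a b h2, if_neg (by omega), zero_mul], mul_sum, sum_mul]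
    refine sum_congr rfl fun b hb => ?_
    have := mem_range.1 hb
    rw [md a b (by omega), if_pos this, mul_assoc, ← pow_add]
    congr 2
    ring
  have hc2 : 2 ^ c - 1 < 2 ^ B :=
    lt_of_lt_of_le (Nat.sub_lt (by positivity) one_pos) (Nat.pow_le_pow_right two_pos (by omega))
  set M := N >>> (B * (o1 * S + o2) + e) with hM
  have hR : M &&& ((2 ^ c - 1) * ones B n2 * ones (B * S) n1) =
      ∑ a ∈ range n1, ∑ b ∈ range n2,
        (dg B M (a * S + b) &&& (2 ^ c - 1)) <<< (B * (a * S + b)) := by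
    rw [hm, RpX.land_sum (fun k _ => by split_ifs; exacts [hc2, by positivity]), RpX.sum_mul]
    refine sum_congr rfl fun a _ => ?_
    rw [cut a _ fun b h1 h2 => by rw [md a b h2, if_neg (by omega), Nat.and_zero, zero_mul]]
    refine sum_congr rfl fun b hb => ?_
    have := mem_range.1 hb
    rw [md a b (by omega), if_pos this, Nat.shiftLeft_eq]
  refine ⟨fun f => ∑ a ∈ range n1, ∑ b ∈ range n2,
    ((dg B M (a * S + b) &&& (2 ^ c - 1) : ℕ) : ℝ) * f a b, ?_, fun f hf => ?_⟩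
  · rw [hR]
    have h1 := Rp.sum (B := B) (S := S) (cb := n2 - 1) (n := n1) fun a _ =>
      Rp.sum (n := n2) fun b hb =>
        (Rp.single B S (dg B M (a * S + b) &&& (2 ^ c - 1)) a b).weaken (cb' := n2 - 1)
          (tw' := 2 ^ c) (by omega) (Nat.and_le_right.trans (Nat.sub_le _ _))
    exact h1.weaken le_rfl (by simp [mul_assoc])
  · have h1 := h.extract hc ht ((range n1 ×ˢ range n2).image fun x => (x.1 + o1, x.2 + o2))
      (fun x hx => by
        obtain ⟨y, hy, rfl⟩ := mem_image.1 hx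
        have := mem_range.1 (mem_product.1 hy).2
        show y.2 + o2 < S
        omega) hf
    rw [sum_image (fun x _ y _ hxy => by
      simp only [Prod.mk.injEq, add_left_inj] at hxy
      exact Prod.ext hxy.1 hxy.2), sum_product] at h1
    refine le_trans ?_ h1
    simp only [mul_sum]
    refine sum_le_sum fun a _ => sum_le_sum fun b _ => ?_
    rw [← mul_assoc]
    refine mul_le_mul_of_nonneg_right ?_ (hf _ _)
    have h2 := RpX.low_le (N := N) (k0 := o1 * S + o2) (k := a * S + b) he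
    rw [show a * S + b + (o1 * S + o2) = (a + o1) * S + (b + o2) by ring] at h2
    exact_mod_cast h2

theorem ones_one {B : ℕ} (hB : 1 ≤ B) : ones B 1 = 1 := by
  simp [ones_eq hB]

/-- digits of an extracted row -/
theorem dg_row (B N k n b : ℕ) (hb : b < n) :
    dg B ((N >>> (B * k)) &&& (2 ^ (B * n) - 1)) b = dg B N (k + b) := by
  refine Nat.eq_of_testBit_eq fun i => ?_
  simp only [dg, Nat.testBit_mod_two_pow, Nat.testBit_shiftRight, Nat.testBit_and,
    Nat.testBit_two_pow_sub_one]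
  by_cases hi : i < B
  · have h1 : B * b + i < B * n := by
      have := Nat.mul_le_mul_left B (Nat.succ_le_of_lt hb)
      rw [Nat.mul_succ] at this
      omega
    simp [hi, h1, Nat.mul_add, Nat.add_assoc]
  · simp [hi]

theorem vec_add {r : ℝ} (hr : 0 < r) (a b a' b' : ℤ) :
    vec r (a + a') (b + b') = vec r a b * vec r a' b' := by
  funext i
  fin_cases i <;> simp [vec, ← zpow_add₀ hr.ne'] <;> congr 1 <;> ring

theorem vec_nonneg {r : ℝ} (hr : 0 < r) (a b : ℤ) : 0 ≤ vec r a b := by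
  intro i
  fin_cases i <;> simp [vec] <;> positivity

theorem vec_zero (r : ℝ) : vec r 0 0 = 1 := by
  funext i
  fin_cases i <;> simp [vec]

theorem vec_ed0 {r : ℝ} (hr : 0 < r) (a b : ℤ) :
    vec r a b * ed0 = r ^ (-a) • (vec r 0 b * ed0) := by
  funext i
  fin_cases i <;> simp [vec, ed0, ← zpow_neg, ← zpow_add₀ hr.ne'] <;> congr 1 <;> ring

theorem RpX.lo_real {x y : ℕ} (hy : 0 < y) (hx : 0 < x) (i j : ℕ) :
    (2 : ℝ) ^ 32 * ((x : ℝ) / y) ^ ((i : ℤ) - j) =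
      (((x ^ i * y ^ j) <<< 32 : ℕ) : ℝ) / ((y ^ i * x ^ j : ℕ) : ℝ) := by
  have h1 : (0 : ℝ) < x := Nat.cast_pos.2 hx
  have h2 : (0 : ℝ) < y := Nat.cast_pos.2 hy
  rw [zpow_sub₀ (div_pos h1 h2).ne', zpow_natCast, zpow_natCast, Nat.shiftLeft_eq]
  push_cast
  simp only [div_pow]
  field_simp
  norm_num

theorem RpX.lt_lo {x y : ℕ} (hy : 0 < y) (hx : 0 < x) (i j : ℕ) :
    2 ^ 32 * ((x : ℝ) / y) ^ ((i : ℤ) - j) < (lo x y i j : ℝ) + 1 := by
  have h1 : 0 < y ^ i * x ^ j := by positivity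
  rw [RpX.lo_real hy hx, lo_eq, div_lt_iff₀' (Nat.cast_pos.2 h1)]
  exact_mod_cast Nat.lt_mul_div_succ _ h1

theorem lo_le {x y : ℕ} (hy : 0 < y) (hx : 0 < x) (i j : ℕ) :
    (lo x y i j : ℝ) ≤ 2 ^ 32 * ((x : ℝ) / y) ^ ((i : ℤ) - j) := by
  rw [RpX.lo_real hy hx, lo_eq]
  exact Nat.cast_div_le

theorem le_lo {x y : ℕ} (hy : 0 < y) (hx : 0 < x) (i j : ℕ) :
    2 ^ 32 * ((x : ℝ) / y) ^ ((i : ℤ) - j) ≤ (lo x y i j : ℝ) + 1 := (RpX.lt_lo hy hx i j).le

theorem lo_mono {x y : ℕ} (hy : 0 < y) (hxy : y ≤ x) {i j n : ℕ} (h : i ≤ j + n) :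
    lo x y i j ≤ lo x y n 0 := by
  have hx : 0 < x := hy.trans_le hxy
  have h1 : (1 : ℝ) ≤ (x : ℝ) / y := (one_le_div (Nat.cast_pos.2 hy)).2 (Nat.cast_le.2 hxy)
  have h2 := (lo_le hy hx i j).trans (mul_le_mul_of_nonneg_left
    (zpow_le_zpow_right₀ h1 (show (i : ℤ) - j ≤ (n : ℤ) - (0 : ℕ) by omega)) (by positivity))
  have h3 := h2.trans_lt (RpX.lt_lo hy hx n 0)
  exact Nat.lt_succ_iff.1 (by exact_mod_cast h3)

theorem parOK_iff {P : Par} : parOK P = true ↔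
    0 < P.rb ∧ P.rb < P.ra ∧ 0 < P.sb ∧ P.sb < P.sa ∧ 2 * P.W + 2 * P.V < P.S ∧ P.V ≤ 63 ∧
      P.W ≤ 127 ∧ P.V ≤ P.W ∧ lo P.ra P.rb (2 * P.W) 0 < 2 ^ 46 ∧ P.U ≤ 63 ∧ 0 < P.ld ∧
      2 * P.ln ≤ P.ld ∧ 0 < P.wd ∧ P.wn ≤ P.wd ∧ ∀ p ∈ P.ps, p ≤ 2 ^ 40 := by
  simp only [parOK, Bool.and_eq_true, Nat.blt_eq, Nat.ble_eq, List.all_eq_true, and_assoc]

end Vale.Agent.P154
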