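import Vale.Agent.P154.Kron
import Vale.Agent.P154.Law

namespace Vale.Agent.P154

lemma sy_perm_succ {n : ℕ} (F : Equiv.Perm (Fin (n + 1)) → ℝ) :
    ∑ σ, F σ = ∑ p : Fin (n + 1), ∑ τ : Equiv.Perm (Fin n),
      F (Equiv.Perm.decomposeFin.symm (p, τ)) := by
  rw [← Equiv.Perm.decomposeFin.symm.sum_comp, Fintype.sum_prod_type]

theorem Sym_three (e : Ex) (a : V 3) : Sym e a = sy3 (a 0) (a 1) (a 2) e := by
  simp only [Sym, sy_perm_succ, Fin.sum_univ_succ, Fin.prod_univ_succ, Finset.univ_unique,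
    Finset.sum_singleton, Finset.prod_singleton, Equiv.Perm.decomposeFin_symm_apply_zero,
    Equiv.Perm.decomposeFin_symm_apply_succ]
  simp [Ex.get, sy3, per2, Equiv.swap_apply_def]
  ring

theorem Sym_four (e : Ex) (a : V 4) : Sym e a = sy4 (a 0) (a 1) (a 2) (a 3) e := by
  simp only [Sym, sy_perm_succ, Fin.sum_univ_succ, Fin.prod_univ_succ, Finset.univ_unique,
    Finset.sum_singleton, Finset.prod_singleton, Equiv.Perm.decomposeFin_symm_apply_zero,
    Equiv.Perm.decomposeFin_symm_apply_succ]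
  simp [Ex.get, sy4, per2, Equiv.swap_apply_def]
  ring

theorem bd_hv {q : ℕ} [NeZero q] (l : NP) : Bd (hv l : V q → ℝ) := by
  refine Bd.of_continuous (continuous_list_sum _ fun t _ => ?_)
  unfold Sym
  fun_prop

lemma sy_perm {q : ℕ} (e : Ex) (a : V q) (τ : Equiv.Perm (Fin q)) : Sym e (a ∘ τ) = Sym e a :=
  Fintype.sum_equiv (Equiv.mulLeft τ) _ _ fun _ => rfl

lemma sy_prod {q : ℕ} (e : Ex) (a b : V q) :
    ∑ σ : Equiv.Perm (Fin q), Sym e (a * (b ∘ σ)) = Sym e a * Sym e b := by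
  simp only [Sym, Pi.mul_apply, mul_pow, Finset.prod_mul_distrib]
  rw [Finset.sum_comm, Finset.sum_mul]
  refine Finset.sum_congr rfl fun τ _ => ?_
  rw [← Finset.mul_sum]
  congr 1
  exact Fintype.sum_equiv (Equiv.mulRight τ) _ _ fun _ => rfl

section
variable {R R' : Type} [CommSemiring R] [CommSemiring R']

lemma sy_map_npv (f : R →+* R') (four : Bool) (x y z u : R) (l : NP) :
    f (npv four x y z u l) = npv four (f x) (f y) (f z) (f u) l := by
  induction l with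
  | nil => exact map_zero f
  | cons t l ih =>
    change f (_ + npv four x y z u l) = _ + npv four _ _ _ _ l
    rw [map_add, ih]
    cases four <;> simp [bas, sy3, sy4, per2, map_ofNat]

lemma sy_map_dpw (f : R →+* R') (lo hi k : ℕ) (x y : R) :
    f (dpw lo hi k x y) = dpw lo hi k (f x) (f y) := by
  simp [dpw, map_ofNat]

end

section
open MvPolynomial

lemma sy_hom_nat {p : MvPolynomial (Fin 4) ℕ} {n : ℕ} (k : ℕ) (hp : p.IsHomogeneous n) :
    ((k : MvPolynomial (Fin 4) ℕ) * p).IsHomogeneous n := hp.C_mul k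

lemma sy_hom_pow {p : MvPolynomial (Fin 4) ℕ} (hp : p.IsHomogeneous 1) (k : ℕ) :
    (p ^ k).IsHomogeneous k := by simpa using hp.pow k

lemma sy_hom_per2 {x y : MvPolynomial (Fin 4) ℕ} (hx : x.IsHomogeneous 1) (hy : y.IsHomogeneous 1)
    (e f : ℕ) : (per2 x y e f).IsHomogeneous (e + f) :=
  ((sy_hom_pow hx e).mul (sy_hom_pow hy f)).add ((sy_hom_pow hy e).mul (sy_hom_pow hx f))

lemma sy_hom_bas (four : Bool) {x y z u : MvPolynomial (Fin 4) ℕ} (hx : x.IsHomogeneous 1)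
    (hy : y.IsHomogeneous 1) (hz : z.IsHomogeneous 1) (hu : u.IsHomogeneous 1) {e : Ex}
    (h1 : e.deg ≤ 10) (h2 : four = true ∨ e.2.2.2 = 0) :
    (bas four x y z u e).IsHomogeneous 10 := by
  cases four with
  | true =>
    have a := ((hx.add hy).add hz).add hu
    have b := (hx.add hz).add hu
    have c := hx.add hu
    have s := (((sy_hom_nat 4 hx).add hy).add (sy_hom_nat 2 hz)).add (sy_hom_nat 3 hu)
    have P := @sy_hom_per2
    have k := (((((((P a b _ _).mul (P c hx _ _)).add ((P a c _ _).mul (P b hx _ _))).add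
      ((P a hx _ _).mul (P b c _ _))).add ((P b c _ _).mul (P a hx _ _))).add
      ((P b hx _ _).mul (P a c _ _))).add ((P c hx e.1 e.2.1).mul (P a b e.2.2.1 e.2.2.2))).mul
      (sy_hom_pow s (10 - e.deg))
    rw [show e.1 + e.2.1 + (e.2.2.1 + e.2.2.2) + (10 - e.deg) = 10 by
      simp only [Ex.deg] at h1 ⊢; omega] at k
    exact k
  | false =>
    have a := (hx.add hy).add hz
    have b := hx.add hz
    have s := ((sy_hom_nat 3 hx).add hy).add (sy_hom_nat 2 hz)
    have P := @sy_hom_per2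
    have k := ((((sy_hom_pow a _).mul (P b hx _ _)).add ((sy_hom_pow b _).mul (P a hx _ _))).add
      ((sy_hom_pow hx e.1).mul (P a b e.2.1 e.2.2.1))).mul (sy_hom_pow s (10 - e.deg))
    have h3 := h2.resolve_left Bool.false_ne_true
    rw [show e.1 + (e.2.1 + e.2.2.1) + (10 - e.deg) = 10 by
      simp only [Ex.deg] at h1 ⊢; omega] at k
    exact k

lemma sy_degOK {four : Bool} {l : NP} (h : degOK four l = true) :
    ∀ t ∈ l, t.2.deg ≤ 10 ∧ (four = true ∨ t.2.2.2.2 = 0) := by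
  simpa [degOK] using h

lemma sy_KR_npv (four : Bool) (B : ℕ) {l : NP} (h : degOK four l = true) :
    KR B 11 10 (kN four B l) (kT four l) fun w => npv four (w 0) (w 1) (w 2) (w 3) l := by
  refine ⟨npv four (X 0) (X 1) (X 2) (X 3) l, ?_, ?_, ?_, fun w => ?_⟩
  · have h1 := sy_degOK h
    clear h
    induction l with
    | nil => exact isHomogeneous_zero _ _ _
    | cons t l ih =>
      exact (sy_hom_nat _ (sy_hom_bas four (isHomogeneous_X _ _) (isHomogeneous_X _ _)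
        (isHomogeneous_X _ _) (isHomogeneous_X _ _) (h1 t List.mem_cons_self).1
        (h1 t List.mem_cons_self).2)).add (ih fun y hy => h1 y (List.mem_cons_of_mem _ hy))
  · rw [sy_map_npv, eval_X, eval_X, eval_X, eval_X]
    rfl
  · rw [sy_map_npv, eval_X, eval_X, eval_X, eval_X]
    rfl
  · have := sy_map_npv (aeval w : MvPolynomial (Fin 4) ℕ →ₐ[ℕ] ℝ).toRingHom four (X 0) (X 1) (X 2)
      (X 3) l
    simpa using this

lemma sy_KR_dpw (B lo hi : ℕ) {k : ℕ} (h : k ≤ 12) :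
    KR B 13 12 (dpw lo hi k 1 (2 ^ B)) (dpw lo hi k 1 1) fun w => dpw lo hi k (w 0) (w 1) := by
  refine ⟨dpw lo hi k (X 0) (X 1), ?_, ?_, ?_, fun w => ?_⟩
  · have hx : (X 0 : MvPolynomial (Fin 4) ℕ).IsHomogeneous 1 := isHomogeneous_X _ _
    have hy : (X 1 : MvPolynomial (Fin 4) ℕ).IsHomogeneous 1 := isHomogeneous_X _ _
    have k1 := (sy_hom_pow ((sy_hom_nat lo hx).add (sy_hom_nat hi hy)) k).mul
      (sy_hom_pow (sy_hom_nat 2 (hx.add hy)) (12 - k))
    rw [Nat.add_sub_cancel' h] at k1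
    exact k1
  · rw [sy_map_dpw, eval_X, eval_X]
    rfl
  · rw [sy_map_dpw, eval_X, eval_X]
    rfl
  · have := sy_map_dpw (aeval w : MvPolynomial (Fin 4) ℕ →ₐ[ℕ] ℝ).toRingHom lo hi k (X 0) (X 1)
    simpa using this

end

lemma sy_chamber3 {a : V 3} (ha : a ∈ Sx 3) : ∃ w : Fin 4 → ℝ, 0 ≤ w ∧
    ∀ e, bas false (w 0) (w 1) (w 2) (w 3) e = Sym e a * ((3 : ℕ) : ℝ) ^ (10 - e.deg) := by
  have hm := Tuple.monotone_sort a
  have hb := Sx.perm ha (Tuple.sort a)
  simp only [← sy_perm _ a (Tuple.sort a)]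
  generalize a ∘ Tuple.sort a = b at hm hb
  have h1 := hm (show (0 : Fin 3) ≤ 1 by decide)
  have h2 := hm (show (1 : Fin 3) ≤ 2 by decide)
  have h0 := hb.1 0
  have hs := hb.2
  rw [Fin.sum_univ_three] at hs
  refine ⟨![b 0, b 2 - b 1, b 1 - b 0, 0], fun i => ?_, fun e => ?_⟩
  · fin_cases i <;> simp [h0, h1, h2]
  · change sy3 (b 0 + (b 2 - b 1) + (b 1 - b 0)) (b 0 + (b 1 - b 0)) (b 0) e *
      (3 * b 0 + (b 2 - b 1) + 2 * (b 1 - b 0)) ^ _ = _
    rw [show b 0 + (b 2 - b 1) + (b 1 - b 0) = b 2 by ring, add_sub_cancel,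
      show 3 * b 0 + (b 2 - b 1) + 2 * (b 1 - b 0) = b 0 + b 1 + b 2 by ring, hs, Sym_three]
    simp only [sy3, per2]
    ring

lemma sy_chamber4 {a : V 4} (ha : a ∈ Sx 4) : ∃ w : Fin 4 → ℝ, 0 ≤ w ∧
    ∀ e, bas true (w 0) (w 1) (w 2) (w 3) e = Sym e a * ((4 : ℕ) : ℝ) ^ (10 - e.deg) := by
  have hm := Tuple.monotone_sort a
  have hb := Sx.perm ha (Tuple.sort a)
  simp only [← sy_perm _ a (Tuple.sort a)]
  generalize a ∘ Tuple.sort a = b at hm hb
  have h1 := hm (show (0 : Fin 4) ≤ 1 by decide)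
  have h2 := hm (show (1 : Fin 4) ≤ 2 by decide)
  have h3 := hm (show (2 : Fin 4) ≤ 3 by decide)
  have h0 := hb.1 0
  have hs := hb.2
  rw [Fin.sum_univ_four] at hs
  refine ⟨![b 0, b 3 - b 2, b 2 - b 1, b 1 - b 0], fun i => ?_, fun e => ?_⟩
  · fin_cases i <;> simp [h0, h1, h2, h3]
  · change sy4 (b 0 + (b 3 - b 2) + (b 2 - b 1) + (b 1 - b 0)) (b 0 + (b 2 - b 1) + (b 1 - b 0))
      (b 0 + (b 1 - b 0)) (b 0) e *
      (4 * b 0 + (b 3 - b 2) + 2 * (b 2 - b 1) + 3 * (b 1 - b 0)) ^ _ = _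
    rw [show b 0 + (b 3 - b 2) + (b 2 - b 1) + (b 1 - b 0) = b 3 by ring,
      show b 0 + (b 2 - b 1) + (b 1 - b 0) = b 2 by ring, add_sub_cancel,
      show 4 * b 0 + (b 3 - b 2) + 2 * (b 2 - b 1) + 3 * (b 1 - b 0) = b 0 + b 1 + b 2 + b 3 by ring,
      hs, Sym_four]
    simp only [sy4, per2]
    ring

lemma sy_chamber (four : Bool) {a : V (qq four)} (ha : a ∈ Sx (qq four)) : ∃ w : Fin 4 → ℝ, 0 ≤ w ∧
    ∀ l, npv four (w 0) (w 1) (w 2) (w 3) l = hv l a := by
  have : ∃ w : Fin 4 → ℝ, 0 ≤ w ∧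
      ∀ e, bas four (w 0) (w 1) (w 2) (w 3) e = Sym e a * (qq four : ℝ) ^ (10 - e.deg) := by
    cases four
    · exact sy_chamber3 ha
    · exact sy_chamber4 ha
  obtain ⟨w, hw, h⟩ := this
  refine ⟨w, hw, fun l => ?_⟩
  induction l with
  | nil => rfl
  | cons t l ih =>
    change _ + npv four _ _ _ _ l = _
    rw [ih, h, hv, hv, List.map_cons, List.sum_cons]

theorem pos_sound (four : Bool) {B : ℕ} (hB : 1 ≤ B) {lp ln : NP}
    (h : posOK four B lp ln = true) {a : V (qq four)} (ha : a ∈ Sx (qq four)) :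
    hv ln a ≤ hv lp a := by
  simp only [posOK, Bool.and_eq_true, Nat.blt_eq, Nat.beq_eq] at h
  obtain ⟨⟨⟨h1, h2⟩, h3⟩, h4⟩ := h
  obtain ⟨w, hw, e⟩ := sy_chamber four ha
  rw [← e, ← e]
  exact KR.le hB (by norm_num) (sy_KR_npv four B h1) (sy_KR_npv four B h2) (by omega) (by omega)
    h4 w hw

theorem main_sound (four : Bool) {B : ℕ} (hB : 1 ≤ B) {l : List BT}
    (hs : mainSz four B l = true) (h : ∀ k ≤ 10, mainOK four B l k = true)
    {a b : V (qq four)} (ha : a ∈ Sx (qq four)) (hb : b ∈ Sx (qq four)) : 0 ≤ btv l a b := by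
  simp only [mainSz, btOK, Bool.and_eq_true, List.all_eq_true] at hs
  obtain ⟨w, hw, e⟩ := sy_chamber four ha
  obtain ⟨w', hw', e'⟩ := sy_chamber four hb
  have := bil_sound (SA := 11) (SB := 11) (nA := 10) (nB := 10) hB (by norm_num) (by norm_num) l
    (mkB four B) (fun x w => npv four (w 0) (w 1) (w 2) (w 3) x.2.2.1)
    (fun x w => npv four (w 0) (w 1) (w 2) (w 3) x.2.2.2)
    (fun x hx => sy_KR_npv four B (hs.1 x hx).1) (fun x hx => sy_KR_npv four B (hs.1 x hx).2) hs.2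
    (fun i j k hk => Or.inr (allLt_iff.1 (allLt_iff.1 (h k (by omega)) j (by omega)) i (by omega)))
    w w' hw hw'
  simp only [e, e'] at this
  exact this

lemma sy_dpw_dg {B lo hi k i : ℕ} (hk : k ≤ 12) (h : dpw lo hi k 1 1 < 2 ^ B) (hi' : 13 ≤ i) :
    dg B (dpw lo hi k 1 (2 ^ B)) i = 0 := by
  have hb : 1 ≤ 2 ^ B := Nat.one_le_two_pow
  have h1 : dpw lo hi k 1 (2 ^ B) ≤ dpw lo hi k 1 1 * (2 ^ B) ^ 12 := by
    have e : dpw lo hi k 1 1 * (2 ^ B) ^ 12 = dpw lo hi k (2 ^ B) (2 ^ B) := by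
      simp only [dpw, Nat.cast_id]
      nth_rw 2 [← Nat.add_sub_cancel' hk]
      rw [pow_add, mul_mul_mul_comm, ← mul_pow, ← mul_pow]
      congr 2 <;> ring
    rw [e]
    simp only [dpw, Nat.cast_id]
    gcongr
  have h2 : dpw lo hi k 1 (2 ^ B) < 2 ^ (B * i) :=
    calc _ ≤ _ := h1
      _ < 2 ^ B * (2 ^ B) ^ 12 := Nat.mul_lt_mul_of_pos_right h (by positivity)
      _ = (2 ^ B) ^ 13 := by ring
      _ ≤ (2 ^ B) ^ i := Nat.pow_le_pow_right hb hi'
      _ = _ := (pow_mul _ _ _).symm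
  rw [dg, Nat.shiftRight_eq_div_pow, Nat.div_eq_of_lt h2, Nat.zero_mod]

lemma sy_rad (four : Bool) {B lo hi : ℕ} (hB : 1 ≤ B) {l : List DT}
    (h : radOK four B lo hi l = true) (hlt : lo < hi) {D : ℝ} (h1 : (lo : ℝ) ≤ 2 * D)
    (h2 : 2 * D ≤ hi) {a : V (qq four)} (ha : a ∈ Sx (qq four)) :
    0 ≤ (l.map fun x => sg x.1 * (x.2.1 : ℝ) * D ^ x.2.2.1 * hv x.2.2.2 a).sum := by
  simp only [radOK, Bool.and_eq_true, List.all_eq_true, Nat.ble_eq] at h
  obtain ⟨⟨k1, k2⟩, k3⟩ := h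
  obtain ⟨w', hw', e'⟩ := sy_chamber four ha
  have hp : (0 : ℝ) < hi - lo := sub_pos.2 (Nat.cast_lt.2 hlt)
  have k4 := k2
  rw [sizeOK, Bool.and_eq_true, List.all_eq_true] at k4
  have := bil_sound (SA := 13) (SB := 11) (nA := 12) (nB := 10) hB (by norm_num) (by norm_num) l
    (mkD four B lo hi) (fun x w => dpw lo hi x.2.2.1 (w 0) (w 1))
    (fun x w => npv four (w 0) (w 1) (w 2) (w 3) x.2.2.2)
    (fun x hx => sy_KR_dpw B lo hi (k1 x hx).2) (fun x hx => sy_KR_npv four B (k1 x hx).1) k2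
    (fun i j k hk => by
      rcases lt_or_ge (i + 13 * j + 13 * 13 * k) 13 with h | h
      · exact Or.inr (allLt_iff.1 k3 _ h)
      · exact Or.inl fun x hx => sy_dpw_dg (k1 x hx).2
          (Nat.blt_eq.mp (k4.1 _ (List.mem_map_of_mem hx))) h)
    ![(hi - 2 * D) / (hi - lo), (2 * D - lo) / (hi - lo), 0, 0] w' (fun i => by
      fin_cases i
      · exact div_nonneg (sub_nonneg.2 h2) hp.le
      · exact div_nonneg (sub_nonneg.2 h1) hp.le
      · exact le_rfl
      · exact le_rfl) hw'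
  have e : (l.map fun x => sg (mkD four B lo hi x).pos * ((mkD four B lo hi x).k : ℝ) *
      dpw lo hi x.2.2.1 ((hi - 2 * D) / (hi - lo)) ((2 * D - lo) / (hi - lo)) *
      npv four (w' 0) (w' 1) (w' 2) (w' 3) x.2.2.2) =
      l.map fun x => 2 ^ 12 * (sg x.1 * (x.2.1 : ℝ) * D ^ x.2.2.1 * hv x.2.2.2 a) :=
    List.map_congr_left fun x hx => by
      have a1 : (lo : ℝ) * ((hi - 2 * D) / (hi - lo)) + hi * ((2 * D - lo) / (hi - lo)) = 2 * D := by
        field_simp; ring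
      have a2 : ((hi : ℝ) - 2 * D) / (hi - lo) + (2 * D - lo) / (hi - lo) = 1 := by
        field_simp; ring
      rw [e', dpw, a1, a2, mul_one, mul_pow]
      nth_rw 2 [← Nat.add_sub_cancel' (k1 x hx).2]
      rw [pow_add]
      change sg x.1 * (x.2.1 : ℝ) * _ * _ = _
      ring
  have h3 := this.trans_eq (congrArg List.sum e)
  rw [List.sum_map_mul_left] at h3
  exact nonneg_of_mul_nonneg_right h3 (by positivity)

lemma sy_smul (four : Bool) {e : Ex} (h : four = true ∨ e.2.2.2 = 0) (D : ℝ) (a : V (qq four)) :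
    Sym e (D • a) = D ^ e.deg * Sym e a := by
  have : ∑ i : Fin (qq four), e.get i = e.deg := by
    cases four
    · change ∑ i : Fin 3, e.get i = e.deg
      rw [Fin.sum_univ_three, Ex.deg, h.resolve_left Bool.false_ne_true]
      rfl
    · change ∑ i : Fin 4, e.get i = e.deg
      rw [Fin.sum_univ_four]
      rfl
  simp only [Sym, Pi.smul_apply, smul_eq_mul, mul_pow, Finset.prod_mul_distrib,
    Finset.prod_pow_eq_pow_sum, this, Finset.mul_sum]

lemma sy_polar {q : ℕ} [NeZero q] {a b : V q} (ha : a ∈ Sx q) (hb : b ∈ Sx q) :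
    ∃ D : ℝ, ∃ c ∈ Sx q, 0 ≤ D ∧ D ≤ q ∧ a * b = D • c := by
  have hq : (0 : ℝ) < q := Nat.cast_pos.2 (NeZero.pos q)
  have h0 : ∀ i, 0 ≤ (a * b) i := fun i => mul_nonneg (ha.1 i) (hb.1 i)
  rcases (Finset.sum_nonneg fun i (_ : i ∈ Finset.univ) => h0 i).eq_or_lt with h | h
  · refine ⟨0, 1, one_mem_Sx, le_rfl, hq.le, funext fun i => ?_⟩
    rw [zero_smul]
    exact (Finset.sum_eq_zero_iff_of_nonneg fun i _ => h0 i).1 h.symm i (Finset.mem_univ _)
  · refine ⟨(∑ i, (a * b) i) / q, (q / ∑ i, (a * b) i) • (a * b), ⟨fun i => ?_, ?_⟩,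
      by positivity, ?_, ?_⟩
    · exact mul_nonneg (by positivity) (h0 i)
    · simp only [Pi.smul_apply, smul_eq_mul]
      rw [← Finset.mul_sum, div_mul_cancel₀ _ h.ne']
    · rw [div_le_iff₀ hq]
      nth_rw 1 [← ha.2]
      rw [Finset.sum_mul]
      exact Finset.sum_le_sum fun i _ => mul_le_mul_of_nonneg_left (Sx.le hb i) (ha.1 i)
    · rw [smul_smul, div_mul_div_cancel₀ hq.ne', div_self h.ne', one_smul]

lemma sy_swap {τ ι : Type} [Fintype ι] (l : List τ) (G : τ → ι → ℝ) :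
    ∑ i, (l.map fun x => G x i).sum = (l.map fun x => ∑ i, G x i).sum := by
  induction l with
  | nil => simp
  | cons x l ih => simp [← ih, Finset.sum_add_distrib]

theorem cert_sound (four : Bool) {B : ℕ} (hB : 1 ≤ B) {φ : V (qq four) → ℝ} {fp fn : NP}
    {Z m : ℕ} (hZ : 0 < Z) (hm : 0 < m)
    (hφ : ∀ a ∈ Sx (qq four), (Z : ℝ) * φ a = hv fp a - hv fn a) {K : KL} {ext : List BT}
    (r1 : radOK four B 0 1 (radTerms four K m fp fn) = true)
    (r2 : radOK four B 1 2 (radTerms four K m fp fn) = true)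
    (r3 : radOK four B 2 4 (radTerms four K m fp fn) = true)
    (r4 : radOK four B 4 (2 * qq four) (radTerms four K m fp fn) = true)
    (hs : mainSz four B (mainTerms K ext) = true)
    (h : ∀ k ≤ 10, mainOK four B (mainTerms K ext) k = true)
    {a b : V (qq four)} (ha : a ∈ Sx (qq four)) (hb : b ∈ Sx (qq four)) :
    0 ≤ ((qq four).factorial : ℝ) * (Z * m) * SS φ a b + btv ext a b := by
  have hq : 3 ≤ qq four := by cases four <;> decide
  have : NeZero (qq four) := ⟨by omega⟩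
  have hK : ∀ x ∈ K, four = true ∨ x.2.2.2.2.2 = 0 := fun x hx => by
    simp only [mainSz, btOK, Bool.and_eq_true, List.all_eq_true] at hs
    exact (sy_degOK (hs.1 _ (List.mem_append_left _ (List.mem_map_of_mem hx))).1 _
      List.mem_cons_self).2
  have h1 : ∀ e : Ex, ∀ c : V (qq four),
      hv [(1, e)] c = Sym e c * (qq four : ℝ) ^ (10 - e.deg) := fun e c => by simp [hv]
  have key : ∀ b ∈ Sx (qq four), (K.map fun x => sg x.1 * (x.2.1 : ℝ) *
      ((qq four : ℝ) ^ (10 - x.2.2.deg)) ^ 2 * Sym x.2.2 (a * b)).sum ≤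
      Z * m * hat φ (a * b) := fun b hb => by
    obtain ⟨D, c, hc, d0, d1, e⟩ := sy_polar ha hb
    have r : 0 ≤ ((radTerms four K m fp fn).map fun x =>
        sg x.1 * (x.2.1 : ℝ) * D ^ x.2.2.1 * hv x.2.2.2 c).sum := by
      rcases le_total (2 * D) 1 with c1 | c1
      · exact sy_rad four hB r1 (by norm_num) (by simpa using d0) (by simpa using c1) hc
      rcases le_total (2 * D) 2 with c2 | c2
      · exact sy_rad four hB r2 (by norm_num) (by simpa using c1) (by exact_mod_cast c2) hc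
      rcases le_total (2 * D) 4 with c3 | c3
      · exact sy_rad four hB r3 (by norm_num) (by exact_mod_cast c2) (by exact_mod_cast c3) hc
      · exact sy_rad four hB r4 (by omega) (by exact_mod_cast c3) (by push_cast; linarith) hc
    rw [radTerms, List.map_cons, List.map_cons, List.sum_cons, List.sum_cons, List.map_map] at r
    have e2 : (K.map ((fun x : DT => sg x.1 * (x.2.1 : ℝ) * D ^ x.2.2.1 * hv x.2.2.2 c) ∘
        fun x => (!x.1, x.2.1 * qq four ^ (10 - x.2.2.deg), x.2.2.deg, [(1, x.2.2)]))) =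
        K.map fun x => -1 * (sg x.1 * (x.2.1 : ℝ) * ((qq four : ℝ) ^ (10 - x.2.2.deg)) ^ 2 *
          Sym x.2.2 (D • c)) := List.map_congr_left fun x hx => by
      have : sg (!x.1) = -sg x.1 := by cases x.1 <;> simp [sg]
      simp only [Function.comp, h1, sy_smul four (hK x hx), this]
      push_cast
      ring
    rw [e2, List.sum_map_mul_left] at r
    rw [e, hat_smul φ d0, hat_of_mem φ hc]
    have e3 : (Z : ℝ) * m * (D * φ c) = m * D * (hv fp c - hv fn c) := by rw [← hφ c hc]; ring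
    simp only [sg, cond_true, cond_false, pow_one] at r ⊢
    linarith
  have m1 := main_sound four hB hs h ha hb
  rw [btv, mainTerms, List.map_append, List.sum_append, List.map_map] at m1
  have s1 := Finset.sum_le_sum fun (σ : Equiv.Perm (Fin (qq four))) (_ : σ ∈ Finset.univ) =>
    key _ (Sx.perm hb σ)
  rw [sy_swap, ← Finset.mul_sum] at s1
  have e4 : ((qq four).factorial : ℝ) * (Z * m) * SS φ a b =
      Z * m * ∑ σ : Equiv.Perm (Fin (qq four)), hat φ (a * (b ∘ σ)) := by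
    have : ((qq four).factorial : ℝ) ≠ 0 := by positivity
    rw [SS]
    field_simp
  rw [e4]
  refine m1.trans (add_le_add (le_of_eq_of_le (congrArg List.sum (List.map_congr_left
    fun x _ => ?_)) s1) le_rfl)
  simp only [Function.comp, h1, ← Finset.mul_sum, sy_prod]
  ring

end Vale.Agent.P154
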